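import Vale.Agent.Lib.P252.Hess2

/-!
The definitions for the Caccioppoli inequality in general dimension.
-/

namespace Vale.Agent.Lib.P252

namespace CaccioN

variable {n : ℕ}

/-- The reserve. -/
noncomputable def dRes (α y : ℝ) : ℝ := 2 * α - 1 - 4 * y ^ 2 * α ^ 2

/-- The value of the certificate. -/
noncomputable def val (c nn α β y x ζ1 ζ2 ξ1 ξ3 : ℝ) : ℝ :=
  x * (c + β - 1) - (2 * c * ζ1 + 2 * (y - 1/2) * ζ1 + (nn - 1) * ζ1 ^ 2) -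
    (1/4 - y ^ 2) * (2 * ζ2 + (nn - 1) * ζ2 ^ 2) - (1/4) * ξ3 ^ 2 - dRes α y * ξ1 ^ 2

/-- The data of a certificate. -/
structure Cert (n k : ℕ) (β y X ζ1 ζ2 ξ1 ξ3 : ℝ) : Prop where
  he : y ^ 2 ≤ 1/4
  hd : 0 < dRes ((k : ℝ) + 2) y
  C1 : -2 * ζ1 + 2 * y * ((k : ℝ) + 2) * ξ3 + 2 * dRes ((k : ℝ) + 2) y * ξ1 =
    2 * ((k : ℝ) + 2) * X + (y - 1/2) + 2 * cN n + (β - 1)
  C2 : -2 * (y - 1/2) * ζ1 - 2 * (1/4 - y ^ 2) * ζ2 + (1/2) * (1 - 2 * y * ((k : ℝ) + 2)) * ξ3 -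
    dRes ((k : ℝ) + 2) y * ξ1 = -((k : ℝ) + 2) * X + (y - 1/2) * (β - 1) - cN n
  hv : 0 < val (cN n) (n : ℝ) ((k : ℝ) + 2) β y X ζ1 ζ2 ξ1 ξ3

/-- The exponent `p ≥ 3` and the weight `D^β` are admissible in dimension `n` if the certificate of
the Caccioppoli inequality exists: the fields of `Cert` are two linear equations and three
inequalities for six real parameters. -/
def AdmN (n p : ℕ) (β : ℝ) : Prop :=
  3 ≤ p ∧ ∃ y X ζ1 ζ2 ξ1 ξ3 : ℝ, Cert n (p - 3) β y X ζ1 ζ2 ξ1 ξ3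

/-- `|∇f|²_g = u^{ij} f_i f_j`, with `(u^{ij}) = (D²u)⁻¹`: the squared length of the gradient of `f`
for the Calabi metric `g = u_{ij} dx^i dx^j`. -/
noncomputable def gradSq (u f : (Fin n → ℝ) → ℝ) (x : Fin n → ℝ) : ℝ :=
  ∑ i, ∑ j, (hess u x)⁻¹ i j * pd i f x * pd j f x

end CaccioN

end Vale.Agent.Lib.P252
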