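import Vale.Agent.Lib.P252.GenN.Base
import Vale.Agent.Lib.P252.GenN.Defs

/-!
The algebraic core of the Caccioppoli inequality in general dimension: the explicit certificate for the
three fields `T q`, `A(q,q)`, `p(q)`, with free parameters.
-/

namespace Vale.Agent.Lib.P252

namespace CaccioN

/-- The polynomial produced by the combination of the three fields, with the multiplier `T`. -/
noncomputable def Pf (A : Atoms) (α β y x : ℝ) : ℝ :=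
  A.T * A.HH + 2 * (y - 1/2) * (A.T * A.HM) - (y - 1/2) * (A.T * A.MM) +
    (A.T * A.pqq) * (2 * x + (y - 1/2) + 2 * A.cc + (β - 1)) +
    (A.T * A.Aqqq) * (-x + (y - 1/2) * (β - 1) - A.cc) + x * A.T ^ 3 * (A.cc + (β - 1)) +
    (α - 1) * (2 * x * (A.T * A.pqq) - x * (A.T * A.Aqqq) + 2 * (y - 1/2) * A.bc11 + 2 * A.b11 -
      (y - 1/2) * A.c11 - A.bc11)

/-- The Gram form for a covector `z₁ p(q) + z₃ A(q,q) + ζ T q`. -/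
noncomputable def Fv (A : Atoms) (z1 z3 ζ : ℝ) : ℝ :=
  z1 ^ 2 * A.b11 + 2 * z1 * z3 * A.bc11 + z3 ^ 2 * A.c11 + 2 * z1 * ζ * (A.T * A.pqq) +
    2 * z3 * ζ * (A.T * A.Aqqq) + ζ ^ 2 * A.T ^ 3

/-- The Gram form for the antisymmetrised array `q ∧ (z₁ p + z₂ A(q) + ζ T g)`. -/
noncomputable def Ft (A : Atoms) (z1 z2 ζ : ℝ) : ℝ :=
  z1 ^ 2 * (A.T * A.HH) + 2 * z1 * z2 * (A.T * A.HM) + z2 ^ 2 * (A.T * A.MM) +
    2 * A.cc * z1 * ζ * A.T ^ 3 + 2 * z2 * ζ * A.T ^ 3 + A.nn * ζ ^ 2 * A.T ^ 3 -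
    (z1 ^ 2 * A.b11 + 2 * z1 * z2 * A.bc11 + z2 ^ 2 * A.c11 + 2 * z1 * ζ * (A.T * A.pqq) +
      2 * z2 * ζ * (A.T * A.Aqqq) + ζ ^ 2 * A.T ^ 3)

lemma Fv_nonneg (A : Atoms)
    (hv : ∀ z1 z2 z3 z4 z5 z6 z7 : ℝ, 0 ≤ A.fPV z1 z2 z3 z4 z5 z6 z7 z1 z2 z3 z4 z5 z6 z7)
    (z1 z3 ζ : ℝ) : 0 ≤ Fv A z1 z3 ζ := by
  have h := hv z1 0 z3 0 0 (ζ * A.T) 0
  have e : A.fPV z1 0 z3 0 0 (ζ * A.T) 0 z1 0 z3 0 0 (ζ * A.T) 0 = Fv A z1 z3 ζ := by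
    unfold Atoms.fPV Fv
    ring
  rwa [e] at h

lemma Ft_nonneg (A : Atoms)
    (ht : ∀ a1 a2 a3 a4 a5 a6 a7 b1 b2 b3 b4 b5 b6 b7 c1 c2 c3 c4 c5 c6 c7 d1 d2 d3 d4 d5 d6 d7 : ℝ,
      0 ≤ A.fTens a1 a2 a3 a4 a5 a6 a7 b1 b2 b3 b4 b5 b6 b7 c1 c2 c3 c4 c5 c6 c7 d1 d2 d3 d4 d5 d6 d7)
    (z1 z2 ζ : ℝ) : 0 ≤ Ft A z1 z2 ζ := by
  have h := ht z1 z2 0 0 0 0 (ζ * A.T) 0 0 0 0 0 0 0 (-z1) (-z2) 0 0 0 0 (-(ζ * A.T)) 0 0 0 0 0 0 0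
  have e : A.fTens z1 z2 0 0 0 0 (ζ * A.T) 0 0 0 0 0 0 0 (-z1) (-z2) 0 0 0 0 (-(ζ * A.T))
      0 0 0 0 0 0 0 = 2 * Ft A z1 z2 ζ := by
    unfold Atoms.fTens Atoms.fIP Atoms.fPV Ft
    ring
  rw [e] at h
  linarith

/-- The master identity for the three fields. -/
lemma Pf_eq (A : Atoms) (α β y x ζ1 ζ2 ξ1 ξ3 : ℝ)
    (C1 : -2 * ζ1 + 2 * y * α * ξ3 + 2 * dRes α y * ξ1 =
      2 * α * x + (y - 1/2) + 2 * A.cc + (β - 1))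
    (C2 : -2 * (y - 1/2) * ζ1 - 2 * (1/4 - y ^ 2) * ζ2 + (1/2) * (1 - 2 * y * α) * ξ3 -
      dRes α y * ξ1 = -α * x + (y - 1/2) * (β - 1) - A.cc) :
    Pf A α β y x =
      Ft A 1 (y - 1/2) ζ1 + (1/4 - y ^ 2) * Ft A 0 1 ζ2 +
      (1/4) * Fv A (4 * y * α) (1 - 2 * y * α) ξ3 +
      dRes α y * Fv A 1 (-1/2) ξ1 +
      val A.cc A.nn α β y x ζ1 ζ2 ξ1 ξ3 * A.T ^ 3 := by
  unfold dRes at C1 C2
  unfold Pf Fv Ft val dRes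
  linear_combination (-(A.T * A.pqq)) * C1 + (-(A.T * A.Aqqq)) * C2

/-- The lower bound for the polynomial. -/
lemma Pf_lower (A : Atoms)
    (ht : ∀ a1 a2 a3 a4 a5 a6 a7 b1 b2 b3 b4 b5 b6 b7 c1 c2 c3 c4 c5 c6 c7 d1 d2 d3 d4 d5 d6 d7 : ℝ,
      0 ≤ A.fTens a1 a2 a3 a4 a5 a6 a7 b1 b2 b3 b4 b5 b6 b7 c1 c2 c3 c4 c5 c6 c7 d1 d2 d3 d4 d5 d6 d7)
    (α β y x ζ1 ζ2 ξ1 ξ3 : ℝ)
    (C1 : -2 * ζ1 + 2 * y * α * ξ3 + 2 * dRes α y * ξ1 =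
      2 * α * x + (y - 1/2) + 2 * A.cc + (β - 1))
    (C2 : -2 * (y - 1/2) * ζ1 - 2 * (1/4 - y ^ 2) * ζ2 + (1/2) * (1 - 2 * y * α) * ξ3 -
      dRes α y * ξ1 = -α * x + (y - 1/2) * (β - 1) - A.cc) (he : y ^ 2 ≤ 1/4) :
    dRes α y * Fv A 1 (-1/2) ξ1 + (1/4) * Fv A (4 * y * α) (1 - 2 * y * α) ξ3 +
      val A.cc A.nn α β y x ζ1 ζ2 ξ1 ξ3 * A.T ^ 3 ≤ Pf A α β y x := by
  rw [Pf_eq A α β y x ζ1 ζ2 ξ1 ξ3 C1 C2]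
  have h1 := Ft_nonneg A ht 1 (y - 1/2) ζ1
  have h2 := mul_nonneg (sub_nonneg.2 he) (Ft_nonneg A ht 0 1 ζ2)
  linarith

/-- A two by two positive form. -/
lemma psd2 {S E w : ℝ} (hS : 0 ≤ S) (hE : 0 ≤ E) (h : w ^ 2 ≤ E * S) (P R : ℝ) :
    0 ≤ P ^ 2 * S + 2 * P * R * w + R ^ 2 * E := by
  rcases hS.eq_or_lt with h0 | hpos
  · have hw : w = 0 := by
      have : w ^ 2 ≤ 0 := by rw [← h0] at h; simpa using h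
      exact pow_eq_zero_iff (two_ne_zero) |>.1 (le_antisymm this (sq_nonneg w))
    rw [hw, ← h0]
    have := mul_nonneg (sq_nonneg R) hE
    linarith
  · have h1 : 0 ≤ S * (P ^ 2 * S + 2 * P * R * w + R ^ 2 * E) := by
      have e : S * (P ^ 2 * S + 2 * P * R * w + R ^ 2 * E) =
          (P * S + R * w) ^ 2 + R ^ 2 * (E * S - w ^ 2) := by ring
      rw [e]
      have := mul_nonneg (sq_nonneg R) (sub_nonneg.2 h)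
      positivity
    exact nonneg_of_mul_nonneg_right h1 hpos

/-- The absorption of the terms containing the gradient of the test function. -/
lemma bracket {ψ T E S3 S2 wA wC wq d v : ℝ} (y l ξ N : ℝ) (hT : 0 ≤ T) (hE : 0 ≤ E) (hS3 : 0 ≤ S3)
    (hS2 : 0 ≤ S2) (hd : 0 < d) (hv : 0 < v) (h1 : wA ^ 2 ≤ E * S3) (h2 : wC ^ 2 ≤ E * S2)
    (h3 : wq ^ 2 ≤ E * T) :
    (v / 2) * (ψ ^ 2 * T ^ 3) -
        (N ^ 2 * l ^ 2 / (4 * d) + N ^ 2 * y ^ 2 + N ^ 2 * ξ ^ 2 / (2 * v)) * (T ^ 2 * E) ≤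
      ψ ^ 2 * (d * S3 + (1/4) * S2 + v * T ^ 3) + N * ψ * T * (l * wA + y * wC + ξ * T * wq) := by
  have a := mul_nonneg hd.le (psd2 hS3 hE h1 ψ (N * l * T / (2 * d)))
  have b := mul_nonneg (by norm_num : (0 : ℝ) ≤ 1/4) (psd2 hS2 hE h2 ψ (2 * N * T * y))
  have c := mul_nonneg (mul_nonneg (sq_nonneg T) (by positivity : 0 ≤ v / 2))
    (psd2 hT hE h3 ψ (N * ξ / v))
  have ea : d * (ψ ^ 2 * S3 + 2 * ψ * (N * l * T / (2 * d)) * wA + (N * l * T / (2 * d)) ^ 2 * E) =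
      d * (ψ ^ 2 * S3) + N * ψ * T * (l * wA) + N ^ 2 * l ^ 2 / (4 * d) * (T ^ 2 * E) := by
    field_simp
    ring
  have ec : T ^ 2 * (v / 2) * (ψ ^ 2 * T + 2 * ψ * (N * ξ / v) * wq + (N * ξ / v) ^ 2 * E) =
      (v / 2) * (ψ ^ 2 * T ^ 3) + N * ψ * T * (ξ * T * wq) + N ^ 2 * ξ ^ 2 / (2 * v) * (T ^ 2 * E) := by
    field_simp
  rw [ea] at a
  rw [ec] at c
  nlinarith [a, b, c]

/-- Young's inequality for natural exponents. -/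
lemma young_nat {U E δ : ℝ} (hU : 0 ≤ U) (hE : 0 ≤ E) (hδ : 0 < δ) (k : ℕ) :
    U ^ k * E ≤ δ * U ^ (k + 1) + (1 / δ) ^ k * E ^ (k + 1) := by
  by_cases h : E ≤ δ * U
  · have h1 : U ^ k * E ≤ U ^ k * (δ * U) := mul_le_mul_of_nonneg_left h (pow_nonneg hU k)
    have h2 : U ^ k * (δ * U) = δ * U ^ (k + 1) := by ring
    have h3 : 0 ≤ (1 / δ) ^ k * E ^ (k + 1) := by positivity
    linarith
  · have h' : U ≤ (1 / δ) * E := by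
      have : δ * U < E := not_le.1 h
      rw [one_div, ← div_eq_inv_mul, le_div_iff₀ hδ]
      linarith
    have h1 : U ^ k ≤ ((1 / δ) * E) ^ k := pow_le_pow_left₀ hU h' k
    have h2 : U ^ k * E ≤ ((1 / δ) * E) ^ k * E := mul_le_mul_of_nonneg_right h1 hE
    have h3 : ((1 / δ) * E) ^ k * E = (1 / δ) ^ k * E ^ (k + 1) := by
      rw [mul_pow, pow_succ E k]
      ring
    have h4 : 0 ≤ δ * U ^ (k + 1) := by positivity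
    linarith

/-- The algebraic combination of all pointwise facts. -/
lemma final_abs {ψ T E S3 S2 wB wC wq d v PP y X ξ1 ξ3 α l C1 C2 : ℝ} (k : ℕ)
    (hl : l = 1 - 4 * y ^ 2 * α)
    (hT0 : 0 ≤ T) (hE0 : 0 ≤ E) (hS3 : 0 ≤ S3) (hS2 : 0 ≤ S2) (hd : 0 < d) (hv : 0 < v)
    (c1 : (1 * wB + (-1/2) * wC + (ξ1 * T) * wq) ^ 2 ≤ E * S3)
    (c2 : ((4 * y * α) * wB + (1 - 2 * y * α) * wC + (ξ3 * T) * wq) ^ 2 ≤ E * S2)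
    (c3 : wq ^ 2 ≤ E * T)
    (hP : d * S3 + (1/4) * S2 + v * T ^ 3 ≤ PP)
    (hC1e : (2 * (k : ℝ) + 6) ^ 2 * l ^ 2 / (4 * d) + (2 * (k : ℝ) + 6) ^ 2 * y ^ 2 +
      (2 * (k : ℝ) + 6) ^ 2 * (X - l * ξ1 - y * ξ3) ^ 2 / (2 * v) + 1 = C1)
    (hC1pos : 0 < C1)
    (hC2 : C2 = C1 * (1 / (v / (4 * C1))) ^ (k + 2)) :
    (v / 4) * (ψ ^ 2 * T) ^ (k + 3) - C2 * E ^ (k + 3) ≤
      (ψ ^ 2) ^ (k + 2) * T ^ k * (ψ ^ 2 * PP + (2 * (k : ℝ) + 6) * ψ * T *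
        (X * T * wq + (y - 1/2) * wC + wB)) := by
  have hbr := bracket (ψ := ψ) (T := T) (E := E) (d := d) (v := v) y l
    (X - l * ξ1 - y * ξ3) (2 * (k : ℝ) + 6) hT0 hE0 hS3 hS2 hd hv c1 c2 c3
  have hPP := mul_le_mul_of_nonneg_left hP (sq_nonneg ψ)
  have hTE : 0 ≤ T ^ 2 * E := by positivity
  have e5 : l * (1 * wB + (-1/2) * wC + (ξ1 * T) * wq) +
      y * ((4 * y * α) * wB + (1 - 2 * y * α) * wC + (ξ3 * T) * wq) +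
      (X - l * ξ1 - y * ξ3) * T * wq = X * T * wq + (y - 1/2) * wC + wB := by
    rw [hl]
    ring
  rw [e5] at hbr
  have hBr : (v / 2) * (ψ ^ 2 * T ^ 3) - C1 * (T ^ 2 * E) ≤
      ψ ^ 2 * PP + (2 * (k : ℝ) + 6) * ψ * T * (X * T * wq + (y - 1/2) * wC + wB) := by
    rw [← hC1e, add_mul _ (1 : ℝ), one_mul]
    linarith
  have hU0 : 0 ≤ ψ ^ 2 * T := mul_nonneg (sq_nonneg _) hT0
  have hδ0 : 0 < v / (4 * C1) := by positivity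
  have hy := young_nat hU0 hE0 hδ0 (k + 2)
  have hC1δ : C1 * (v / (4 * C1)) = v / 4 := by
    field_simp
  have hy2 := mul_le_mul_of_nonneg_left hy hC1pos.le
  have hfac : 0 ≤ (ψ ^ 2) ^ (k + 2) * T ^ k := by positivity
  have hBr2 := mul_le_mul_of_nonneg_left hBr hfac
  have e8 : (ψ ^ 2) ^ (k + 2) * T ^ k * ((v / 2) * (ψ ^ 2 * T ^ 3) - C1 * (T ^ 2 * E)) =
      (v / 2) * (ψ ^ 2 * T) ^ (k + 3) - C1 * ((ψ ^ 2 * T) ^ (k + 2) * E) := by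
    rw [mul_pow, mul_pow]
    ring
  rw [e8] at hBr2
  have e9 : C1 * (v / (4 * C1) * (ψ ^ 2 * T) ^ (k + 2 + 1) +
      (1 / (v / (4 * C1))) ^ (k + 2) * E ^ (k + 2 + 1)) =
      (v / 4) * (ψ ^ 2 * T) ^ (k + 3) + C2 * E ^ (k + 3) := by
    rw [hC2, ← hC1δ]
    ring
  rw [e9] at hy2
  linarith

end CaccioN

end Vale.Agent.Lib.P252
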