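import Vale.Agent.Lib.P252.Hess7

/-!
Dimension free copies of the pairing lemmas, the Gram inequalities and the table of the base fields.
-/

open scoped ContDiff Matrix Kronecker Topology
open MeasureTheory

namespace Vale.Agent.Lib.P252

lemma zero_add_aux {n : ℕ} {f g : (Fin n → ℝ) → ℝ} (hf : Integrable f ∧ ∫ x, f x = 0)
    (hg : Integrable g ∧ ∫ x, g x = 0) :
    Integrable (fun x => f x + g x) ∧ ∫ x, (f x + g x) = 0 :=
  ⟨hf.1.add hg.1, by rw [integral_add hf.1 hg.1, hf.2, hg.2, add_zero]⟩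

lemma zero_mul_aux {n : ℕ} {f : (Fin n → ℝ) → ℝ} (c : ℝ) (hf : Integrable f ∧ ∫ x, f x = 0) :
    Integrable (fun x => c * f x) ∧ ∫ x, c * f x = 0 :=
  ⟨hf.1.const_mul c, by rw [integral_const_mul, hf.2, mul_zero]⟩


variable {n : ℕ} {Ω : Set (Fin n → ℝ)} {u : (Fin n → ℝ) → ℝ} {x₀ : Fin n → ℝ}

/-- The inner product on three-index arrays. -/
noncomputable def IP3 (u : (Fin n → ℝ) → ℝ) (x : Fin n → ℝ) (Θ Θ' : Fin n → Fin n → Fin n → ℝ) : ℝ :=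
  ∑ i, ∑ i', ∑ j, ∑ j', ∑ k, ∑ k', Ui u x i i' * Ui u x j j' * Ui u x k k' * Θ i j k * Θ' i' j' k'

/-- The contraction `Z_{jk} b^k`. -/
noncomputable def Cn (u : (Fin n → ℝ) → ℝ) (x : Fin n → ℝ) (Z : Fin n → Fin n → ℝ)
    (b : Fin n → (Fin n → ℝ) → ℝ) (j : Fin n) : ℝ := ∑ k, Z j k * ra u b k x

/-- The pairing of two covectors at a point. -/
noncomputable def PV (u : (Fin n → ℝ) → ℝ) (x : Fin n → ℝ) (v w : Fin n → ℝ) : ℝ :=
  ∑ i, ∑ j, Ui u x i j * v i * w j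

lemma IP3_add_left (x : Fin n → ℝ) (Θ₁ Θ₂ Θ' : Fin n → Fin n → Fin n → ℝ) :
    IP3 u x (fun i j k => Θ₁ i j k + Θ₂ i j k) Θ' = IP3 u x Θ₁ Θ' + IP3 u x Θ₂ Θ' := by
  unfold IP3
  simp only [mul_add, add_mul, Finset.sum_add_distrib]

lemma IP3_add_right (x : Fin n → ℝ) (Θ Θ₁ Θ₂ : Fin n → Fin n → Fin n → ℝ) :
    IP3 u x Θ (fun i j k => Θ₁ i j k + Θ₂ i j k) = IP3 u x Θ Θ₁ + IP3 u x Θ Θ₂ := by
  unfold IP3
  simp only [mul_add, Finset.sum_add_distrib]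

lemma pa_eq_sum (a b : Fin n → (Fin n → ℝ) → ℝ) (x : Fin n → ℝ) :
    pa u a b x = ∑ i, ∑ i', Ui u x i i' * a i x * b i' x := by
  unfold pa ra
  refine Finset.sum_congr rfl fun i _ => ?_
  rw [Finset.mul_sum]
  exact Finset.sum_congr rfl fun i' _ => by ring

lemma sum_factor (F : Fin n → Fin n → ℝ) (G : Fin n → Fin n → Fin n → Fin n → ℝ) :
    (∑ i, ∑ i', F i i') * (∑ j, ∑ k, ∑ j', ∑ k', G j k j' k') =
      ∑ i, ∑ i', ∑ j, ∑ k, ∑ j', ∑ k', F i i' * G j k j' k' := by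
  simp only [Finset.sum_mul]
  simp only [Finset.mul_sum]

/-- `a ⊗ Z` paired with `b ⊗ W`. -/
lemma IP3_aa (x : Fin n → ℝ) (a b : Fin n → (Fin n → ℝ) → ℝ) (Z W : Fin n → Fin n → ℝ) :
    IP3 u x (fun i j k => a i x * Z j k) (fun i j k => b i x * W j k) = pa u a b x * IP u x Z W := by
  rw [pa_eq_sum]
  unfold IP3 IP
  rw [sum_factor]
  refine Finset.sum_congr rfl fun i _ => Finset.sum_congr rfl fun i' _ => ?_
  calc ∑ j, ∑ j', ∑ k, ∑ k', Ui u x i i' * Ui u x j j' * Ui u x k k' * (a i x * Z j k) *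
        (b i' x * W j' k')
      = ∑ j, ∑ k, ∑ j', ∑ k', Ui u x i i' * Ui u x j j' * Ui u x k k' * (a i x * Z j k) *
        (b i' x * W j' k') := Finset.sum_congr rfl fun j _ => Finset.sum_comm
    _ = _ := by
        refine Finset.sum_congr rfl fun j _ => Finset.sum_congr rfl fun k _ =>
          Finset.sum_congr rfl fun j' _ => Finset.sum_congr rfl fun k' _ => ?_
        ring

/-- `Z ⊗ a` paired with `W ⊗ b`. -/
lemma IP3_bb (x : Fin n → ℝ) (a b : Fin n → (Fin n → ℝ) → ℝ) (Z W : Fin n → Fin n → ℝ) :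
    IP3 u x (fun i j k => Z i j * a k x) (fun i j k => W i j * b k x) = pa u a b x * IP u x Z W := by
  rw [pa_eq_sum]
  unfold IP3 IP
  rw [sum_factor]
  calc ∑ i, ∑ i', ∑ j, ∑ j', ∑ k, ∑ k', Ui u x i i' * Ui u x j j' * Ui u x k k' * (Z i j * a k x) *
        (W i' j' * b k' x)
      = ∑ i, ∑ j, ∑ i', ∑ j', ∑ k, ∑ k', Ui u x i i' * Ui u x j j' * Ui u x k k' * (Z i j * a k x) *
        (W i' j' * b k' x) := Finset.sum_congr rfl fun i _ => Finset.sum_comm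
    _ = ∑ i, ∑ j, ∑ k, ∑ k', ∑ i', ∑ j', Ui u x i i' * Ui u x j j' * Ui u x k k' *
        (Z i j * a k x) * (W i' j' * b k' x) := by
        refine Finset.sum_congr rfl fun i _ => Finset.sum_congr rfl fun j _ => ?_
        rw [sum4_swap]
    _ = ∑ k, ∑ k', ∑ i, ∑ j, ∑ i', ∑ j', Ui u x i i' * Ui u x j j' * Ui u x k k' *
        (Z i j * a k x) * (W i' j' * b k' x) := sum4_swap
    _ = _ := by
        refine Finset.sum_congr rfl fun k _ => Finset.sum_congr rfl fun k' _ =>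
          Finset.sum_congr rfl fun i _ => Finset.sum_congr rfl fun j _ =>
          Finset.sum_congr rfl fun i' _ => Finset.sum_congr rfl fun j' _ => ?_
        ring

/-- `a ⊗ Z` paired with `W ⊗ b`, where `W` is symmetric and `U` is symmetric. -/
lemma IP3_ab (x : Fin n → ℝ) (hU : ∀ i j, Ui u x i j = Ui u x j i)
    (a b : Fin n → (Fin n → ℝ) → ℝ) (Z W : Fin n → Fin n → ℝ) (hW : ∀ i j, W i j = W j i) :
    IP3 u x (fun i j k => a i x * Z j k) (fun i j k => W i j * b k x) =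
      PV u x (Cn u x Z b) (Cn u x W a) := by
  have e1 : ∀ j, Cn u x Z b j = ∑ k, ∑ k', Z j k * (Ui u x k k' * b k' x) := by
    intro j
    unfold Cn ra
    exact Finset.sum_congr rfl fun k _ => Finset.mul_sum _ _ _
  have e2 : ∀ j', Cn u x W a j' = ∑ i, ∑ i', (Ui u x i i' * a i x) * W i' j' := by
    intro j'
    unfold Cn ra
    simp only [Finset.mul_sum]
    rw [Finset.sum_comm]
    refine Finset.sum_congr rfl fun i _ => Finset.sum_congr rfl fun i' _ => ?_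
    rw [hW j' i', hU i' i]
    ring
  unfold PV
  simp only [e1, e2]
  unfold IP3
  calc ∑ i, ∑ i', ∑ j, ∑ j', ∑ k, ∑ k', Ui u x i i' * Ui u x j j' * Ui u x k k' * (a i x * Z j k) *
        (W i' j' * b k' x)
      = ∑ i, ∑ j, ∑ i', ∑ j', ∑ k, ∑ k', Ui u x i i' * Ui u x j j' * Ui u x k k' * (a i x * Z j k) *
        (W i' j' * b k' x) := Finset.sum_congr rfl fun i _ => Finset.sum_comm
    _ = ∑ j, ∑ i, ∑ i', ∑ j', ∑ k, ∑ k', Ui u x i i' * Ui u x j j' * Ui u x k k' * (a i x * Z j k) *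
        (W i' j' * b k' x) := Finset.sum_comm
    _ = ∑ j, ∑ j', ∑ i, ∑ i', ∑ k, ∑ k', Ui u x i i' * Ui u x j j' * Ui u x k k' * (a i x * Z j k) *
        (W i' j' * b k' x) := by
        refine Finset.sum_congr rfl fun j _ => ?_
        calc ∑ i, ∑ i', ∑ j', ∑ k, ∑ k', Ui u x i i' * Ui u x j j' * Ui u x k k' *
              (a i x * Z j k) * (W i' j' * b k' x)
            = ∑ i, ∑ j', ∑ i', ∑ k, ∑ k', Ui u x i i' * Ui u x j j' * Ui u x k k' *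
              (a i x * Z j k) * (W i' j' * b k' x) :=
              Finset.sum_congr rfl fun i _ => Finset.sum_comm
          _ = _ := Finset.sum_comm
    _ = _ := by
        refine Finset.sum_congr rfl fun j _ => Finset.sum_congr rfl fun j' _ => ?_
        have hfac : ∀ (c : ℝ) (F G : Fin n → Fin n → ℝ),
            c * (∑ k, ∑ k', F k k') * (∑ i, ∑ i', G i i') =
              ∑ i, ∑ i', ∑ k, ∑ k', c * F k k' * G i i' := by
          intro c F G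
          have h1 : ∀ i i', ∑ k, ∑ k', c * F k k' * G i i' = c * (∑ k, ∑ k', F k k') * G i i' := by
            intro i i'
            simp only [Finset.mul_sum, Finset.sum_mul]
          simp only [h1]
          simp only [← Finset.mul_sum]
        rw [hfac]
        refine Finset.sum_congr rfl fun i _ => Finset.sum_congr rfl fun i' _ =>
          Finset.sum_congr rfl fun k _ => Finset.sum_congr rfl fun k' _ => ?_
        ring

lemma IP3_comm (x : Fin n → ℝ) (hU : ∀ i j, Ui u x i j = Ui u x j i)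
    (Θ Θ' : Fin n → Fin n → Fin n → ℝ) : IP3 u x Θ Θ' = IP3 u x Θ' Θ := by
  unfold IP3
  rw [Finset.sum_comm]
  refine Finset.sum_congr rfl fun i _ => Finset.sum_congr rfl fun i' _ => ?_
  rw [Finset.sum_comm]
  refine Finset.sum_congr rfl fun j _ => Finset.sum_congr rfl fun j' _ => ?_
  rw [Finset.sum_comm]
  refine Finset.sum_congr rfl fun k _ => Finset.sum_congr rfl fun k' _ => ?_
  rw [hU i' i, hU j' j, hU k' k]
  ring

lemma sum6_reorder (f : Fin n → Fin n → Fin n → Fin n → Fin n → Fin n → ℝ) :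
    ∑ i, ∑ j, ∑ k, ∑ i', ∑ j', ∑ k', f i j k i' j' k' =
      ∑ i, ∑ i', ∑ j, ∑ j', ∑ k, ∑ k', f i j k i' j' k' := by
  refine Finset.sum_congr rfl fun i _ => ?_
  calc ∑ j, ∑ k, ∑ i', ∑ j', ∑ k', f i j k i' j' k'
      = ∑ j, ∑ i', ∑ k, ∑ j', ∑ k', f i j k i' j' k' :=
        Finset.sum_congr rfl fun j _ => Finset.sum_comm
    _ = ∑ i', ∑ j, ∑ k, ∑ j', ∑ k', f i j k i' j' k' := Finset.sum_comm
    _ = _ := Finset.sum_congr rfl fun i' _ => Finset.sum_congr rfl fun j _ => Finset.sum_comm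

namespace IsAffineMaximal

variable (hs : IsAffineMaximal Ω u)
include hs

/-- Positivity of the inner product on three-index arrays. -/
lemma IP3_self_nonneg {x : Fin n → ℝ} (hx : x ∈ Ω) (Θ : Fin n → Fin n → Fin n → ℝ) :
    0 ≤ IP3 u x Θ Θ := by
  classical
  have hU : ((hess u x)⁻¹).PosSemidef := (hs.posDef x hx).inv.posSemidef
  have hK := (hU.kronecker hU).kronecker hU
  have h := hK.dotProduct_mulVec_nonneg (fun p : (Fin n × Fin n) × Fin n => Θ p.1.1 p.1.2 p.2)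
  have e : star (fun p : (Fin n × Fin n) × Fin n => Θ p.1.1 p.1.2 p.2) ⬝ᵥ
      (((hess u x)⁻¹ ⊗ₖ (hess u x)⁻¹ ⊗ₖ (hess u x)⁻¹) *ᵥ
        fun p : (Fin n × Fin n) × Fin n => Θ p.1.1 p.1.2 p.2) = ∑ i, ∑ j, ∑ k, ∑ i', ∑ j', ∑ k',
          Ui u x i i' * Ui u x j j' * Ui u x k k' * Θ i j k * Θ i' j' k' := by
    simp only [dotProduct, Matrix.mulVec, Fintype.sum_prod_type, Matrix.kroneckerMap_apply,
      Pi.star_apply, star_trivial, Ui, Finset.mul_sum]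
    refine Finset.sum_congr rfl fun i _ => Finset.sum_congr rfl fun j _ =>
      Finset.sum_congr rfl fun k _ => Finset.sum_congr rfl fun i' _ =>
      Finset.sum_congr rfl fun j' _ => Finset.sum_congr rfl fun k' _ => ?_
    ring
  rw [e] at h
  refine h.trans_eq ?_
  unfold IP3
  exact sum6_reorder _

end IsAffineMaximal

namespace IsAffineMaximal

variable {n : ℕ} {Ω : Set (Fin n → ℝ)} {u : (Fin n → ℝ) → ℝ} {x₀ : Fin n → ℝ}
variable (hs : IsAffineMaximal Ω u)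
include hs


lemma pa_self_nonneg (a : Fin n → (Fin n → ℝ) → ℝ) {x : Fin n → ℝ} (hx : x ∈ Ω) :
    0 ≤ pa u a a x := by
  have h := Qv_nonneg (hs.posDef x hx).inv (fun i => a i x)
  have e : Qv (hess u x)⁻¹ (fun i => a i x) (fun i => a i x) = pa u a a x := by
    unfold Qv pa ra
    refine Finset.sum_congr rfl fun i _ => ?_
    rw [Finset.mul_sum]
    refine Finset.sum_congr rfl fun j _ => ?_
    simp only [Ui]
    ring
  rwa [e] at h

omit hs in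
lemma ra_add_smul (b c : Fin n → (Fin n → ℝ) → ℝ) (t : ℝ) (k : Fin n) (y : Fin n → ℝ) :
    ra u (fun i y => b i y + t * c i y) k y = ra u b k y + t * ra u c k y := by
  unfold ra
  rw [Finset.mul_sum, ← Finset.sum_add_distrib]
  exact Finset.sum_congr rfl fun j _ => by ring

omit hs in
lemma pa_add_smul_right (a b c : Fin n → (Fin n → ℝ) → ℝ) (t : ℝ) (x : Fin n → ℝ) :
    pa u a (fun i y => b i y + t * c i y) x = pa u a b x + t * pa u a c x := by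
  unfold pa
  simp_rw [ra_add_smul]
  rw [Finset.mul_sum, ← Finset.sum_add_distrib]
  exact Finset.sum_congr rfl fun j _ => by ring

omit hs in
lemma pa_add_smul_left (a b c : Fin n → (Fin n → ℝ) → ℝ) (t : ℝ) (x : Fin n → ℝ) :
    pa u (fun i y => b i y + t * c i y) a x = pa u b a x + t * pa u c a x := by
  unfold pa
  rw [Finset.mul_sum, ← Finset.sum_add_distrib]
  exact Finset.sum_congr rfl fun j _ => by ring


/-- The Cauchy-Schwarz inequality for the pairing. -/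
lemma pa_sq_le (a b : Fin n → (Fin n → ℝ) → ℝ) {x : Fin n → ℝ} (hx : x ∈ Ω) :
    pa u a b x ^ 2 ≤ pa u a a x * pa u b b x := by
  have hall : ∀ t : ℝ, 0 ≤ pa u b b x * (t * t) + (2 * pa u a b x) * t + pa u a a x := by
    intro t
    have h := hs.pa_self_nonneg (fun i y => a i y + t * b i y) hx
    rw [pa_add_smul_left, pa_add_smul_right, pa_add_smul_right, hs.pa_symm b a hx] at h
    nlinarith [h]
  have h := discrim_le_zero hall
  unfold discrim at h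
  nlinarith

lemma aT_nonneg {x : Fin n → ℝ} (hx : x ∈ Ω) : 0 ≤ aT u x := hs.pa_self_nonneg _ hx

lemma gr_logD_eq_zero {x : Fin n → ℝ} (hx : x ∈ Ω) (hT : aT u x = 0) : gr (logD u) x = 0 := by
  by_contra hne
  have h := Qv_pos (hs.posDef x hx).inv hne
  have e : Qv (hess u x)⁻¹ (gr (logD u) x) (gr (logD u) x) = aT u x := by
    unfold Qv aT pa ra qF gr
    refine Finset.sum_congr rfl fun i _ => ?_
    rw [Finset.mul_sum]
    refine Finset.sum_congr rfl fun j _ => ?_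
    simp only [Ui]
    ring
  rw [e, hT] at h
  exact lt_irrefl _ h

end IsAffineMaximal


/-- The scalar atoms of the certificates. -/
structure Atoms where
  cc : ℝ
  nn : ℝ
  T : ℝ
  H : ℝ
  G : ℝ
  pqq : ℝ
  pqx : ℝ
  pxx : ℝ
  Aqqq : ℝ
  Aqqx : ℝ
  Aqxx : ℝ
  Axxx : ℝ
  HH : ℝ
  HM : ℝ
  HN : ℝ
  MM : ℝ
  MN : ℝ
  NN : ℝ
  b11 : ℝ
  b12 : ℝ
  b22 : ℝ
  bc11 : ℝ
  bc12 : ℝ
  bc13 : ℝ
  bc21 : ℝ
  bc22 : ℝ
  bc23 : ℝ
  c11 : ℝ
  c12 : ℝ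
  c13 : ℝ
  c22 : ℝ
  c23 : ℝ
  c33 : ℝ

/-- The inner product of two combinations of the seven tensors. -/
noncomputable def Atoms.fIP (A : Atoms) (z1 z2 z3 z4 z5 z6 z7 w1 w2 w3 w4 w5 w6 w7 : ℝ) : ℝ :=
  z1 * w1 * A.HH +
    z1 * w2 * A.HM +
    z1 * w3 * A.HN +
    z1 * w4 * A.pqq +
    z1 * w5 * A.pqx +
    z1 * w6 * A.pxx +
    z1 * w7 * (A.cc * A.T) +
    z2 * w1 * A.HM +
    z2 * w2 * A.MM +
    z2 * w3 * A.MN +
    z2 * w4 * A.Aqqq +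
    z2 * w5 * A.Aqqx +
    z2 * w6 * A.Aqxx +
    z2 * w7 * A.T +
    z3 * w1 * A.HN +
    z3 * w2 * A.MN +
    z3 * w3 * A.NN +
    z3 * w4 * A.Aqqx +
    z3 * w5 * A.Aqxx +
    z3 * w6 * A.Axxx +
    z3 * w7 * A.H +
    z4 * w1 * A.pqq +
    z4 * w2 * A.Aqqq +
    z4 * w3 * A.Aqqx +
    z4 * w4 * (A.T ^ 2) +
    z4 * w5 * (A.T * A.H) +
    z4 * w6 * (A.H ^ 2) +
    z4 * w7 * A.T +
    z5 * w1 * A.pqx +
    z5 * w2 * A.Aqqx +
    z5 * w3 * A.Aqxx +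
    z5 * w4 * (A.T * A.H) +
    z5 * w5 * ((A.T * A.G + A.H ^ 2) / 2) +
    z5 * w6 * (A.H * A.G) +
    z5 * w7 * A.H +
    z6 * w1 * A.pxx +
    z6 * w2 * A.Aqxx +
    z6 * w3 * A.Axxx +
    z6 * w4 * (A.H ^ 2) +
    z6 * w5 * (A.H * A.G) +
    z6 * w6 * (A.G ^ 2) +
    z6 * w7 * A.G +
    z7 * w1 * (A.cc * A.T) +
    z7 * w2 * A.T +
    z7 * w3 * A.H +
    z7 * w4 * A.T +
    z7 * w5 * A.H +
    z7 * w6 * A.G +
    z7 * w7 * A.nn

/-- The pairing of two combinations of the seven covectors. -/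
noncomputable def Atoms.fPV (A : Atoms) (z1 z2 z3 z4 z5 z6 z7 w1 w2 w3 w4 w5 w6 w7 : ℝ) : ℝ :=
  z1 * w1 * A.b11 +
    z1 * w2 * A.b12 +
    z1 * w3 * A.bc11 +
    z1 * w4 * A.bc12 +
    z1 * w5 * A.bc13 +
    z1 * w6 * A.pqq +
    z1 * w7 * A.pqx +
    z2 * w1 * A.b12 +
    z2 * w2 * A.b22 +
    z2 * w3 * A.bc21 +
    z2 * w4 * A.bc22 +
    z2 * w5 * A.bc23 +
    z2 * w6 * A.pqx +
    z2 * w7 * A.pxx +
    z3 * w1 * A.bc11 +
    z3 * w2 * A.bc21 +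
    z3 * w3 * A.c11 +
    z3 * w4 * A.c12 +
    z3 * w5 * A.c13 +
    z3 * w6 * A.Aqqq +
    z3 * w7 * A.Aqqx +
    z4 * w1 * A.bc12 +
    z4 * w2 * A.bc22 +
    z4 * w3 * A.c12 +
    z4 * w4 * A.c22 +
    z4 * w5 * A.c23 +
    z4 * w6 * A.Aqqx +
    z4 * w7 * A.Aqxx +
    z5 * w1 * A.bc13 +
    z5 * w2 * A.bc23 +
    z5 * w3 * A.c13 +
    z5 * w4 * A.c23 +
    z5 * w5 * A.c33 +
    z5 * w6 * A.Aqxx +
    z5 * w7 * A.Axxx +
    z6 * w1 * A.pqq +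
    z6 * w2 * A.pqx +
    z6 * w3 * A.Aqqq +
    z6 * w4 * A.Aqqx +
    z6 * w5 * A.Aqxx +
    z6 * w6 * A.T +
    z6 * w7 * A.H +
    z7 * w1 * A.pqx +
    z7 * w2 * A.pxx +
    z7 * w3 * A.Aqqx +
    z7 * w4 * A.Aqxx +
    z7 * w5 * A.Axxx +
    z7 * w6 * A.H +
    z7 * w7 * A.G

/-- The norm of the three-index array `q ⊗ Z₁ + X ⊗ Z₂ + Z₃ ⊗ q + Z₄ ⊗ X`, for four combinations of the
seven tensors. -/
noncomputable def Atoms.fTens (A : Atoms) (a1 a2 a3 a4 a5 a6 a7 b1 b2 b3 b4 b5 b6 b7 c1 c2 c3 c4 c5 c6 c7 d1 d2 d3 d4 d5 d6 d7 : ℝ) : ℝ :=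
  A.T * (A.fIP a1 a2 a3 a4 a5 a6 a7 a1 a2 a3 a4 a5 a6 a7 + A.fIP c1 c2 c3 c4 c5 c6 c7 c1 c2 c3 c4 c5 c6 c7) +
    A.G * (A.fIP b1 b2 b3 b4 b5 b6 b7 b1 b2 b3 b4 b5 b6 b7 + A.fIP d1 d2 d3 d4 d5 d6 d7 d1 d2 d3 d4 d5 d6 d7) +
    2 * A.H * (A.fIP a1 a2 a3 a4 a5 a6 a7 b1 b2 b3 b4 b5 b6 b7 + A.fIP c1 c2 c3 c4 c5 c6 c7 d1 d2 d3 d4 d5 d6 d7) +
    2 * (A.fPV a1 0 a2 a3 0 (a4 * A.T + (1/2) * a5 * A.H + a7) ((1/2) * a5 * A.T + a6 * A.H) c1 0 c2 c3 0 (c4 * A.T + (1/2) * c5 * A.H + c7) ((1/2) * c5 * A.T + c6 * A.H) +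
      A.fPV 0 a1 0 a2 a3 (a4 * A.H + (1/2) * a5 * A.G) ((1/2) * a5 * A.H + a6 * A.G + a7) d1 0 d2 d3 0 (d4 * A.T + (1/2) * d5 * A.H + d7) ((1/2) * d5 * A.T + d6 * A.H) +
      A.fPV b1 0 b2 b3 0 (b4 * A.T + (1/2) * b5 * A.H + b7) ((1/2) * b5 * A.T + b6 * A.H) 0 c1 0 c2 c3 (c4 * A.H + (1/2) * c5 * A.G) ((1/2) * c5 * A.H + c6 * A.G + c7) +
      A.fPV 0 b1 0 b2 b3 (b4 * A.H + (1/2) * b5 * A.G) ((1/2) * b5 * A.H + b6 * A.G + b7) 0 d1 0 d2 d3 (d4 * A.H + (1/2) * d5 * A.G) ((1/2) * d5 * A.H + d6 * A.G + d7))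

variable {n : ℕ} {Ω : Set (Fin n → ℝ)} {u : (Fin n → ℝ) → ℝ} {x₀ : Fin n → ℝ}

/-- The atoms at a point. -/
noncomputable def atomsAt (u : (Fin n → ℝ) → ℝ) (x₀ x : Fin n → ℝ) : Atoms where
  cc := cN n
  nn := (n : ℝ)
  T := aT u x
  H := aH u x₀ x
  G := aG u x₀ x
  pqq := apqq u x
  pqx := apqx u x₀ x
  pxx := apxx u x₀ x
  Aqqq := aAqqq u x
  Aqqx := aAqqx u x₀ x
  Aqxx := aAqxx u x₀ x
  Axxx := aAxxx u x₀ x
  HH := aHH u x
  HM := aHM u x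
  HN := aHN u x₀ x
  MM := aMM u x
  MN := aMN u x₀ x
  NN := aNN u x₀ x
  b11 := pa u (ph u (qF u)) (ph u (qF u)) x
  b12 := pa u (ph u (qF u)) (ph u (XF u x₀)) x
  b22 := pa u (ph u (XF u x₀)) (ph u (XF u x₀)) x
  bc11 := pa u (ph u (qF u)) (Ah u (qF u) (qF u)) x
  bc12 := pa u (ph u (qF u)) (Ah u (qF u) (XF u x₀)) x
  bc13 := pa u (ph u (qF u)) (Ah u (XF u x₀) (XF u x₀)) x
  bc21 := pa u (ph u (XF u x₀)) (Ah u (qF u) (qF u)) x
  bc22 := pa u (ph u (XF u x₀)) (Ah u (qF u) (XF u x₀)) x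
  bc23 := pa u (ph u (XF u x₀)) (Ah u (XF u x₀) (XF u x₀)) x
  c11 := pa u (Ah u (qF u) (qF u)) (Ah u (qF u) (qF u)) x
  c12 := pa u (Ah u (qF u) (qF u)) (Ah u (qF u) (XF u x₀)) x
  c13 := pa u (Ah u (qF u) (qF u)) (Ah u (XF u x₀) (XF u x₀)) x
  c22 := pa u (Ah u (qF u) (XF u x₀)) (Ah u (qF u) (XF u x₀)) x
  c23 := pa u (Ah u (qF u) (XF u x₀)) (Ah u (XF u x₀) (XF u x₀)) x
  c33 := pa u (Ah u (XF u x₀) (XF u x₀)) (Ah u (XF u x₀) (XF u x₀)) x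

/-- A combination of the seven tensors. -/
noncomputable def Zm (u : (Fin n → ℝ) → ℝ) (x₀ x : Fin n → ℝ) (z1 z2 z3 z4 z5 z6 z7 : ℝ)
    (i j : Fin n) : ℝ :=
  z1 * Hp u x i j + z2 * Ma u (qF u) x i j + z3 * Ma u (XF u x₀) x i j +
    z4 * (qF u i x * qF u j x) +
    z5 * ((1/2 : ℝ) * (qF u i x * XF u x₀ j x) + (1/2 : ℝ) * (XF u x₀ i x * qF u j x)) +
    z6 * (XF u x₀ i x * XF u x₀ j x) + z7 * hess u x i j

/-- A combination of the seven covectors. -/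
noncomputable def Vm (u : (Fin n → ℝ) → ℝ) (x₀ x : Fin n → ℝ) (z1 z2 z3 z4 z5 z6 z7 : ℝ)
    (j : Fin n) : ℝ :=
  z1 * ph u (qF u) j x + z2 * ph u (XF u x₀) j x + z3 * Ah u (qF u) (qF u) j x +
    z4 * Ah u (qF u) (XF u x₀) j x + z5 * Ah u (XF u x₀) (XF u x₀) j x +
    z6 * qF u j x + z7 * XF u x₀ j x


lemma PV_add_left (x : Fin n → ℝ) (v v' w : Fin n → ℝ) :
    PV u x (fun j => v j + v' j) w = PV u x v w + PV u x v' w := by
  unfold PV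
  simp only [mul_add, add_mul, Finset.sum_add_distrib]

lemma PV_add_right (x : Fin n → ℝ) (v w w' : Fin n → ℝ) :
    PV u x v (fun j => w j + w' j) = PV u x v w + PV u x v w' := by
  unfold PV
  simp only [mul_add, Finset.sum_add_distrib]

lemma PV_smul_left (x : Fin n → ℝ) (c : ℝ) (v w : Fin n → ℝ) :
    PV u x (fun j => c * v j) w = c * PV u x v w := by
  unfold PV
  simp only [Finset.mul_sum]
  refine Finset.sum_congr rfl fun i _ => Finset.sum_congr rfl fun j _ => ?_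
  ring

lemma PV_smul_right (x : Fin n → ℝ) (c : ℝ) (v w : Fin n → ℝ) :
    PV u x v (fun j => c * w j) = c * PV u x v w := by
  unfold PV
  simp only [Finset.mul_sum]
  refine Finset.sum_congr rfl fun i _ => Finset.sum_congr rfl fun j _ => ?_
  ring

lemma PV_eq_pa (V W : Fin n → (Fin n → ℝ) → ℝ) (x : Fin n → ℝ) :
    PV u x (fun j => V j x) (fun j => W j x) = pa u V W x := by
  rw [pa_eq_sum]
  rfl

/-- The general expansion of the norm of a three-index array. -/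
lemma IP3_expand (x : Fin n → ℝ) (hU : ∀ i j, Ui u x i j = Ui u x j i)
    (a b : Fin n → (Fin n → ℝ) → ℝ) (Z1 Z2 Z3 Z4 : Fin n → Fin n → ℝ)
    (h3 : ∀ i j, Z3 i j = Z3 j i) (h4 : ∀ i j, Z4 i j = Z4 j i) :
    IP3 u x (fun i j k => a i x * Z1 j k + b i x * Z2 j k + Z3 i j * a k x + Z4 i j * b k x)
      (fun i j k => a i x * Z1 j k + b i x * Z2 j k + Z3 i j * a k x + Z4 i j * b k x) =
    pa u a a x * IP u x Z1 Z1 + pa u a b x * IP u x Z1 Z2 +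
      pa u b a x * IP u x Z2 Z1 + pa u b b x * IP u x Z2 Z2 +
      pa u a a x * IP u x Z3 Z3 + pa u a b x * IP u x Z3 Z4 +
      pa u b a x * IP u x Z4 Z3 + pa u b b x * IP u x Z4 Z4 +
      2 * (PV u x (Cn u x Z1 a) (Cn u x Z3 a) + PV u x (Cn u x Z1 b) (Cn u x Z4 a) +
        PV u x (Cn u x Z2 a) (Cn u x Z3 b) + PV u x (Cn u x Z2 b) (Cn u x Z4 b)) := by
  set A1 : Fin n → Fin n → Fin n → ℝ := fun i j k => a i x * Z1 j k with hA1
  set A2 : Fin n → Fin n → Fin n → ℝ := fun i j k => b i x * Z2 j k with hA2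
  set A3' : Fin n → Fin n → Fin n → ℝ := fun i j k => Z3 i j * a k x with hA3
  set A4 : Fin n → Fin n → Fin n → ℝ := fun i j k => Z4 i j * b k x with hA4
  have e11 : IP3 u x A1 A1 = pa u a a x * IP u x Z1 Z1 := IP3_aa x a a Z1 Z1
  have e12 : IP3 u x A1 A2 = pa u a b x * IP u x Z1 Z2 := IP3_aa x a b Z1 Z2
  have e21 : IP3 u x A2 A1 = pa u b a x * IP u x Z2 Z1 := IP3_aa x b a Z2 Z1
  have e22 : IP3 u x A2 A2 = pa u b b x * IP u x Z2 Z2 := IP3_aa x b b Z2 Z2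
  have e33 : IP3 u x A3' A3' = pa u a a x * IP u x Z3 Z3 := IP3_bb x a a Z3 Z3
  have e34 : IP3 u x A3' A4 = pa u a b x * IP u x Z3 Z4 := IP3_bb x a b Z3 Z4
  have e43 : IP3 u x A4 A3' = pa u b a x * IP u x Z4 Z3 := IP3_bb x b a Z4 Z3
  have e44 : IP3 u x A4 A4 = pa u b b x * IP u x Z4 Z4 := IP3_bb x b b Z4 Z4
  have e13 : IP3 u x A1 A3' = PV u x (Cn u x Z1 a) (Cn u x Z3 a) := IP3_ab x hU a a Z1 Z3 h3
  have e14 : IP3 u x A1 A4 = PV u x (Cn u x Z1 b) (Cn u x Z4 a) := IP3_ab x hU a b Z1 Z4 h4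
  have e23 : IP3 u x A2 A3' = PV u x (Cn u x Z2 a) (Cn u x Z3 b) := IP3_ab x hU b a Z2 Z3 h3
  have e24 : IP3 u x A2 A4 = PV u x (Cn u x Z2 b) (Cn u x Z4 b) := IP3_ab x hU b b Z2 Z4 h4
  have c31 := IP3_comm x hU A3' A1
  have c32 := IP3_comm x hU A3' A2
  have c41 := IP3_comm x hU A4 A1
  have c42 := IP3_comm x hU A4 A2
  have ex : (fun i j k => a i x * Z1 j k + b i x * Z2 j k + Z3 i j * a k x + Z4 i j * b k x) =
      fun i j k => (fun i j k => (fun i j k => A1 i j k + A2 i j k) i j k + A3' i j k) i j k +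
        A4 i j k := rfl
  rw [ex]
  simp only [IP3_add_left, IP3_add_right]
  rw [e11, e12, e21, e22, e33, e34, e43, e44, c31, c32, c41, c42, e13, e14, e23, e24]
  ring

namespace IsAffineMaximal

variable (hs : IsAffineMaximal Ω u) (hΩ : IsOpen Ω)
include hs hΩ

lemma Ah_symm (a b : Fin n → (Fin n → ℝ) → ℝ) {x : Fin n → ℝ} (hx : x ∈ Ω) (j : Fin n) :
    Ah u a b j x = Ah u b a j x := by
  unfold Ah
  rw [Finset.sum_comm]
  refine Finset.sum_congr rfl fun k _ => Finset.sum_congr rfl fun l _ => ?_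
  rw [hs.A3_swap23 hΩ hx j k l]
  ring

omit hΩ in
/-- Contraction of a combination of the seven tensors. -/
lemma Cn_Zm (b : Fin n → (Fin n → ℝ) → ℝ) (z1 z2 z3 z4 z5 z6 z7 : ℝ) {x : Fin n → ℝ} (hx : x ∈ Ω)
    (j : Fin n) :
    Cn u x (Zm u x₀ x z1 z2 z3 z4 z5 z6 z7) b j =
      z1 * ph u b j x + z2 * Ah u b (qF u) j x + z3 * Ah u b (XF u x₀) j x +
      z4 * (qF u j x * pa u (qF u) b x) +
      z5 * ((1/2 : ℝ) * (qF u j x * pa u (XF u x₀) b x) + (1/2 : ℝ) * (XF u x₀ j x * pa u (qF u) b x)) +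
      z6 * (XF u x₀ j x * pa u (XF u x₀) b x) + z7 * b j x := by
  classical
  have h1 : ∑ k, Hp u x j k * ra u b k x = ph u b j x := rfl
  have h2 : ∀ a : Fin n → (Fin n → ℝ) → ℝ,
      ∑ k, Ma u a x j k * ra u b k x = Ah u b a j x := by
    intro a
    unfold Ma Ah
    refine Finset.sum_congr rfl fun k _ => ?_
    rw [Finset.sum_mul]
    refine Finset.sum_congr rfl fun l _ => ?_
    ring
  have h3 : ∀ a c : Fin n → (Fin n → ℝ) → ℝ,
      ∑ k, (a j x * c k x) * ra u b k x = a j x * pa u c b x := by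
    intro a c
    unfold pa
    rw [Finset.mul_sum]
    refine Finset.sum_congr rfl fun k _ => ?_
    ring
  have h7 : ∑ k, hess u x j k * ra u b k x = b j x := by
    unfold ra
    simp only [Finset.mul_sum]
    rw [Finset.sum_comm]
    have e : ∀ l, ∑ k, hess u x j k * (Ui u x k l * b l x) =
        (∑ k, hess u x j k * Ui u x k l) * b l x := by
      intro l
      rw [Finset.sum_mul]
      refine Finset.sum_congr rfl fun k _ => ?_
      ring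
    simp only [e, hs.mul_Ui hx]
    simp [Matrix.one_apply]
  unfold Cn Zm
  have hsplit : ∑ k, (z1 * Hp u x j k + z2 * Ma u (qF u) x j k + z3 * Ma u (XF u x₀) x j k +
      z4 * (qF u j x * qF u k x) +
      z5 * ((1/2 : ℝ) * (qF u j x * XF u x₀ k x) + (1/2 : ℝ) * (XF u x₀ j x * qF u k x)) +
      z6 * (XF u x₀ j x * XF u x₀ k x) + z7 * hess u x j k) * ra u b k x =
      z1 * ∑ k, Hp u x j k * ra u b k x + z2 * ∑ k, Ma u (qF u) x j k * ra u b k x +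
      z3 * ∑ k, Ma u (XF u x₀) x j k * ra u b k x +
      z4 * ∑ k, (qF u j x * qF u k x) * ra u b k x +
      z5 * ((1/2 : ℝ) * ∑ k, (qF u j x * XF u x₀ k x) * ra u b k x +
        (1/2 : ℝ) * ∑ k, (XF u x₀ j x * qF u k x) * ra u b k x) +
      z6 * ∑ k, (XF u x₀ j x * XF u x₀ k x) * ra u b k x +
      z7 * ∑ k, hess u x j k * ra u b k x := by
    simp only [Finset.mul_sum, ← Finset.sum_add_distrib]
    refine Finset.sum_congr rfl fun k _ => ?_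
    ring
  rw [hsplit, h1, h2, h2, h3 (qF u) (qF u), h3 (qF u) (XF u x₀), h3 (XF u x₀) (qF u),
    h3 (XF u x₀) (XF u x₀), h7]


lemma PV_Vm (z1 z2 z3 z4 z5 z6 z7 w1 w2 w3 w4 w5 w6 w7 : ℝ) {x : Fin n → ℝ} (hx : x ∈ Ω) :
    PV u x (Vm u x₀ x z1 z2 z3 z4 z5 z6 z7) (Vm u x₀ x w1 w2 w3 w4 w5 w6 w7) =
      (atomsAt u x₀ x).fPV z1 z2 z3 z4 z5 z6 z7 w1 w2 w3 w4 w5 w6 w7 := by
  set q := qF u with hq
  set X := XF u x₀ with hX
  set B1 := ph u q with hB1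
  set B2 := ph u X with hB2
  set C1 := Ah u q q with hC1
  set C2 := Ah u q X with hC2
  set C3 := Ah u X X with hC3
  have ev : ∀ a1 a2 a3 a4 a5 a6 a7 : ℝ, Vm u x₀ x a1 a2 a3 a4 a5 a6 a7 = fun j =>
      a1 * B1 j x + a2 * B2 j x + a3 * C1 j x + a4 * C2 j x + a5 * C3 j x + a6 * q j x + a7 * X j x :=
    fun _ _ _ _ _ _ _ => rfl
  rw [ev, ev]
  have hP : ∀ V W : Fin n → (Fin n → ℝ) → ℝ, PV u x (fun j => V j x) (fun j => W j x) = pa u V W x :=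
    fun V W => PV_eq_pa V W x
  have hS := fun a b => hs.pa_symm a b hx
  have s1 : pa u q B1 x = apqq u x := hs.pa_ph hΩ q q hx
  have s2 : pa u X B1 x = apqx u x₀ x := by
    rw [hs.pa_ph hΩ X q hx, Bl_symm_of (hs.Hp_symm hΩ hx) X q]; rfl
  have s3 : pa u q B2 x = apqx u x₀ x := hs.pa_ph hΩ q X hx
  have s4 : pa u X B2 x = apxx u x₀ x := hs.pa_ph hΩ X X hx
  have s5 : pa u q C1 x = aAqqq u x := hs.pa_Ah hΩ q q q hx
  have s6 : pa u X C1 x = aAqqx u x₀ x := by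
    rw [hs.pa_Ah hΩ X q q hx, hs.Bl_Ma_swap' hΩ X q q hx]; rfl
  have s7 : pa u q C2 x = aAqqx u x₀ x := hs.pa_Ah hΩ q q X hx
  have s8 : pa u X C2 x = aAqxx u x₀ x := by
    rw [hs.pa_Ah hΩ X q X hx, hs.Bl_Ma_swap hΩ X q X hx]; rfl
  have s9 : pa u q C3 x = aAqxx u x₀ x := by
    rw [hs.pa_Ah hΩ q X X hx, hs.Bl_Ma_swap' hΩ q X X hx]; rfl
  have s10 : pa u X C3 x = aAxxx u x₀ x := hs.pa_Ah hΩ X X X hx
  have s11 : pa u q q x = aT u x := rfl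
  have s12 : pa u q X x = aH u x₀ x := rfl
  have s13 : pa u X X x = aG u x₀ x := rfl
  simp only [PV_add_left, PV_add_right, PV_smul_left, PV_smul_right, hP]
  simp only [Atoms.fPV, atomsAt]
  rw [hS B2 B1, hS C1 B1, hS C2 B1, hS C3 B1, hS q B1, hS X B1,
    hS C1 B2, hS C2 B2, hS C3 B2, hS q B2, hS X B2,
    hS C2 C1, hS C3 C1, hS q C1, hS X C1, hS C3 C2, hS q C2, hS X C2, hS q C3, hS X C3, hS X q]
  rw [hS B1 q, hS B1 X, hS B2 q, hS B2 X, hS C1 q, hS C1 X, hS C2 q, hS C2 X, hS C3 q, hS C3 X]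
  rw [s1, s2, s3, s4, s5, s6, s7, s8, s9, s10, s11, s12, s13]
  ring

omit hΩ in
lemma Cn_Zm_q (z1 z2 z3 z4 z5 z6 z7 : ℝ) {x : Fin n → ℝ} (hx : x ∈ Ω) :
    Cn u x (Zm u x₀ x z1 z2 z3 z4 z5 z6 z7) (qF u) =
      Vm u x₀ x z1 0 z2 z3 0 (z4 * aT u x + (1/2) * z5 * aH u x₀ x + z7)
        ((1/2) * z5 * aT u x + z6 * aH u x₀ x) := by
  funext j
  rw [hs.Cn_Zm (qF u) z1 z2 z3 z4 z5 z6 z7 hx j]
  have e1 : pa u (XF u x₀) (qF u) x = aH u x₀ x := hs.pa_symm _ _ hx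
  have e2 : pa u (qF u) (qF u) x = aT u x := rfl
  rw [e1, e2]
  simp only [Vm]
  ring

lemma Cn_Zm_x (z1 z2 z3 z4 z5 z6 z7 : ℝ) {x : Fin n → ℝ} (hx : x ∈ Ω) :
    Cn u x (Zm u x₀ x z1 z2 z3 z4 z5 z6 z7) (XF u x₀) =
      Vm u x₀ x 0 z1 0 z2 z3 (z4 * aH u x₀ x + (1/2) * z5 * aG u x₀ x)
        ((1/2) * z5 * aH u x₀ x + z6 * aG u x₀ x + z7) := by
  funext j
  rw [hs.Cn_Zm (XF u x₀) z1 z2 z3 z4 z5 z6 z7 hx j]
  have e1 : pa u (qF u) (XF u x₀) x = aH u x₀ x := rfl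
  have e2 : pa u (XF u x₀) (XF u x₀) x = aG u x₀ x := rfl
  rw [e1, e2, hs.Ah_symm hΩ (XF u x₀) (qF u) hx j]
  simp only [Vm]
  ring

lemma Zm_symm (z1 z2 z3 z4 z5 z6 z7 : ℝ) {x : Fin n → ℝ} (hx : x ∈ Ω) (i j : Fin n) :
    Zm u x₀ x z1 z2 z3 z4 z5 z6 z7 i j = Zm u x₀ x z1 z2 z3 z4 z5 z6 z7 j i := by
  unfold Zm
  rw [hs.Hp_symm hΩ hx i j, hs.Ma_symm hΩ (qF u) hx i j, hs.Ma_symm hΩ (XF u x₀) hx i j,
    hs.hess_symm hx i j]
  ring

lemma IP_Zm (z1 z2 z3 z4 z5 z6 z7 w1 w2 w3 w4 w5 w6 w7 : ℝ) {x : Fin n → ℝ} (hx : x ∈ Ω) :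
    IP u x (Zm u x₀ x z1 z2 z3 z4 z5 z6 z7) (Zm u x₀ x w1 w2 w3 w4 w5 w6 w7) =
      (atomsAt u x₀ x).fIP z1 z2 z3 z4 z5 z6 z7 w1 w2 w3 w4 w5 w6 w7 := by
  classical
  have hsym : ∀ Z W : Fin n → Fin n → ℝ, IP u x Z W = IP u x W Z :=
    fun Z W => IP_comm_of (fun i j => hs.Ui_symm hx i j) Z W
  set q := qF u with hq
  set X := XF u x₀ with hX
  let A4 : Fin n → Fin n → ℝ := fun k l => q k x * q l x
  let BB : Fin n → Fin n → ℝ := fun k l => q k x * X l x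
  let BB' : Fin n → Fin n → ℝ := fun k l => X k x * q l x
  let A5 : Fin n → Fin n → ℝ := fun k l => (1 / 2 : ℝ) * BB k l + (1 / 2 : ℝ) * BB' k l
  let A6 : Fin n → Fin n → ℝ := fun k l => X k x * X l x
  let A7 : Fin n → Fin n → ℝ := fun k l => hess u x k l
  have key : ∀ Z : Fin n → Fin n → ℝ, IP u x Z A7 = ∑ i, ∑ j, Ui u x i j * Z i j :=
    fun Z => hs.IP_hess Z hx
  have ez : ∀ a1 a2 a3 a4 a5 a6 a7 : ℝ, Zm u x₀ x a1 a2 a3 a4 a5 a6 a7 = fun i j =>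
      a1 * Hp u x i j + a2 * Ma u q x i j + a3 * Ma u X x i j + a4 * A4 i j + a5 * A5 i j +
        a6 * A6 i j + a7 * A7 i j := fun _ _ _ _ _ _ _ => rfl
  rw [ez, ez]
  simp only [IP_add_left, IP_add_right, IP_smul_left, IP_smul_right]
  have hTq : pa u q q x = aT u x := rfl
  have hHq : pa u q X x = aH u x₀ x := rfl
  have hHq' : pa u X q x = aH u x₀ x := hs.pa_symm X q hx
  have hGq : pa u X X x = aG u x₀ x := rfl
  have sHp : ∀ i j, Hp u x i j = Hp u x j i := hs.Hp_symm hΩ hx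
  have sM : ∀ i j, Ma u q x i j = Ma u q x j i := hs.Ma_symm hΩ q hx
  have sN : ∀ i j, Ma u X x i j = Ma u X x j i := hs.Ma_symm hΩ X hx
  have h5 : ∀ Z : Fin n → Fin n → ℝ, (∀ i j, Z i j = Z j i) → IP u x Z A5 = Bl u q X x Z := by
    intro Z hZ
    change IP u x Z (fun k l => (1 / 2 : ℝ) * BB k l + (1 / 2 : ℝ) * BB' k l) = _
    rw [IP_add_right, IP_smul_right, IP_smul_right]
    have e1 : IP u x Z BB = Bl u q X x Z := IP_tensor x Z q X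
    have e2 : IP u x Z BB' = Bl u X q x Z := IP_tensor x Z X q
    rw [e1, e2, Bl_symm_of hZ X q]
    ring
  have hA4 : ∀ Z, IP u x Z A4 = Bl u q q x Z := fun Z => IP_tensor x Z q q
  have hA6 : ∀ Z, IP u x Z A6 = Bl u X X x Z := fun Z => IP_tensor x Z X X
  have sA4 : ∀ i j, A4 i j = A4 j i := fun i j => mul_comm _ _
  have sA6 : ∀ i j, A6 i j = A6 j i := fun i j => mul_comm _ _
  have sA5 : ∀ i j, A5 i j = A5 j i := by
    intro i j
    simp only [A5, BB, BB']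
    ring
  have b44 : Bl u q q x A4 = aT u x ^ 2 := by
    rw [show A4 = fun k l => q k x * q l x from rfl, Bl_tensor, hTq]; ring
  have b4x : Bl u q X x A4 = aT u x * aH u x₀ x := by
    rw [show A4 = fun k l => q k x * q l x from rfl, Bl_tensor, hTq, hHq]
  have b46 : Bl u X X x A4 = aH u x₀ x ^ 2 := by
    rw [show A4 = fun k l => q k x * q l x from rfl, Bl_tensor, hHq]; ring
  have b55 : Bl u q X x A5 = (aT u x * aG u x₀ x + aH u x₀ x ^ 2) / 2 := by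
    have e : A5 = fun k l => (1 / 2 : ℝ) * (q k x * X l x) + (1 / 2 : ℝ) * (X k x * q l x) := rfl
    have e1 : Bl u q X x (fun k l => q k x * X l x) = aT u x * aG u x₀ x := by
      rw [Bl_tensor, hTq, hGq]
    have e2 : Bl u q X x (fun k l => X k x * q l x) = aH u x₀ x ^ 2 := by
      rw [Bl_tensor, hHq, hHq']; ring
    have e3 : Bl u q X x A5 = (1 / 2 : ℝ) * Bl u q X x (fun k l => q k x * X l x) +
        (1 / 2 : ℝ) * Bl u q X x (fun k l => X k x * q l x) := by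
      rw [e]
      unfold Bl
      simp only [Finset.mul_sum, ← Finset.sum_add_distrib]
      refine Finset.sum_congr rfl fun k _ => Finset.sum_congr rfl fun l _ => ?_
      ring
    rw [e3, e1, e2]
    ring
  have b56 : Bl u X X x A5 = aH u x₀ x * aG u x₀ x := by
    have e : A5 = fun k l => (1 / 2 : ℝ) * (q k x * X l x) + (1 / 2 : ℝ) * (X k x * q l x) := rfl
    have e1 : Bl u X X x (fun k l => q k x * X l x) = aH u x₀ x * aG u x₀ x := by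
      rw [Bl_tensor, hHq, hGq]
    have e2 : Bl u X X x (fun k l => X k x * q l x) = aH u x₀ x * aG u x₀ x := by
      rw [Bl_tensor, hHq, hGq]; ring
    have e3 : Bl u X X x A5 = (1 / 2 : ℝ) * Bl u X X x (fun k l => q k x * X l x) +
        (1 / 2 : ℝ) * Bl u X X x (fun k l => X k x * q l x) := by
      rw [e]
      unfold Bl
      simp only [Finset.mul_sum, ← Finset.sum_add_distrib]
      refine Finset.sum_congr rfl fun k _ => Finset.sum_congr rfl fun l _ => ?_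
      ring
    rw [e3, e1, e2]
    ring
  have b66 : Bl u X X x A6 = aG u x₀ x ^ 2 := by
    rw [show A6 = fun k l => X k x * X l x from rfl, Bl_tensor, hGq]; ring
  have tr4 : IP u x A4 A7 = aT u x := by
    rw [key]
    simp only [A4]
    exact (pa_qq_eq x).symm
  have tr6 : IP u x A6 A7 = aG u x₀ x := by
    rw [key]
    change _ = pa u X X x
    unfold pa ra
    refine Finset.sum_congr rfl fun i _ => ?_
    rw [Finset.mul_sum]
    refine Finset.sum_congr rfl fun j _ => ?_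
    simp only [A6]
    ring
  have trB : IP u x BB A7 = aH u x₀ x := by
    rw [key]
    change _ = pa u q X x
    unfold pa ra
    refine Finset.sum_congr rfl fun i _ => ?_
    rw [Finset.mul_sum]
    refine Finset.sum_congr rfl fun j _ => ?_
    simp only [BB]
    ring
  have trB' : IP u x BB' A7 = aH u x₀ x := by
    rw [hsym, ← hHq']
    rw [hsym, key]
    unfold pa ra
    refine Finset.sum_congr rfl fun i _ => ?_
    rw [Finset.mul_sum]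
    refine Finset.sum_congr rfl fun j _ => ?_
    simp only [BB']
    ring
  have tr5 : IP u x A5 A7 = aH u x₀ x := by
    change IP u x (fun k l => (1 / 2 : ℝ) * BB k l + (1 / 2 : ℝ) * BB' k l) A7 = _
    rw [IP_add_left, IP_smul_left, IP_smul_left, trB, trB']
    ring
  have trn : IP u x A7 A7 = (n : ℝ) := by
    rw [key]
    have e : ∀ i, ∑ j, Ui u x i j * A7 i j = 1 := by
      intro i
      have h := hs.Ui_mul hx i i
      rw [Matrix.one_apply_eq] at h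
      rw [← h]
      refine Finset.sum_congr rfl fun j _ => ?_
      simp only [A7]
      rw [hs.hess_symm hx i j]
    simp [e]
  have trH : IP u x (Hp u x) A7 = cN n * aT u x := by
    rw [key, hs.trace_Hp hΩ hx]
    rfl
  have trM : IP u x (Ma u q x) A7 = aT u x := by
    rw [key]
    exact hs.trace_Ma hΩ q hx
  have trN : IP u x (Ma u X x) A7 = aH u x₀ x := by
    rw [key]
    exact hs.trace_Ma hΩ X hx
  have i11 : IP u x (Hp u x) (Hp u x) = aHH u x := rfl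
  have i22 : IP u x (Ma u q x) (Ma u q x) = aMM u x := rfl
  have i33 : IP u x (Ma u X x) (Ma u X x) = aNN u x₀ x := rfl
  have i44 : IP u x A4 A4 = aT u x ^ 2 := by rw [hA4, b44]
  have i55 : IP u x A5 A5 = (aT u x * aG u x₀ x + aH u x₀ x ^ 2) / 2 := by rw [h5 A5 sA5, b55]
  have i66 : IP u x A6 A6 = aG u x₀ x ^ 2 := by rw [hA6, b66]
  have i12 : IP u x (Hp u x) (Ma u q x) = aHM u x := rfl
  have i13 : IP u x (Hp u x) (Ma u X x) = aHN u x₀ x := rfl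
  have i14 : IP u x (Hp u x) A4 = apqq u x := hA4 _
  have i15 : IP u x (Hp u x) A5 = apqx u x₀ x := h5 _ sHp
  have i16 : IP u x (Hp u x) A6 = apxx u x₀ x := hA6 _
  have i23 : IP u x (Ma u q x) (Ma u X x) = aMN u x₀ x := rfl
  have i24 : IP u x (Ma u q x) A4 = aAqqq u x := hA4 _
  have i25 : IP u x (Ma u q x) A5 = aAqqx u x₀ x := by
    rw [h5 _ sM]
    exact hs.Bl_Ma_swap hΩ q X q hx
  have i26 : IP u x (Ma u q x) A6 = aAqxx u x₀ x := hA6 _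
  have i34 : IP u x (Ma u X x) A4 = aAqqx u x₀ x := hA4 _
  have i35 : IP u x (Ma u X x) A5 = aAqxx u x₀ x := by
    rw [h5 _ sN]
    exact hs.Bl_Ma_swap' hΩ q X X hx
  have i36 : IP u x (Ma u X x) A6 = aAxxx u x₀ x := hA6 _
  have i45 : IP u x A4 A5 = aT u x * aH u x₀ x := by rw [h5 _ sA4, b4x]
  have i46 : IP u x A4 A6 = aH u x₀ x ^ 2 := by rw [hA6, b46]
  have i56 : IP u x A5 A6 = aH u x₀ x * aG u x₀ x := by rw [hA6, b56]
  simp only [Atoms.fIP, atomsAt]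
  rw [hsym (Ma u q x) (Hp u x), hsym (Ma u X x) (Hp u x), hsym A4 (Hp u x), hsym A5 (Hp u x),
    hsym A6 (Hp u x), hsym A7 (Hp u x), hsym (Ma u X x) (Ma u q x), hsym A4 (Ma u q x),
    hsym A5 (Ma u q x), hsym A6 (Ma u q x), hsym A7 (Ma u q x), hsym A4 (Ma u X x),
    hsym A5 (Ma u X x), hsym A6 (Ma u X x), hsym A7 (Ma u X x), hsym A5 A4, hsym A6 A4, hsym A7 A4,
    hsym A6 A5, hsym A7 A5, hsym A7 A6]
  rw [i11, i22, i33, i44, i55, i66, trn, i12, i13, i14, i15, i16, trH, i23, i24, i25, i26, trM,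
    i34, i35, i36, trN, i45, i46, tr4, i56, tr5, tr6]
  ring

/-- The Gram inequality for covectors. -/
lemma vec_gram (z1 z2 z3 z4 z5 z6 z7 : ℝ) {x : Fin n → ℝ} (hx : x ∈ Ω) :
    0 ≤ (atomsAt u x₀ x).fPV z1 z2 z3 z4 z5 z6 z7 z1 z2 z3 z4 z5 z6 z7 := by
  rw [← hs.PV_Vm hΩ z1 z2 z3 z4 z5 z6 z7 z1 z2 z3 z4 z5 z6 z7 hx]
  have h := Qv_nonneg (hs.posDef x hx).inv (Vm u x₀ x z1 z2 z3 z4 z5 z6 z7)
  refine h.trans_eq ?_
  rfl

/-- The Gram inequality for three-index arrays. -/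
lemma tens_gram (a1 a2 a3 a4 a5 a6 a7 b1 b2 b3 b4 b5 b6 b7 c1 c2 c3 c4 c5 c6 c7
    d1 d2 d3 d4 d5 d6 d7 : ℝ) {x : Fin n → ℝ} (hx : x ∈ Ω) :
    0 ≤ (atomsAt u x₀ x).fTens a1 a2 a3 a4 a5 a6 a7 b1 b2 b3 b4 b5 b6 b7 c1 c2 c3 c4 c5 c6 c7
      d1 d2 d3 d4 d5 d6 d7 := by
  have hU : ∀ i j, Ui u x i j = Ui u x j i := fun i j => hs.Ui_symm hx i j
  have h := hs.IP3_self_nonneg hx (fun i j k =>
    qF u i x * Zm u x₀ x a1 a2 a3 a4 a5 a6 a7 j k + XF u x₀ i x * Zm u x₀ x b1 b2 b3 b4 b5 b6 b7 j k +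
    Zm u x₀ x c1 c2 c3 c4 c5 c6 c7 i j * qF u k x + Zm u x₀ x d1 d2 d3 d4 d5 d6 d7 i j * XF u x₀ k x)
  rw [IP3_expand x hU (qF u) (XF u x₀) _ _ _ _ (hs.Zm_symm hΩ _ _ _ _ _ _ _ hx)
    (hs.Zm_symm hΩ _ _ _ _ _ _ _ hx)] at h
  have e1 : pa u (qF u) (qF u) x = (atomsAt u x₀ x).T := rfl
  have e2 : pa u (qF u) (XF u x₀) x = (atomsAt u x₀ x).H := rfl
  have e3 : pa u (XF u x₀) (qF u) x = (atomsAt u x₀ x).H := hs.pa_symm _ _ hx
  have e4 : pa u (XF u x₀) (XF u x₀) x = (atomsAt u x₀ x).G := rfl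
  rw [e1, e2, e3, e4] at h
  simp only [hs.IP_Zm hΩ _ _ _ _ _ _ _ _ _ _ _ _ _ _ hx, hs.Cn_Zm_q _ _ _ _ _ _ _ hx,
    hs.Cn_Zm_x hΩ _ _ _ _ _ _ _ hx, hs.PV_Vm hΩ _ _ _ _ _ _ _ _ _ _ _ _ _ _ hx] at h
  refine h.trans_eq ?_
  have e5 : ∀ z : ℝ, z = z := fun _ => rfl
  unfold Atoms.fTens
  have t1 : aT u x = (atomsAt u x₀ x).T := rfl
  have t2 : aH u x₀ x = (atomsAt u x₀ x).H := rfl
  have t3 : aG u x₀ x = (atomsAt u x₀ x).G := rfl
  rw [t1, t2, t3]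
  have symIP : ∀ (A : Atoms) (z1 z2 z3 z4 z5 z6 z7 w1 w2 w3 w4 w5 w6 w7 : ℝ),
      A.fIP w1 w2 w3 w4 w5 w6 w7 z1 z2 z3 z4 z5 z6 z7 =
        A.fIP z1 z2 z3 z4 z5 z6 z7 w1 w2 w3 w4 w5 w6 w7 := by
    intro A z1 z2 z3 z4 z5 z6 z7 w1 w2 w3 w4 w5 w6 w7
    unfold Atoms.fIP
    ring
  rw [symIP _ a1 a2 a3 a4 a5 a6 a7 b1 b2 b3 b4 b5 b6 b7,
    symIP _ c1 c2 c3 c4 c5 c6 c7 d1 d2 d3 d4 d5 d6 d7]
  ring

end IsAffineMaximal

/-- The values attached to a field at a point. -/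
structure FieldVal (u : (Fin n → ℝ) → ℝ) (x₀ x : Fin n → ℝ) (V : Fin n → (Fin n → ℝ) → ℝ)
    (d a b c1 c2 c3 : ℝ) : Prop where
  dv_eq : dv u V x = d
  pq_eq : pa u (qF u) V x = a
  pX_eq : pa u (XF u x₀) V x = b
  pB_eq : pa u (ph u (qF u)) V x = c1
  pC1_eq : pa u (Ah u (qF u) (qF u)) V x = c2
  pC3_eq : pa u (Ah u (XF u x₀) (XF u x₀)) V x = c3

namespace IsAffineMaximal

variable (hs : IsAffineMaximal Ω u) (hΩ : IsOpen Ω)
include hs hΩ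

/-- `∇T·V`. -/
lemma grad_T' (V : Fin n → (Fin n → ℝ) → ℝ) {x : Fin n → ℝ} (hx : x ∈ Ω) :
    ∑ k, pd k (aT u) x * ra u V k x =
      2 * pa u (ph u (qF u)) V x - pa u (Ah u (qF u) (qF u)) V x := by
  rw [hs.grad_T hΩ V hx, hs.pa_symm (ph u (qF u)) V hx, hs.pa_symm (Ah u (qF u) (qF u)) V hx,
    hs.pa_ph hΩ V (qF u) hx, hs.pa_Ah hΩ V (qF u) (qF u) hx,
    Bl_symm_of (hs.Hp_symm hΩ hx) (qF u) V, Bl_symm_of (hs.Ma_symm hΩ (qF u) hx) (qF u) V]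

/-- Pairings of the base covectors. -/
lemma table {x : Fin n → ℝ} (hx : x ∈ Ω) :
    let A := atomsAt u x₀ x
    let q := qF u
    let X := XF u x₀
    let B1 := ph u q
    let B2 := ph u X
    let C1 := Ah u q q
    let C2 := Ah u q X
    let C3 := Ah u X X
    pa u q q x = A.T ∧ pa u q X x = A.H ∧ pa u X q x = A.H ∧ pa u X X x = A.G ∧
    pa u B1 q x = A.pqq ∧ pa u B1 X x = A.pqx ∧ pa u C1 q x = A.Aqqq ∧ pa u C1 X x = A.Aqqx ∧
    pa u C3 q x = A.Aqxx ∧ pa u C3 X x = A.Axxx ∧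
    pa u q C1 x = A.Aqqq ∧ pa u X C1 x = A.Aqqx ∧ pa u B1 C1 x = A.bc11 ∧ pa u C1 C1 x = A.c11 ∧
    pa u C3 C1 x = A.c13 ∧
    pa u q C2 x = A.Aqqx ∧ pa u X C2 x = A.Aqxx ∧ pa u B1 C2 x = A.bc12 ∧ pa u C1 C2 x = A.c12 ∧
    pa u C3 C2 x = A.c23 ∧
    pa u q C3 x = A.Aqxx ∧ pa u X C3 x = A.Axxx ∧ pa u B1 C3 x = A.bc13 ∧ pa u C1 C3 x = A.c13 ∧
    pa u C3 C3 x = A.c33 ∧
    pa u q B1 x = A.pqq ∧ pa u X B1 x = A.pqx ∧ pa u B1 B1 x = A.b11 ∧ pa u C1 B1 x = A.bc11 ∧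
    pa u C3 B1 x = A.bc13 ∧
    pa u q B2 x = A.pqx ∧ pa u X B2 x = A.pxx ∧ pa u B1 B2 x = A.b12 ∧ pa u C1 B2 x = A.bc21 ∧
    pa u C3 B2 x = A.bc23 := by
  intro A q X B1 B2 C1 C2 C3
  have hS := fun a b => hs.pa_symm a b hx
  have s1 : pa u q B1 x = A.pqq := hs.pa_ph hΩ q q hx
  have s2 : pa u X B1 x = A.pqx := by
    rw [hs.pa_ph hΩ X q hx, Bl_symm_of (hs.Hp_symm hΩ hx) X q]; rfl
  have s3 : pa u q B2 x = A.pqx := hs.pa_ph hΩ q X hx
  have s4 : pa u X B2 x = A.pxx := hs.pa_ph hΩ X X hx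
  have s5 : pa u q C1 x = A.Aqqq := hs.pa_Ah hΩ q q q hx
  have s6 : pa u X C1 x = A.Aqqx := by
    rw [hs.pa_Ah hΩ X q q hx, hs.Bl_Ma_swap' hΩ X q q hx]; rfl
  have s7 : pa u q C2 x = A.Aqqx := hs.pa_Ah hΩ q q X hx
  have s8 : pa u X C2 x = A.Aqxx := by
    rw [hs.pa_Ah hΩ X q X hx, hs.Bl_Ma_swap hΩ X q X hx]; rfl
  have s9 : pa u q C3 x = A.Aqxx := by
    rw [hs.pa_Ah hΩ q X X hx, hs.Bl_Ma_swap' hΩ q X X hx]; rfl
  have s10 : pa u X C3 x = A.Axxx := hs.pa_Ah hΩ X X X hx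
  refine ⟨rfl, rfl, hS _ _, rfl, (hS _ _).trans s1, (hS _ _).trans s2, (hS _ _).trans s5,
    (hS _ _).trans s6, (hS _ _).trans s9, (hS _ _).trans s10, s5, s6, rfl, rfl, (hS _ _).trans rfl,
    s7, s8, rfl, rfl, (hS _ _).trans rfl, s9, s10, rfl, rfl, rfl, s1, s2, rfl, (hS _ _).trans rfl,
    (hS _ _).trans rfl, s3, s4, rfl, (hS _ _).trans rfl, (hS _ _).trans rfl⟩

lemma fvV1 {x : Fin n → ℝ} (hx : x ∈ Ω) :
    let A := atomsAt u x₀ x
    FieldVal u x₀ x (fun j y => aT u y * qF u j y)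
      (2 * A.pqq - A.Aqqq + A.cc * A.T ^ 2)
      (A.T * A.T) (A.T * A.H) (A.T * A.pqq) (A.T * A.Aqqq) (A.T * A.Aqxx) := by
  intro A
  obtain ⟨t1, t2, t3, t4, t5, t6, t7, t8, t9, t10, -⟩ := hs.table hΩ (x₀ := x₀) hx
  refine ⟨?_, ?_, ?_, ?_, ?_, ?_⟩
  · have h := hs.dv_V1 hΩ hx
    exact h
  · rw [pa_f_mul hs hΩ, t1]
    rfl
  · rw [pa_f_mul hs hΩ, t3]
    rfl
  · rw [pa_f_mul hs hΩ, t5]
    rfl
  · rw [pa_f_mul hs hΩ, t7]
    rfl
  · rw [pa_f_mul hs hΩ, t9]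
    rfl

lemma fvV7 {x : Fin n → ℝ} (hx : x ∈ Ω) :
    let A := atomsAt u x₀ x
    FieldVal u x₀ x (Ah u (qF u) (qF u))
      (A.pqq - A.MM + 2 * A.HM)
      (A.Aqqq) (A.Aqqx) (A.bc11) (A.c11) (A.c13) := by
  intro A
  obtain ⟨-, -, -, -, -, -, -, -, -, -, r1, r2, r3, r4, r5, r6, r7, r8, r9, r10, r11, r12, r13, r14, r15,
    r16, r17, r18, r19, r20, r21, r22, r23, r24, r25⟩ := hs.table hΩ (x₀ := x₀) hx
  refine ⟨?_, ?_, ?_, ?_, ?_, ?_⟩
  · have h := hs.dv_V7 hΩ hx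
    skip
    exact h
  · exact r1
  · exact r2
  · exact r3
  · exact r4
  · exact r5

lemma fvV10 {x : Fin n → ℝ} (hx : x ∈ Ω) :
    let A := atomsAt u x₀ x
    FieldVal u x₀ x (ph u (qF u))
      (2 * A.cc * A.pqq - A.cc * A.Aqqq + A.HH)
      (A.pqq) (A.pqx) (A.b11) (A.bc11) (A.bc13) := by
  intro A
  obtain ⟨-, -, -, -, -, -, -, -, -, -, r1, r2, r3, r4, r5, r6, r7, r8, r9, r10, r11, r12, r13, r14, r15,
    r16, r17, r18, r19, r20, r21, r22, r23, r24, r25⟩ := hs.table hΩ (x₀ := x₀) hx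
  refine ⟨?_, ?_, ?_, ?_, ?_, ?_⟩
  · have h := hs.dv_V10 hΩ hx
    exact h
  · exact r16
  · exact r17
  · exact r18
  · exact r19
  · exact r20

end IsAffineMaximal

end Vale.Agent.Lib.P252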