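import Vale.Agent.Lib.P252.GenN.Dual

/-!
The critical exponent `n = 2 p`: a logarithmic cut-off.  This reaches dimension ten.
-/

open scoped ContDiff Matrix Topology
open MeasureTheory Set Filter

namespace Vale.Agent.Lib.P252

namespace CaccioN

variable {n : ℕ} {u : (Fin n → ℝ) → ℝ}

/-- A bound for the trace of the inverse bounds the determinant from below. -/
lemma det_lower_of_trace {H : Matrix (Fin n) (Fin n) ℝ} (hH : H.PosDef) {C : ℝ} (hC : 1 ≤ C)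
    (hT : Matrix.trace H⁻¹ ≤ C) : (C ^ n)⁻¹ ≤ H.det := by
  have hU : H⁻¹.PosDef := hH.inv
  have hD : 0 < H.det := hH.det_pos
  have h1 : H⁻¹.det = ∏ i, hU.1.eigenvalues i := by
    have := hU.1.det_eq_prod_eigenvalues
    simpa using this
  have h2 : H⁻¹.trace = ∑ i, hU.1.eigenvalues i := by
    have := hU.1.trace_eq_sum_eigenvalues
    simpa using this
  have h3 : ∀ i, 0 < hU.1.eigenvalues i := hU.eigenvalues_pos
  have h4 : ∀ i, hU.1.eigenvalues i ≤ C := fun i => by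
    have : hU.1.eigenvalues i ≤ ∑ j, hU.1.eigenvalues j :=
      Finset.single_le_sum (f := fun j => hU.1.eigenvalues j) (fun j _ => (h3 j).le)
        (Finset.mem_univ i)
    linarith
  have h5 : H⁻¹.det ≤ C ^ n := by
    rw [h1]
    calc ∏ i, hU.1.eigenvalues i ≤ ∏ _i : Fin n, C :=
          Finset.prod_le_prod (fun i _ => (h3 i).le) (fun i _ => h4 i)
      _ = C ^ n := by simp
  have h6 : H⁻¹.det = H.det⁻¹ := by
    rw [Matrix.det_nonsing_inv, Ring.inverse_eq_inv']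
  rw [h6] at h5
  exact inv_le_of_inv_le₀ hD h5

lemma rhoE_nonneg (x₀ x : Fin n → ℝ) : 0 ≤ rhoE x₀ x :=
  Finset.sum_nonneg fun _ _ => sq_nonneg _

lemma one_add_rhoE_pos (x₀ x : Fin n → ℝ) : 0 < 1 + rhoE x₀ x := by
  have := rhoE_nonneg x₀ x
  linarith

/-- The logarithmic exhaustion. -/
noncomputable def rhoL (x₀ x : Fin n → ℝ) : ℝ := Real.log (1 + rhoE x₀ x)

lemma rhoL_contDiff (x₀ : Fin n → ℝ) : ContDiff ℝ ∞ (rhoL x₀) := by
  have h : ContDiff ℝ ∞ (fun x => Real.log (1 + rhoE x₀ x)) :=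
    (contDiff_const.add (rhoE_contDiff x₀)).log fun x => (one_add_rhoE_pos x₀ x).ne'
  exact h

lemma pd_rhoL (x₀ x : Fin n → ℝ) (i : Fin n) :
    pd i (rhoL x₀) x = (1 + rhoE x₀ x)⁻¹ * pd i (rhoE x₀) x := by
  have hpos := (one_add_rhoE_pos x₀ x).ne'
  have hder : HasDerivAt (fun t : ℝ => Real.log (1 + t)) (1 + rhoE x₀ x)⁻¹ (rhoE x₀ x) := by
    have h1 : HasDerivAt (fun t : ℝ => 1 + t) 1 (rhoE x₀ x) := (hasDerivAt_id _).const_add 1
    have := h1.log hpos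
    simpa [one_div] using this
  exact pd_comp hder ((rhoE_contDiff x₀).differentiable (by simp) x) i

lemma norm_sq_le_rhoE (x₀ x : Fin n → ℝ) : ‖x - x₀‖ ^ 2 ≤ rhoE x₀ x := by
  have h0 := rhoE_nonneg x₀ x
  have h1 : ‖x - x₀‖ ≤ Real.sqrt (rhoE x₀ x) :=
    norm_le_of_rhoE (Real.sqrt_nonneg _) (by rw [Real.sq_sqrt h0])
  have h2 := pow_le_pow_left₀ (norm_nonneg _) h1 2
  rwa [Real.sq_sqrt h0] at h2

/-- The energy density of the logarithmic exhaustion. -/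
lemma gradSq_rhoL_le (hs : IsAffineMaximal Set.univ u) {C : ℝ} (hC : 0 ≤ C)
    (hT : ∀ x, Matrix.trace (hess u x)⁻¹ ≤ C) (x₀ w : Fin n → ℝ) :
    gradSq u (rhoL x₀) w ≤ (2 ^ 2 * ((n : ℝ) + 1) * C) * (1 + rhoE x₀ w)⁻¹ := by
  rw [← pa_dF_eq]
  set t : ℝ := (1 + rhoE x₀ w)⁻¹ with ht
  have ht0 : 0 < t := inv_pos.2 (one_add_rhoE_pos x₀ w)
  have e0 : pa u (dF (rhoL x₀)) (dF (rhoL x₀)) w = t ^ 2 * pa u (dF (rhoE x₀)) (dF (rhoE x₀)) w :=
    pa_scale (fun j => pd_rhoL x₀ w j)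
  have e1 : pa u (dF (rhoE x₀)) (dF (rhoE x₀)) w =
      2 ^ 2 * pa u (fun j _ => w j - x₀ j) (fun j _ => w j - x₀ j) w :=
    pa_scale (fun j => pd_rhoE x₀ w j)
  have e2 : pa u (fun j _ => w j - x₀ j) (fun j _ => w j - x₀ j) w =
      Qv (hess u w)⁻¹ (w - x₀) (w - x₀) := by
    unfold pa ra Qv Ui
    refine Finset.sum_congr rfl fun i _ => ?_
    rw [Finset.mul_sum]
    refine Finset.sum_congr rfl fun j _ => ?_
    simp only [Pi.sub_apply]
    ring
  have h1 := quad_le_trace (hs.posDef w (Set.mem_univ w)).inv (w - x₀)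
  have h6 : 0 ≤ Matrix.trace (hess u w)⁻¹ :=
    trace_nonneg_of_posDef (hs.posDef w (Set.mem_univ w)).inv
  have h9 := norm_sq_le_rhoE x₀ w
  have h0 := rhoE_nonneg x₀ w
  have hn : (0 : ℝ) ≤ (n : ℝ) + 1 := by positivity
  have hb : Qv (hess u w)⁻¹ (w - x₀) (w - x₀) ≤ ((n : ℝ) + 1) * C * rhoE x₀ w := by
    refine h1.trans ?_
    exact mul_le_mul (mul_le_mul_of_nonneg_left (hT w) hn) h9 (sq_nonneg _) (by positivity)
  have htρ : t * rhoE x₀ w ≤ 1 := by
    have e : t * (1 + rhoE x₀ w) = 1 := inv_mul_cancel₀ (one_add_rhoE_pos x₀ w).ne'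
    nlinarith
  rw [e0, e1, e2]
  have hK : 0 ≤ 2 ^ 2 * ((n : ℝ) + 1) * C := by positivity
  calc t ^ 2 * (2 ^ 2 * Qv (hess u w)⁻¹ (w - x₀) (w - x₀))
      ≤ t ^ 2 * (2 ^ 2 * (((n : ℝ) + 1) * C * rhoE x₀ w)) := by
        refine mul_le_mul_of_nonneg_left ?_ (sq_nonneg _)
        exact mul_le_mul_of_nonneg_left hb (by norm_num)
    _ = (2 ^ 2 * ((n : ℝ) + 1) * C) * t * (t * rhoE x₀ w) := by ring
    _ ≤ (2 ^ 2 * ((n : ℝ) + 1) * C) * t * 1 :=
        mul_le_mul_of_nonneg_left htρ (by positivity)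
    _ = _ := by ring

lemma isCompact_rhoL (x₀ : Fin n → ℝ) (s : ℝ) : IsCompact {x | x ∈ Set.univ ∧ rhoL x₀ x ≤ s} := by
  have h := isCompact_rhoE x₀ (Real.exp s - 1)
  have e : {x | x ∈ Set.univ ∧ rhoL x₀ x ≤ s} = subLevelC Set.univ (rhoE x₀) (Real.exp s - 1) := by
    ext x
    simp only [subLevelC, Set.mem_setOf_eq, Set.mem_univ, true_and, rhoL]
    rw [Real.log_le_iff_le_exp (one_add_rhoE_pos x₀ x)]
    constructor <;> intro h <;> linarith
  rw [e]
  exact h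

lemma rhoE_continuous (x₀ : Fin n → ℝ) : Continuous (rhoE x₀) := (rhoE_contDiff x₀).continuous

/-- The level sets of the shells. -/
def shellT (x₀ : Fin n → ℝ) (m : ℕ) : Set (Fin n → ℝ) := {x | 1 + rhoE x₀ x < (2 : ℝ) ^ m}

lemma shellT_open (x₀ : Fin n → ℝ) (m : ℕ) : IsOpen (shellT x₀ m) :=
  isOpen_lt (continuous_const.add (rhoE_continuous x₀)) continuous_const

lemma shellT_sub (x₀ : Fin n → ℝ) (m : ℕ) :
    shellT x₀ m ⊆ Metric.closedBall x₀ (Real.sqrt ((2 : ℝ) ^ m)) := by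
  intro x hx
  rw [Metric.mem_closedBall, dist_eq_norm]
  refine norm_le_of_rhoE (Real.sqrt_nonneg _) ?_
  rw [Real.sq_sqrt (by positivity)]
  have h : 1 + rhoE x₀ x < (2 : ℝ) ^ m := hx
  linarith

lemma wF_continuous (x₀ : Fin n → ℝ) (p : ℕ) :
    Continuous fun x => ((1 + rhoE x₀ x)⁻¹) ^ p :=
  ((continuous_const.add (rhoE_continuous x₀)).inv₀
    fun x => (one_add_rhoE_pos x₀ x).ne').pow p

lemma wF_integrableOn (x₀ : Fin n → ℝ) (p m : ℕ) :
    IntegrableOn (fun x => ((1 + rhoE x₀ x)⁻¹) ^ p) (shellT x₀ m) :=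
  ((wF_continuous x₀ p).continuousOn.integrableOn_compact (isCompact_closedBall _ _)).mono_set
    (shellT_sub x₀ m)

/-- The shell estimate: this is where `n ≤ 2 p` enters. -/
lemma shell_step {p : ℕ} (hn : n ≤ 2 * p) (x₀ : Fin n → ℝ) (m : ℕ) :
    ∫ x in shellT x₀ (m + 1) \ shellT x₀ m, ((1 + rhoE x₀ x)⁻¹) ^ p ≤ (2 : ℝ) ^ n * 2 ^ p := by
  set Z := shellT x₀ (m + 1) \ shellT x₀ m with hZ
  have hZm : MeasurableSet Z :=
    (shellT_open x₀ (m + 1)).measurableSet.diff (shellT_open x₀ m).measurableSet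
  have hZsub : Z ⊆ Metric.closedBall x₀ (Real.sqrt ((2 : ℝ) ^ (m + 1))) :=
    fun x hx => shellT_sub x₀ (m + 1) hx.1
  have hfin : volume Z < ⊤ :=
    (measure_mono hZsub).trans_lt (isCompact_closedBall _ _).measure_lt_top
  set c : ℝ := (((2 : ℝ) ^ m)⁻¹) ^ p with hc
  have hc0 : 0 ≤ c := by positivity
  have h1 : ∫ x in Z, ((1 + rhoE x₀ x)⁻¹) ^ p ≤ ∫ _ in Z, c := by
    refine setIntegral_mono_on ((wF_integrableOn x₀ p (m + 1)).mono_set Set.diff_subset)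
      (integrableOn_const hfin.ne) hZm fun x hx => ?_
    have hx2 : (2 : ℝ) ^ m ≤ 1 + rhoE x₀ x := not_lt.1 hx.2
    refine pow_le_pow_left₀ (inv_pos.2 (one_add_rhoE_pos x₀ x)).le ?_ _
    exact inv_anti₀ (by positivity) hx2
  refine h1.trans ?_
  rw [setIntegral_const, smul_eq_mul, mul_comm]
  set r : ℝ := Real.sqrt ((2 : ℝ) ^ (m + 1)) with hr
  have hr1 : 1 ≤ r := by
    rw [hr]
    exact Real.one_le_sqrt.2 (one_le_pow₀ (by norm_num))
  have hr2 : r ^ 2 = (2 : ℝ) ^ (m + 1) := Real.sq_sqrt (by positivity)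
  have hvol : volume.real Z ≤ (2 * r) ^ n := by
    have h2 : volume Z ≤ ENNReal.ofReal ((2 * r) ^ n) := by
      refine (measure_mono hZsub).trans (le_of_eq ?_)
      have := Real.volume_pi_closedBall (ι := Fin n) x₀ (by linarith : (0 : ℝ) ≤ r)
      simpa using this
    exact ENNReal.toReal_le_of_le_ofReal (by positivity) h2
  have h3 : (2 * r) ^ n ≤ 2 ^ n * ((2 : ℝ) ^ (m + 1)) ^ p := by
    rw [mul_pow, ← hr2, ← pow_mul]
    exact mul_le_mul_of_nonneg_left (pow_le_pow_right₀ hr1 hn) (by positivity)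
  calc c * volume.real Z ≤ c * (2 ^ n * ((2 : ℝ) ^ (m + 1)) ^ p) :=
        mul_le_mul_of_nonneg_left (hvol.trans h3) hc0
    _ = (2 : ℝ) ^ n * 2 ^ p := by
        rw [hc, pow_succ, mul_pow, inv_pow]
        have h2m : ((2 : ℝ) ^ m) ^ p ≠ 0 := by positivity
        field_simp

/-- The integral of the weight over the sublevels grows linearly. -/
lemma shell_sum {p : ℕ} (hn : n ≤ 2 * p) (x₀ : Fin n → ℝ) (m : ℕ) :
    ∫ x in shellT x₀ m, ((1 + rhoE x₀ x)⁻¹) ^ p ≤ ((2 : ℝ) ^ n * 2 ^ p) * m := by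
  induction m with
  | zero =>
    have e : shellT x₀ 0 = ∅ := by
      ext x
      simp only [shellT, pow_zero, Set.mem_setOf_eq, Set.mem_empty_iff_false, iff_false, not_lt]
      linarith [rhoE_nonneg x₀ x]
    rw [e]
    simp
  | succ m ih =>
    have hsub : shellT x₀ m ⊆ shellT x₀ (m + 1) := by
      intro x hx
      have h : 1 + rhoE x₀ x < (2 : ℝ) ^ m := hx
      have h2 : (2 : ℝ) ^ m ≤ (2 : ℝ) ^ (m + 1) :=
        pow_le_pow_right₀ (by norm_num) (Nat.le_succ m)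
      exact lt_of_lt_of_le h h2
    have hU : shellT x₀ (m + 1) = shellT x₀ m ∪ (shellT x₀ (m + 1) \ shellT x₀ m) :=
      (Set.union_diff_cancel hsub).symm
    have hdis : Disjoint (shellT x₀ m) (shellT x₀ (m + 1) \ shellT x₀ m) :=
      Set.disjoint_sdiff_right
    have hZm : MeasurableSet (shellT x₀ (m + 1) \ shellT x₀ m) :=
      (shellT_open x₀ (m + 1)).measurableSet.diff (shellT_open x₀ m).measurableSet
    have e := setIntegral_union (f := fun x => ((1 + rhoE x₀ x)⁻¹) ^ p) hdis hZm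
      (wF_integrableOn x₀ p m) ((wF_integrableOn x₀ p (m + 1)).mono_set Set.diff_subset)
    rw [← hU] at e
    rw [e]
    have h := shell_step hn x₀ m
    push_cast
    nlinarith

/-- The Liouville theorem at the critical exponent `n = 2 p` (and above): entire solutions with
bounded `tr (D²u)⁻¹`, when the weight `D^β` is bounded. -/
theorem entire_critical {p : ℕ} {β : ℝ} (hA : AdmN n p β) (hn : n ≤ 2 * p)
    (hs : IsAffineMaximal Set.univ u) {C Λ : ℝ} (hT : ∀ x, Matrix.trace (hess u x)⁻¹ ≤ C)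
    (hΛ : ∀ x, (hess u x).det ^ β ≤ Λ) (x z : Fin n → ℝ) :
    (hess u x).det = (hess u z).det := by
  have hp3 : 3 ≤ p := hA.1
  set x₀ : Fin n → ℝ := 0 with hx₀
  set C' : ℝ := max C 1 with hC'
  have hC'1 : 1 ≤ C' := le_max_right _ _
  have hC'0 : 0 ≤ C' := by linarith
  have hT' : ∀ x, Matrix.trace (hess u x)⁻¹ ≤ C' := fun x => (hT x).trans (le_max_left _ _)
  set Λ' : ℝ := max Λ 1 with hΛ'
  have hΛ'1 : 1 ≤ Λ' := le_max_right _ _
  have hΛ'0 : 0 ≤ Λ' := by linarith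
  set K : ℝ := 2 ^ 2 * ((n : ℝ) + 1) * C' with hK
  have hK0 : 0 ≤ K := by positivity
  set Y : ℝ := Λ' * K ^ p * ((2 : ℝ) ^ n * 2 ^ p) with hY
  have hY0 : 0 ≤ Y := by positivity
  have hlog : 0 < Real.log 2 := Real.log_pos (by norm_num)
  refine energy_final hA isOpen_univ isPreconnected_univ hs (ρ := rhoL x₀)
    (rhoL_contDiff x₀).contDiffOn (isCompact_rhoL x₀) (fun ε hε S₁ => ?_) x (Set.mem_univ x) z
    (Set.mem_univ z)
  obtain ⟨m, hm⟩ := exists_nat_ge (max (max (Y / (ε * Real.log 2 ^ (2 * p))) (S₁ / Real.log 2)) 1)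
  have hm1 : 1 ≤ (m : ℝ) := (le_max_right _ _).trans hm
  have hm2 : S₁ / Real.log 2 ≤ (m : ℝ) := ((le_max_right _ _).trans (le_max_left _ _)).trans hm
  have hm3 : Y / (ε * Real.log 2 ^ (2 * p)) ≤ (m : ℝ) :=
    ((le_max_left _ _).trans (le_max_left _ _)).trans hm
  refine ⟨(m : ℝ) * Real.log 2, by rwa [div_le_iff₀ hlog] at hm2, ?_⟩
  have hset : {x | x ∈ Set.univ ∧ rhoL x₀ x < (m : ℝ) * Real.log 2} = shellT x₀ m := by
    ext w
    simp only [Set.mem_setOf_eq, Set.mem_univ, true_and, shellT, rhoL]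
    rw [← Real.log_pow, Real.log_lt_log_iff (one_add_rhoE_pos x₀ w) (by positivity)]
  rw [hset]
  have hρ0 : ∀ w, 0 < (hess u w).det ^ β := fun w =>
    Real.rpow_pos_of_pos (hs.det_pos (Set.mem_univ w)) _
  have hdX : ∀ j, ContDiffOn ℝ ∞ (dF (rhoL x₀) j) Set.univ := fun j =>
    contDiffOn_pd isOpen_univ (rhoL_contDiff x₀).contDiffOn j
  have hcontG : ContinuousOn (fun w => (hess u w).det ^ β * gradSq u (rhoL x₀) w ^ p) Set.univ := by
    have e : (fun w => (hess u w).det ^ β * gradSq u (rhoL x₀) w ^ p) =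
        fun w => (hess u w).det ^ β * pa u (dF (rhoL x₀)) (dF (rhoL x₀)) w ^ p := by
      funext w
      rw [pa_dF_eq]
    rw [e]
    exact (hs.contDiffOn_detpow isOpen_univ β).continuousOn.mul
      ((hs.contDiffOn_pa isOpen_univ hdX hdX).continuousOn.pow p)
  have hintG : IntegrableOn (fun w => (hess u w).det ^ β * gradSq u (rhoL x₀) w ^ p)
      (shellT x₀ m) :=
    ((hcontG.mono (Set.subset_univ _)).integrableOn_compact (isCompact_closedBall _ _)).mono_set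
      (shellT_sub x₀ m)
  have h1 : ∫ w in shellT x₀ m, (hess u w).det ^ β * gradSq u (rhoL x₀) w ^ p ≤
      ∫ w in shellT x₀ m, (Λ' * K ^ p) * ((1 + rhoE x₀ w)⁻¹) ^ p := by
    refine setIntegral_mono_on hintG ((wF_integrableOn x₀ p m).const_mul _)
      (shellT_open x₀ m).measurableSet fun w _ => ?_
    have h0 : 0 ≤ gradSq u (rhoL x₀) w := by
      rw [← pa_dF_eq]
      exact hs.pa_self_nonneg _ (Set.mem_univ w)
    have h2 := pow_le_pow_left₀ h0 (gradSq_rhoL_le hs hC'0 hT' x₀ w) p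
    have h3 : (hess u w).det ^ β ≤ Λ' := (hΛ w).trans (le_max_left _ _)
    calc (hess u w).det ^ β * gradSq u (rhoL x₀) w ^ p
        ≤ Λ' * (K * (1 + rhoE x₀ w)⁻¹) ^ p :=
          mul_le_mul h3 h2 (pow_nonneg h0 _) hΛ'0
      _ = _ := by
          rw [mul_pow]
          ring
  rw [integral_const_mul] at h1
  have h2 := mul_le_mul_of_nonneg_left (shell_sum (p := p) hn x₀ m)
    (by positivity : 0 ≤ Λ' * K ^ p)
  refine h1.trans (h2.trans ?_)
  have hlp : 0 < Real.log 2 ^ (2 * p) := by positivity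
  rw [div_le_iff₀ (by positivity)] at hm3
  have hm0 : (0 : ℝ) < m := by linarith
  have hpow : (m : ℝ) ^ 2 ≤ (m : ℝ) ^ (2 * p) := pow_le_pow_right₀ hm1 (by omega)
  have e : Λ' * K ^ p * ((2 ^ n * 2 ^ p) * (m : ℝ)) = Y * m := by
    rw [hY]
    ring
  rw [e, mul_pow]
  have h5 : Y * m ≤ ε * Real.log 2 ^ (2 * p) * (m : ℝ) ^ 2 := by
    have : Y * m ≤ ((m : ℝ) * (ε * Real.log 2 ^ (2 * p))) * m :=
      mul_le_mul_of_nonneg_right hm3 hm0.le
    refine this.trans (le_of_eq ?_)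
    ring
  refine h5.trans ?_
  have h6 : ε * Real.log 2 ^ (2 * p) * (m : ℝ) ^ 2 ≤ ε * Real.log 2 ^ (2 * p) * (m : ℝ) ^ (2 * p) :=
    mul_le_mul_of_nonneg_left hpow (by positivity)
  refine h6.trans (le_of_eq ?_)
  ring

/-- The lowest exponents for the bound `D²u ≥ c I`, up to dimension ten. -/
theorem entire_dim_ten {n : ℕ} (h1 : 3 ≤ n) (h2 : n ≤ 10) {u : (Fin n → ℝ) → ℝ}
    (hs : IsAffineMaximal Set.univ u) {C : ℝ} (hT : ∀ x, Matrix.trace (hess u x)⁻¹ ≤ C)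
    (x z : Fin n → ℝ) : (hess u x).det = (hess u z).det := by
  by_cases h3 : n ≤ 9
  · exact entire_dim_nine h1 h3 hs hT x z
  · obtain rfl : n = 10 := by omega
    set C' : ℝ := max C 1 with hC'
    have hC'1 : 1 ≤ C' := le_max_right _ _
    have hlow : ∀ w, (C' ^ 10)⁻¹ ≤ (hess u w).det := fun w =>
      det_lower_of_trace (hs.posDef w (Set.mem_univ w)) hC'1 ((hT w).trans (le_max_left _ _))
    have hc0 : 0 < (C' ^ 10)⁻¹ := by positivity
    refine entire_critical (p := 5) (β := -1/7) adm_n_10_5 (by norm_num) hs hT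
      (Λ := ((C' ^ 10)⁻¹) ^ (-1/7 : ℝ)) (fun w => ?_) x z
    exact Real.rpow_le_rpow_of_nonpos hc0 (hlow w) (by norm_num)

end CaccioN

end Vale.Agent.Lib.P252
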