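import Vale.Agent.Lib.P252.GenN.Final
import Vale.Agent.Lib.P252.Bounded

/-!
Integral criteria in general dimension for the inverse Hessian and for the Hessian.
-/

open scoped ContDiff Matrix Topology
open MeasureTheory Set Filter

namespace Vale.Agent.Lib.P252

namespace CaccioN

variable {n : ℕ} {Ω : Set (Fin n → ℝ)} {u : (Fin n → ℝ) → ℝ} {x₀ : Fin n → ℝ}

/-- The squared length of the gradient of `ū`. -/
noncomputable def rhoG (u : (Fin n → ℝ) → ℝ) (x₀ x : Fin n → ℝ) : ℝ :=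
  ∑ j, pd j (uBar u x₀) x ^ 2

lemma rhoG_contDiffOn (hΩ : IsOpen Ω) (hu : ContDiffOn ℝ ∞ u Ω) : ContDiffOn ℝ ∞ (rhoG u x₀) Ω := by
  unfold rhoG
  exact ContDiffOn.sum fun j _ => (contDiffOn_pd hΩ (contDiffOn_uBar hu) j).pow 2

lemma pd_rhoG (hΩ : IsOpen Ω) (hu : ContDiffOn ℝ ∞ u Ω) {x : Fin n → ℝ} (hx : x ∈ Ω) (i : Fin n) :
    pd i (rhoG u x₀) x = 2 * ((hess u x).mulVec (gradMap u x₀ x)) i := by
  have hd : ∀ j, DifferentiableAt ℝ (pd j (uBar u x₀)) x := fun j =>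
    diffAt hΩ (contDiffOn_pd hΩ (contDiffOn_uBar hu) j) hx
  have h1 : ∀ j, pd i (fun z : Fin n → ℝ => pd j (uBar u x₀) z ^ 2) x =
      2 * pd j (uBar u x₀) x * hess u x i j := by
    intro j
    have hder : HasDerivAt (fun t : ℝ => t ^ 2) (((2 : ℕ) : ℝ) * (pd j (uBar u x₀) x) ^ (2 - 1))
        (pd j (uBar u x₀) x) := hasDerivAt_pow 2 _
    have h := pd_comp (g := fun t : ℝ => t ^ 2) hder (hd j) i
    rw [pd2_uBar hΩ hu hx] at h
    simpa [hess] using h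
  have h2 : pd i (rhoG u x₀) x = ∑ j, pd i (fun z : Fin n → ℝ => pd j (uBar u x₀) z ^ 2) x := by
    unfold rhoG
    exact pd_sum Finset.univ (fun j _ => (hd j).pow 2) i
  rw [h2]
  simp only [h1, Matrix.mulVec, dotProduct, gradMap, Finset.mul_sum]
  refine Finset.sum_congr rfl fun j _ => ?_
  ring

lemma pa_rhoG (hs : IsAffineMaximal Ω u) (hΩ : IsOpen Ω) {x : Fin n → ℝ} (hx : x ∈ Ω) :
    pa u (dF (rhoG u x₀)) (dF (rhoG u x₀)) x =
      2 ^ 2 * Qv (hess u x) (gradMap u x₀ x) (gradMap u x₀ x) := by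
  set H := hess u x with hH
  set Y := gradMap u x₀ x with hY
  have e1 : pa u (dF (rhoG u x₀)) (dF (rhoG u x₀)) x =
      2 ^ 2 * pa u (fun j _ => (H.mulVec Y) j) (fun j _ => (H.mulVec Y) j) x :=
    pa_scale fun j => pd_rhoG hΩ hs.smooth hx j
  rw [e1]
  congr 1
  have hdet : IsUnit H.det := isUnit_iff_ne_zero.mpr (hs.posDef x hx).det_pos.ne'
  have hinv : H⁻¹.mulVec (H.mulVec Y) = Y := by
    rw [Matrix.mulVec_mulVec, Matrix.nonsing_inv_mul _ hdet, Matrix.one_mulVec]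
  have hra : ∀ i, ∑ j, H⁻¹ i j * (H.mulVec Y) j = Y i := fun i => by
    have := congrFun hinv i
    simpa [Matrix.mulVec, dotProduct] using this
  unfold pa ra Ui
  rw [← hH]
  simp only [hra]
  unfold Qv
  refine Finset.sum_congr rfl fun i _ => ?_
  simp only [Matrix.mulVec, dotProduct, Finset.sum_mul]
  refine Finset.sum_congr rfl fun j _ => ?_
  ring

lemma isCompact_rhoG (hΩ : IsOpen Ω) (hu : ContDiffOn ℝ ∞ u Ω)
    (hcpt : ∀ R : ℝ, IsCompact {x | x ∈ Ω ∧ ‖gradMap u x₀ x‖ ≤ R}) (s : ℝ) :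
    IsCompact (subLevelC Ω (rhoG u x₀) s) := by
  set K : Set (Fin n → ℝ) := {x | x ∈ Ω ∧ ‖gradMap u x₀ x‖ ≤ Real.sqrt (max s 0)} with hK
  have hKc : IsCompact K := hcpt _
  have hKsub : K ⊆ Ω := fun x hx => hx.1
  have hcl : IsClosed (K ∩ rhoG u x₀ ⁻¹' Iic s) :=
    ((rhoG_contDiffOn hΩ hu).continuousOn.mono hKsub).preimage_isClosed_of_isClosed hKc.isClosed
      isClosed_Iic
  have heq : subLevelC Ω (rhoG u x₀) s = K ∩ rhoG u x₀ ⁻¹' Iic s := by
    ext x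
    constructor
    · intro hx
      refine ⟨⟨hx.1, ?_⟩, hx.2⟩
      have h : ‖gradMap u x₀ x - 0‖ ≤ Real.sqrt (max s 0) := by
        refine norm_le_of_rhoE (Real.sqrt_nonneg _) ?_
        rw [Real.sq_sqrt (le_max_right _ _)]
        refine le_trans (le_of_eq ?_) (hx.2.trans (le_max_left _ _))
        simp [rhoE, rhoG, gradMap]
      simpa using h
    · intro hx
      exact ⟨hx.1.1, hx.2⟩
  rw [heq]
  exact hKc.of_isClosed_subset hcl inter_subset_left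

/-- The gradient map of a function with positive definite Hessian on a convex set is injective. -/
lemma gradMap_injOn (hΩ : IsOpen Ω) (hc : Convex ℝ Ω) (hu : ContDiffOn ℝ ∞ u Ω)
    (hpos : ∀ x ∈ Ω, (hess u x).PosDef) : InjOn (gradMap u x₀) Ω := by
  intro x hx z hz h
  by_contra hne
  have h1 := tangent_lt (x₀ := x₀) hΩ hc hu hpos hx hz hne
  have h2 := tangent_lt (x₀ := x₀) hΩ hc hu hpos hz hx (Ne.symm hne)
  rw [fderiv_eq_sum] at h1 h2
  have e : ∀ i, pd i (uBar u x₀) x = pd i (uBar u x₀) z := fun i => congrFun h i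
  have e2 : ∑ i, (x - z) i * pd i (uBar u x₀) z = - ∑ i, (z - x) i * pd i (uBar u x₀) x := by
    rw [← Finset.sum_neg_distrib]
    refine Finset.sum_congr rfl fun i _ => ?_
    rw [e i]
    simp only [Pi.sub_apply]
    ring
  rw [e2] at h2
  linarith

/-- The area formula for the gradient map. -/
lemma lintegral_det_eq_volume (hΩ : IsOpen Ω) (hc : Convex ℝ Ω) (hu : ContDiffOn ℝ ∞ u Ω)
    (hpos : ∀ x ∈ Ω, (hess u x).PosDef) {s : Set (Fin n → ℝ)} (hs : MeasurableSet s)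
    (hsub : s ⊆ Ω) :
    ∫⁻ x in s, ENNReal.ofReal ((hess u x).det) = volume (gradMap u x₀ '' s) := by
  have h := lintegral_abs_det_fderiv_eq_addHaar_image (μ := (volume : Measure (Fin n → ℝ))) hs
    (f := gradMap u x₀)
    (fun x hx => (hasFDerivAt_gradMap (x₀ := x₀) hΩ hu (hsub hx)).hasFDerivWithinAt)
    ((gradMap_injOn hΩ hc hu hpos).mono hsub)
  rw [← h]
  refine setLIntegral_congr_fun hs fun x hx => ?_
  have e : (LinearMap.toContinuousLinearMap (Matrix.toLin' (hess u x))).det = (hess u x).det := by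
    rw [ContinuousLinearMap.det]
    simp [LinearMap.det_toLin']
  simp only [e]
  rw [abs_of_pos (hpos x (hsub hx)).det_pos]

/-- Bound for the integral of the determinant when the gradient image is in a ball. -/
lemma integral_det_le (hΩ : IsOpen Ω) (hc : Convex ℝ Ω) (hu : ContDiffOn ℝ ∞ u Ω)
    (hpos : ∀ x ∈ Ω, (hess u x).PosDef) {s : Set (Fin n → ℝ)} (hs : MeasurableSet s)
    (hsub : s ⊆ Ω) {P : ℝ} (hP : 0 ≤ P) (himg : gradMap u x₀ '' s ⊆ Metric.closedBall 0 P) :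
    ∫ x in s, (hess u x).det ≤ (2 * P) ^ n := by
  have h0 : 0 ≤ᵐ[volume.restrict s] fun x => (hess u x).det := by
    filter_upwards [ae_restrict_mem hs] with x hx
    exact (hpos x (hsub hx)).det_pos.le
  have hm : AEStronglyMeasurable (fun x => (hess u x).det) (volume.restrict s) := by
    have hcont : ContinuousOn (fun x => (hess u x).det) Ω :=
      (contDiffOn_detHess hΩ hu).continuousOn
    exact (hcont.mono hsub).aestronglyMeasurable hs
  rw [integral_eq_lintegral_of_nonneg_ae h0 hm, lintegral_det_eq_volume (x₀ := x₀) hΩ hc hu hpos hs hsub]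
  have hv : volume (gradMap u x₀ '' s) ≤ ENNReal.ofReal ((2 * P) ^ n) := by
    refine (measure_mono himg).trans (le_of_eq ?_)
    have := Real.volume_pi_closedBall (ι := Fin n) (0 : Fin n → ℝ) hP
    simpa using this
  exact ENNReal.toReal_le_of_le_ofReal (by positivity) hv


/-- The common form of the integral criteria. -/
theorem crit_common {p : ℕ} {β : ℝ} (hA : AdmN n p β) (hΩ : IsOpen Ω) (hconn : IsPreconnected Ω)
    (hs : IsAffineMaximal Ω u) {ρ : (Fin n → ℝ) → ℝ} (hρ : ContDiffOn ℝ ∞ ρ Ω)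
    (hcpt : ∀ s : ℝ, IsCompact {x | x ∈ Ω ∧ ρ x ≤ s}) {τ : (Fin n → ℝ) → ℝ}
    (hτc : ContinuousOn τ Ω) (hτ0 : ∀ x ∈ Ω, 0 ≤ τ x) (B : ℝ → Set (Fin n → ℝ))
    (hBc : ∀ R : ℝ, 0 < R → IsCompact (B R)) (hBΩ : ∀ R : ℝ, B R ⊆ Ω) {K₀ : ℝ} (hK₀ : 0 < K₀)
    (hsub : ∀ R : ℝ, 0 < R → ∀ w ∈ Ω, ρ w < R ^ 2 → w ∈ B R ∧ gradSq u ρ w ≤ K₀ * R ^ 2 * τ w)
    (hI : ∀ ε : ℝ, 0 < ε → ∀ R₁ : ℝ, ∃ R : ℝ, R₁ ≤ R ∧
      ∫ x in B R, (hess u x).det ^ β * τ x ^ p ≤ ε * R ^ (2 * p)) :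
    ∀ x ∈ Ω, ∀ z ∈ Ω, (hess u x).det = (hess u z).det := by
  refine energy_final hA hΩ hconn hs hρ hcpt fun ε hε S₁ => ?_
  obtain ⟨R, hR1, hR2⟩ := hI (ε / K₀ ^ p) (by positivity) (max S₁ 1)
  have hR3 : 1 ≤ R := (le_max_right _ _).trans hR1
  have hR4 : S₁ ≤ R := (le_max_left _ _).trans hR1
  have hR0 : 0 < R := by linarith
  refine ⟨R ^ 2, by nlinarith, ?_⟩
  have hρ0 : ∀ x ∈ Ω, 0 < (hess u x).det ^ β := fun x hx =>
    Real.rpow_pos_of_pos (hs.det_pos hx) _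
  have hcontτ : ContinuousOn (fun x => (hess u x).det ^ β * τ x ^ p) Ω :=
    (hs.contDiffOn_detpow hΩ β).continuousOn.mul (hτc.pow p)
  have hintB : IntegrableOn (fun x => (hess u x).det ^ β * τ x ^ p) (B R) :=
    (hcontτ.mono (hBΩ R)).integrableOn_compact (hBc R hR0)
  set Z : Set (Fin n → ℝ) := {x | x ∈ Ω ∧ ρ x < R ^ 2} with hZ
  have hZo : IsOpen Z := IsAffineMaximal.isOpen_subLevel hΩ hρ (R ^ 2)
  have hZB : Z ⊆ B R := fun w hw => (hsub R hR0 w hw.1 hw.2).1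
  have hZΩ : Z ⊆ Ω := fun w hw => hw.1
  have hdX : ∀ j, ContDiffOn ℝ ∞ (dF ρ j) Ω := fun j => contDiffOn_pd hΩ hρ j
  have hcontG : ContinuousOn (fun x => (hess u x).det ^ β * gradSq u ρ x ^ p) Ω := by
    have e : (fun x => (hess u x).det ^ β * gradSq u ρ x ^ p) =
        fun x => (hess u x).det ^ β * pa u (dF ρ) (dF ρ) x ^ p := by
      funext x
      rw [pa_dF_eq]
    rw [e]
    exact (hs.contDiffOn_detpow hΩ β).continuousOn.mul
      ((hs.contDiffOn_pa hΩ hdX hdX).continuousOn.pow p)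
  have hintG : IntegrableOn (fun x => (hess u x).det ^ β * gradSq u ρ x ^ p) Z := by
    have hsubC : Z ⊆ {x | x ∈ Ω ∧ ρ x ≤ R ^ 2} := fun w hw => ⟨hw.1, hw.2.le⟩
    exact ((hcontG.mono fun w hw => hw.1).integrableOn_compact (hcpt (R ^ 2))).mono_set hsubC
  have h1 : ∫ x in Z, (hess u x).det ^ β * gradSq u ρ x ^ p ≤
      ∫ x in Z, (K₀ * R ^ 2) ^ p * ((hess u x).det ^ β * τ x ^ p) := by
    refine setIntegral_mono_on hintG ((hintB.mono_set hZB).const_mul _) hZo.measurableSet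
      fun w hw => ?_
    have hwΩ := hw.1
    have h0 : 0 ≤ gradSq u ρ w := by
      rw [← pa_dF_eq]
      exact hs.pa_self_nonneg _ hwΩ
    have h2 := pow_le_pow_left₀ h0 (hsub R hR0 w hw.1 hw.2).2 p
    have h3 := mul_le_mul_of_nonneg_left h2 (hρ0 w hwΩ).le
    refine h3.trans (le_of_eq ?_)
    rw [mul_pow (K₀ * R ^ 2)]
    ring
  have h2 : ∫ x in Z, (hess u x).det ^ β * τ x ^ p ≤ ∫ x in B R, (hess u x).det ^ β * τ x ^ p := by
    refine setIntegral_mono_set hintB ?_ (Filter.Eventually.of_forall hZB)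
    filter_upwards [ae_restrict_mem (hBc R hR0).measurableSet] with w hw
    exact mul_nonneg (hρ0 w (hBΩ R hw)).le (pow_nonneg (hτ0 w (hBΩ R hw)) _)
  rw [integral_const_mul] at h1
  have hKp : 0 < K₀ ^ p := by positivity
  have hbig : (0 : ℝ) ≤ (K₀ * R ^ 2) ^ p := by positivity
  calc ∫ x in Z, (hess u x).det ^ β * gradSq u ρ x ^ p
      ≤ (K₀ * R ^ 2) ^ p * ∫ x in Z, (hess u x).det ^ β * τ x ^ p := h1
    _ ≤ (K₀ * R ^ 2) ^ p * (ε / K₀ ^ p * R ^ (2 * p)) :=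
        mul_le_mul_of_nonneg_left (h2.trans hR2) hbig
    _ = ε * (R ^ 2) ^ (2 * p) := by
        have e1 : (K₀ * R ^ 2) ^ p = K₀ ^ p * R ^ (2 * p) := by
          rw [mul_pow, ← pow_mul]
        have e2 : (R ^ 2) ^ (2 * p) = R ^ (2 * p) * R ^ (2 * p) := by
          rw [← pow_mul, ← pow_add]
          congr 1
          ring
        rw [e1, e2]
        field_simp

/-- The integral criterion for the inverse Hessian on entire solutions. -/
theorem entire_integral {p : ℕ} {β : ℝ} (hA : AdmN n p β) (hs : IsAffineMaximal Set.univ u)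
    (hI : ∀ ε : ℝ, 0 < ε → ∀ R₁ : ℝ, ∃ R : ℝ, R₁ ≤ R ∧
      ∫ x in Metric.closedBall x₀ R, (hess u x).det ^ β * Matrix.trace (hess u x)⁻¹ ^ p ≤
        ε * R ^ (2 * p)) (x z : Fin n → ℝ) :
    (hess u x).det = (hess u z).det := by
  have hτc : ContinuousOn (fun x => Matrix.trace (hess u x)⁻¹) Set.univ := by
    unfold Matrix.trace Matrix.diag
    exact continuousOn_finsetSum _ fun i _ => (hs.contDiffOn_Ui isOpen_univ i i).continuousOn
  refine crit_common hA isOpen_univ isPreconnected_univ hs (ρ := rhoE x₀)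
    (rhoE_contDiff x₀).contDiffOn (isCompact_rhoE x₀) hτc
    (fun w hw => trace_nonneg_of_posDef (hs.posDef w hw).inv)
    (fun R => Metric.closedBall x₀ R) (fun R _ => isCompact_closedBall x₀ R)
    (fun R => Set.subset_univ _) (K₀ := 2 ^ 2 * ((n : ℝ) + 1)) (by positivity) ?_ hI x (Set.mem_univ x)
    z (Set.mem_univ z)
  intro R hR w hw hwR
  have hw0 : ‖w - x₀‖ ≤ R := norm_le_of_rhoE hR.le hwR.le
  refine ⟨by rwa [Metric.mem_closedBall, dist_eq_norm], ?_⟩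
  rw [← pa_dF_eq]
  have e1 : pa u (dF (rhoE x₀)) (dF (rhoE x₀)) w =
      2 ^ 2 * pa u (fun j _ => w j - x₀ j) (fun j _ => w j - x₀ j) w :=
    pa_scale (fun j => pd_rhoE x₀ w j)
  have e2 : pa u (fun j _ => w j - x₀ j) (fun j _ => w j - x₀ j) w =
      Qv (hess u w)⁻¹ (w - x₀) (w - x₀) := by
    unfold pa ra Qv Ui
    refine Finset.sum_congr rfl fun i _ => ?_
    rw [Finset.mul_sum]
    refine Finset.sum_congr rfl fun j _ => ?_
    simp only [Pi.sub_apply]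
    ring
  have h1 := quad_le_trace (hs.posDef w (Set.mem_univ w)).inv (w - x₀)
  have h6 : 0 ≤ Matrix.trace (hess u w)⁻¹ :=
    trace_nonneg_of_posDef (hs.posDef w (Set.mem_univ w)).inv
  have h9 : ‖w - x₀‖ ^ 2 ≤ R ^ 2 := pow_le_pow_left₀ (norm_nonneg _) hw0 2
  rw [e1, e2]
  calc 2 ^ 2 * Qv (hess u w)⁻¹ (w - x₀) (w - x₀)
      ≤ 2 ^ 2 * (((n : ℝ) + 1) * Matrix.trace (hess u w)⁻¹ * ‖w - x₀‖ ^ 2) :=
        mul_le_mul_of_nonneg_left h1 (by norm_num)
    _ ≤ 2 ^ 2 * (((n : ℝ) + 1) * Matrix.trace (hess u w)⁻¹ * R ^ 2) :=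
        mul_le_mul_of_nonneg_left (mul_le_mul_of_nonneg_left h9 (by positivity)) (by norm_num)
    _ = _ := by ring

/-- The integral criterion for the Hessian when the gradient map is proper. -/
theorem dual_integral {p : ℕ} {β : ℝ} (hA : AdmN n p β) (hΩ : IsOpen Ω) (hc : Convex ℝ Ω)
    (hs : IsAffineMaximal Ω u)
    (hcpt : ∀ R : ℝ, IsCompact {x | x ∈ Ω ∧ ‖gradMap u x₀ x‖ ≤ R})
    (hI : ∀ ε : ℝ, 0 < ε → ∀ R₁ : ℝ, ∃ R : ℝ, R₁ ≤ R ∧
      ∫ x in {x | x ∈ Ω ∧ ‖gradMap u x₀ x‖ ≤ R}, (hess u x).det ^ β * Matrix.trace (hess u x) ^ p ≤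
        ε * R ^ (2 * p)) :
    ∀ x ∈ Ω, ∀ z ∈ Ω, (hess u x).det = (hess u z).det := by
  have hτc : ContinuousOn (fun x => Matrix.trace (hess u x)) Ω := by
    unfold Matrix.trace Matrix.diag
    exact continuousOn_finsetSum _ fun i _ => (contDiffOn_pd2 hΩ hs.smooth i i).continuousOn
  refine crit_common hA hΩ hc.isPreconnected hs (ρ := rhoG u x₀)
    (rhoG_contDiffOn hΩ hs.smooth) (isCompact_rhoG hΩ hs.smooth hcpt) hτc
    (fun w hw => trace_nonneg_of_posDef (hs.posDef w hw))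
    (fun R => {x | x ∈ Ω ∧ ‖gradMap u x₀ x‖ ≤ R}) (fun R _ => hcpt R)
    (fun R x hx => hx.1) (K₀ := 2 ^ 2 * ((n : ℝ) + 1)) (by positivity) ?_ hI
  intro R hR w hwΩ hwR
  have hw0 : ‖gradMap u x₀ w‖ ≤ R := by
    have h : ‖gradMap u x₀ w - 0‖ ≤ R := by
      refine norm_le_of_rhoE hR.le ?_
      refine le_trans (le_of_eq ?_) hwR.le
      simp [rhoE, rhoG, gradMap]
    simpa using h
  refine ⟨⟨hwΩ, hw0⟩, ?_⟩
  rw [← pa_dF_eq, pa_rhoG hs hΩ hwΩ]
  have h1 := quad_le_trace (hs.posDef w hwΩ) (gradMap u x₀ w)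
  have h6 : 0 ≤ Matrix.trace (hess u w) := trace_nonneg_of_posDef (hs.posDef w hwΩ)
  have h9 : ‖gradMap u x₀ w‖ ^ 2 ≤ R ^ 2 := pow_le_pow_left₀ (norm_nonneg _) hw0 2
  calc 2 ^ 2 * Qv (hess u w) (gradMap u x₀ w) (gradMap u x₀ w)
      ≤ 2 ^ 2 * (((n : ℝ) + 1) * Matrix.trace (hess u w) * ‖gradMap u x₀ w‖ ^ 2) :=
        mul_le_mul_of_nonneg_left h1 (by norm_num)
    _ ≤ 2 ^ 2 * (((n : ℝ) + 1) * Matrix.trace (hess u w) * R ^ 2) :=
        mul_le_mul_of_nonneg_left (mul_le_mul_of_nonneg_left h9 (by positivity)) (by norm_num)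
    _ = _ := by ring

/-- The pointwise criterion for the Hessian when the gradient map is proper. -/
theorem dual_pointwise {p : ℕ} (hA : AdmN n p 1) (hΩ : IsOpen Ω) (hc : Convex ℝ Ω)
    (hs : IsAffineMaximal Ω u)
    (hcpt : ∀ R : ℝ, IsCompact {x | x ∈ Ω ∧ ‖gradMap u x₀ x‖ ≤ R}) {C b : ℝ} (hb : 0 ≤ b)
    (hp : (n : ℝ) < (2 - b) * (p : ℝ))
    (hT : ∀ x ∈ Ω, Matrix.trace (hess u x) ≤ C * (1 + ‖gradMap u x₀ x‖) ^ b) :
    ∀ x ∈ Ω, ∀ z ∈ Ω, (hess u x).det = (hess u z).det := by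
  refine dual_integral hA hΩ hc hs hcpt fun ε hε R₁ => ?_
  have hC1 : 0 < max C 1 := lt_of_lt_of_le one_pos (le_max_right _ _)
  obtain ⟨R, hR1, hR2, hR3⟩ := key_num hC1 hε hb p n (by rw [mul_comm]; exact hp) ((max R₁ 1) ^ 2)
  have hR0 : 0 < R := by linarith
  have hR4 : R₁ ≤ R := by
    have h1 : max R₁ 1 ≤ R := by
      by_contra hcon
      have h2 : R < max R₁ 1 := not_le.1 hcon
      nlinarith
    exact (le_max_left _ _).trans h1
  refine ⟨R, hR4, ?_⟩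
  set B : Set (Fin n → ℝ) := {x | x ∈ Ω ∧ ‖gradMap u x₀ x‖ ≤ R} with hB
  have hBm : MeasurableSet B := (hcpt R).measurableSet
  have hBΩ : B ⊆ Ω := fun x hx => hx.1
  set L : ℝ := (max C 1 * (2 * R) ^ b) ^ p with hL
  have hL0 : 0 ≤ L := by positivity
  have hτc : ContinuousOn (fun x => Matrix.trace (hess u x)) Ω := by
    unfold Matrix.trace Matrix.diag
    exact continuousOn_finsetSum _ fun i _ => (contDiffOn_pd2 hΩ hs.smooth i i).continuousOn
  have hD1 : ContinuousOn (fun x => (hess u x).det ^ (1 : ℝ)) Ω :=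
    (hs.contDiffOn_detpow hΩ _).continuousOn
  have hi1 : IntegrableOn (fun x => (hess u x).det ^ (1 : ℝ) * Matrix.trace (hess u x) ^ p) B :=
    ((hD1.mul (hτc.pow p)).mono hBΩ).integrableOn_compact (hcpt R)
  have hi2 : IntegrableOn (fun x => (hess u x).det ^ (1 : ℝ) * L) B :=
    ((hD1.mul continuousOn_const).mono hBΩ).integrableOn_compact (hcpt R)
  have h1 : ∫ x in B, (hess u x).det ^ (1 : ℝ) * Matrix.trace (hess u x) ^ p ≤
      ∫ x in B, (hess u x).det ^ (1 : ℝ) * L := by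
    refine setIntegral_mono_on hi1 hi2 hBm fun w hw => ?_
    have hwΩ := hw.1
    have hD0 : 0 ≤ (hess u w).det ^ (1 : ℝ) := Real.rpow_nonneg (hs.det_pos hwΩ).le _
    refine mul_le_mul_of_nonneg_left ?_ hD0
    refine pow_le_pow_left₀ (trace_nonneg_of_posDef (hs.posDef w hwΩ)) ?_ _
    have hn := norm_nonneg (gradMap u x₀ w)
    have h4 : (1 + ‖gradMap u x₀ w‖) ^ b ≤ (2 * R) ^ b :=
      Real.rpow_le_rpow (by positivity) (by linarith [hw.2]) hb
    have h5 : 0 ≤ (1 + ‖gradMap u x₀ w‖) ^ b := by positivity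
    calc Matrix.trace (hess u w) ≤ C * (1 + ‖gradMap u x₀ w‖) ^ b := hT w hwΩ
      _ ≤ max C 1 * (1 + ‖gradMap u x₀ w‖) ^ b := mul_le_mul_of_nonneg_right (le_max_left _ _) h5
      _ ≤ _ := mul_le_mul_of_nonneg_left h4 hC1.le
  have himg : gradMap u x₀ '' B ⊆ Metric.closedBall 0 R := by
    rintro _ ⟨w, hw, rfl⟩
    simpa [Metric.mem_closedBall, dist_eq_norm] using hw.2
  have hdet := integral_det_le hΩ hc hs.smooth hs.posDef hBm hBΩ hR0.le himg
  have h2 : ∫ x in B, (hess u x).det ^ (1 : ℝ) * L ≤ L * (2 * R) ^ n := by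
    rw [integral_mul_const, mul_comm]
    refine mul_le_mul_of_nonneg_left (le_trans (le_of_eq ?_) hdet) hL0
    refine integral_congr_ae (ae_of_all _ fun w => ?_)
    simp only [Real.rpow_one]
  refine h1.trans (h2.trans ?_)
  have e : (max C 1 * (2 * R) ^ b * R ^ 2) ^ p * (2 * R) ^ n = R ^ (2 * p) * (L * (2 * R) ^ n) := by
    rw [hL, mul_pow, pow_mul]
    ring
  have e2 : ε * (R ^ 2) ^ (2 * p) = R ^ (2 * p) * (ε * R ^ (2 * p)) := by
    have : (R ^ 2) ^ (2 * p) = R ^ (2 * p) * R ^ (2 * p) := by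
      rw [← pow_mul, ← pow_add]
      congr 1
      ring
    rw [this]
    ring
  rw [e, e2] at hR3
  exact le_of_mul_le_mul_left hR3 (by positivity)

end CaccioN

end Vale.Agent.Lib.P252
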