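import Vale.Agent.Lib.P252.GenN.Growth2
import Vale.Agent.Lib.P252.GenN.Table

/-!
The Caccioppoli inequality and its Liouville theorems in dimension `n`, in readable form.
-/

open scoped ContDiff Matrix Topology
open MeasureTheory Set Filter

namespace Vale.Agent.Lib.P252

namespace CaccioN

variable {n : ℕ} {Ω : Set (Fin n → ℝ)} {u : (Fin n → ℝ) → ℝ} {x₀ : Fin n → ℝ}

lemma pa_dF_eq (u f : (Fin n → ℝ) → ℝ) (x : Fin n → ℝ) :
    pa u (dF f) (dF f) x = gradSq u f x := by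
  simp only [pa, ra, dF, Ui, gradSq, Finset.mul_sum]
  refine Finset.sum_congr rfl fun i _ => Finset.sum_congr rfl fun j _ => ?_
  ring

lemma aT_eq (u : (Fin n → ℝ) → ℝ) (x : Fin n → ℝ) :
    aT u x = gradSq u (fun y => Real.log (hess u y).det) x :=
  pa_dF_eq u (logD u) x

/-- The Caccioppoli inequality in the readable form. -/
theorem caccioppoli_final {p : ℕ} {β : ℝ} (hA : AdmN n p β) :
    ∃ C : ℝ, 0 < C ∧ ∀ (Ω : Set (Fin n → ℝ)) (u ψ : (Fin n → ℝ) → ℝ),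
      IsOpen Ω → IsAffineMaximal Ω u → ContDiff ℝ 1 ψ → HasCompactSupport ψ → tsupport ψ ⊆ Ω →
      ∫ x in Ω, (hess u x).det ^ β *
          (ψ x ^ (2 * p) * gradSq u (fun y => Real.log (hess u y).det) x ^ p) ≤
        C * ∫ x in Ω, (hess u x).det ^ β * gradSq u ψ x ^ p := by
  obtain ⟨hp, y, X, ζ1, ζ2, ξ1, ξ3, hc⟩ := hA
  obtain ⟨k, rfl⟩ : ∃ k, p = k + 3 := ⟨p - 3, by omega⟩
  rw [Nat.add_sub_cancel] at hc
  refine ⟨CFin n k β y X ζ1 ζ2 ξ1 ξ3, CFin_pos hc, fun Ω u ψ hΩ hs h1 h2 h3 => ?_⟩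
  have h := caccioppoli hs hΩ hc (ψ := ψ) ⟨h1, h2, h3⟩
  simp only [pa_dF_eq, aT_eq] at h
  refine le_trans (le_of_eq ?_) h
  refine integral_congr_ae (ae_of_all _ fun x => ?_)
  simp only
  rw [mul_pow, ← pow_mul]

/-- The capacity criterion in the readable form. -/
theorem capacity_final {p : ℕ} {β : ℝ} (hA : AdmN n p β) (hΩ : IsOpen Ω) (hconn : IsPreconnected Ω)
    (hs : IsAffineMaximal Ω u)
    (hcap : ∀ K : Set (Fin n → ℝ), IsCompact K → K ⊆ Ω → ∀ ε : ℝ, 0 < ε →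
      ∃ ψ : (Fin n → ℝ) → ℝ, ContDiff ℝ 1 ψ ∧ HasCompactSupport ψ ∧ tsupport ψ ⊆ Ω ∧
        (∀ x ∈ K, ψ x = 1) ∧ ∫ x in Ω, (hess u x).det ^ β * gradSq u ψ x ^ p ≤ ε) :
    ∀ x ∈ Ω, ∀ z ∈ Ω, (hess u x).det = (hess u z).det := by
  obtain ⟨hp, y, X, ζ1, ζ2, ξ1, ξ3, hc⟩ := hA
  obtain ⟨k, rfl⟩ : ∃ k, p = k + 3 := ⟨p - 3, by omega⟩
  rw [Nat.add_sub_cancel] at hc
  intro x hx z hz
  refine det_const_of_capacity hs hΩ hc hconn (fun K hK hKΩ ε hε => ?_) hx hz
  obtain ⟨ψ, h1, h2, h3, h4, h5⟩ := hcap K hK hKΩ ε hε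
  refine ⟨ψ, ⟨h1, h2, h3⟩, h4, ?_⟩
  simpa only [pa_dF_eq] using h5

/-- The criterion with an exhaustion function and its energy, in the readable form. -/
theorem energy_final {p : ℕ} {β : ℝ} (hA : AdmN n p β) (hΩ : IsOpen Ω) (hconn : IsPreconnected Ω)
    (hs : IsAffineMaximal Ω u) {ρ : (Fin n → ℝ) → ℝ} (hρ : ContDiffOn ℝ ∞ ρ Ω)
    (hcpt : ∀ s : ℝ, IsCompact {x | x ∈ Ω ∧ ρ x ≤ s})
    (hG : ∀ ε : ℝ, 0 < ε → ∀ S₁ : ℝ, ∃ S : ℝ, S₁ ≤ S ∧
      ∫ x in {x | x ∈ Ω ∧ ρ x < S}, (hess u x).det ^ β * gradSq u ρ x ^ p ≤ ε * S ^ (2 * p)) :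
    ∀ x ∈ Ω, ∀ z ∈ Ω, (hess u x).det = (hess u z).det := by
  obtain ⟨hp, y, X, ζ1, ζ2, ξ1, ξ3, hc⟩ := hA
  obtain ⟨k, rfl⟩ : ∃ k, p = k + 3 := ⟨p - 3, by omega⟩
  rw [Nat.add_sub_cancel] at hc
  intro x hx z hz
  refine det_const_of_energy_growth hs hΩ hc hconn hρ hcpt (fun ε hε S₁ => ?_) hx hz
  obtain ⟨S, hS, h⟩ := hG ε hε S₁
  refine ⟨S, hS, ?_⟩
  simp only [pa_dF_eq]
  have e : 2 * (k + 3) = 2 * k + 6 := by ring
  rw [e] at h
  exact h

/-- The criterion with a function which is `1`-Lipschitz for a conformal metric, in the readable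
form. -/
theorem metric_final {p : ℕ} {β τ : ℝ} (hA : AdmN n p β) (hΩ : IsOpen Ω) (hconn : IsPreconnected Ω)
    (hs : IsAffineMaximal Ω u) {ρ : (Fin n → ℝ) → ℝ} (hρ : ContDiffOn ℝ ∞ ρ Ω)
    (hcpt : ∀ s : ℝ, IsCompact {x | x ∈ Ω ∧ ρ x ≤ s})
    (hgrad : ∀ x ∈ Ω, (hess u x).det ^ τ * gradSq u ρ x ≤ 1)
    (hG : ∀ ε : ℝ, 0 < ε → ∀ S₁ : ℝ, ∃ S : ℝ, S₁ ≤ S ∧
      ∫ x in {x | x ∈ Ω ∧ ρ x < S}, (hess u x).det ^ (β - (p : ℝ) * τ) ≤ ε * S ^ (2 * p)) :
    ∀ x ∈ Ω, ∀ z ∈ Ω, (hess u x).det = (hess u z).det := by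
  obtain ⟨hp, y, X, ζ1, ζ2, ξ1, ξ3, hc⟩ := hA
  obtain ⟨k, rfl⟩ : ∃ k, p = k + 3 := ⟨p - 3, by omega⟩
  rw [Nat.add_sub_cancel] at hc
  intro x hx z hz
  refine det_const_of_metric_growth hs hΩ hc hconn (τ := τ) hρ hcpt ?_ (fun ε hε S₁ => ?_) hx hz
  · intro x hx
    rw [pa_dF_eq]
    exact hgrad x hx
  · obtain ⟨S, hS, h⟩ := hG ε hε S₁
    refine ⟨S, hS, ?_⟩
    have e : 2 * (k + 3) = 2 * k + 6 := by ring
    rw [e] at h
    have e2 : (((k + 3 : ℕ) : ℝ)) = (k : ℝ) + 3 := by push_cast; ring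
    rw [e2] at h
    exact h

/-- The Liouville theorem for entire solutions: readable form. -/
theorem entire_final {p : ℕ} (hA : AdmN n p 0) (hs : IsAffineMaximal Set.univ u) {C a : ℝ}
    (ha : 0 ≤ a) (hpk : (n : ℝ) < (2 - a) * (p : ℝ))
    (hT : ∀ x, Matrix.trace (hess u x)⁻¹ ≤ C * (1 + ‖x - x₀‖) ^ a) (x z : Fin n → ℝ) :
    (hess u x).det = (hess u z).det := by
  obtain ⟨hp, y, X, ζ1, ζ2, ξ1, ξ3, hc⟩ := hA
  obtain ⟨k, rfl⟩ : ∃ k, p = k + 3 := ⟨p - 3, by omega⟩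
  rw [Nat.add_sub_cancel] at hc
  exact det_const_of_hess_lower hc hs ha (by rw [mul_comm]; exact hpk) hT x z

/-- The Liouville theorem with compact sublevels of `ū`: readable form. -/
theorem uBar_final {p : ℕ} (hA : AdmN n p 0) (hs : IsAffineMaximal Ω u) (hΩ : IsOpen Ω)
    (hc : Convex ℝ Ω) (hx₀ : x₀ ∈ Ω) (hcpt : ∀ s : ℝ, IsCompact {x | x ∈ Ω ∧ uBar u x₀ x ≤ s})
    {C a : ℝ} (ha : 0 ≤ a) (hpk : (n : ℝ) < (2 - a) * (p : ℝ))
    (hG : ∀ x ∈ Ω, gradSq u (uBar u x₀) x ≤ C * (1 + uBar u x₀ x) ^ a) :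
    ∀ x ∈ Ω, ∀ z ∈ Ω, (hess u x).det = (hess u z).det := by
  obtain ⟨hp, y, X, ζ1, ζ2, ξ1, ξ3, hce⟩ := hA
  obtain ⟨k, rfl⟩ : ∃ k, p = k + 3 := ⟨p - 3, by omega⟩
  rw [Nat.add_sub_cancel] at hce
  intro x hx z hz
  refine det_const_of_G_bound hce hs hΩ hc hx₀ hcpt ha (by rw [mul_comm]; exact hpk)
    (C := C) (fun w hw => ?_) hx hz
  rw [pa_dF_eq]
  exact hG w hw

/-- The lowest exponent table for the bound `D²u ≥ c I`. -/
lemma exists_adm_dim {n : ℕ} (h1 : 3 ≤ n) (h2 : n ≤ 9) :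
    ∃ p : ℕ, AdmN n p 0 ∧ n < 2 * p := by
  interval_cases n
  · exact ⟨3, adm_z_3_3, by norm_num⟩
  · exact ⟨3, adm_z_4_3, by norm_num⟩
  · exact ⟨3, adm_z_5_3, by norm_num⟩
  · exact ⟨4, adm_z_6_4, by norm_num⟩
  · exact ⟨4, adm_z_7_4, by norm_num⟩
  · exact ⟨5, adm_z_8_5, by norm_num⟩
  · exact ⟨5, adm_z_9_5, by norm_num⟩

/-- The Liouville theorem for entire solutions with a lower bound for the Hessian, `3 ≤ n ≤ 9`. -/
theorem entire_dim_nine {n : ℕ} (h1 : 3 ≤ n) (h2 : n ≤ 9) {u : (Fin n → ℝ) → ℝ}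
    (hs : IsAffineMaximal Set.univ u) {C : ℝ} (hT : ∀ x, Matrix.trace (hess u x)⁻¹ ≤ C)
    (x z : Fin n → ℝ) : (hess u x).det = (hess u z).det := by
  obtain ⟨p, hA, hp⟩ := exists_adm_dim h1 h2
  refine entire_final (x₀ := 0) (C := C) (a := 0) hA hs le_rfl ?_ (fun x => ?_) x z
  · have : ((n : ℕ) : ℝ) < ((2 * p : ℕ) : ℝ) := by exact_mod_cast hp
    push_cast at this
    linarith
  · simpa using hT x

/-- The table of admissible exponents for the Lebesgue weight. -/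
theorem table_zero :
    (∀ p, 3 ≤ p → p ≤ 20 → AdmN 3 p 0) ∧ (∀ p, 3 ≤ p → p ≤ 55 → AdmN 4 p 0) ∧ (∀ p, 3 ≤ p → p ≤ 16 → AdmN 5 p 0) ∧
      (∀ p, 3 ≤ p → p ≤ 10 → AdmN 6 p 0) ∧ (∀ p, 3 ≤ p → p ≤ 7 → AdmN 7 p 0) ∧
      (∀ p, 3 ≤ p → p ≤ 6 → AdmN 8 p 0) ∧ (∀ p, 3 ≤ p → p ≤ 5 → AdmN 9 p 0) := by
  refine ⟨?_, ?_, ?_, ?_, ?_, ?_, ?_⟩
  · intro p h1 h2
    interval_cases p
    · exact adm_z_3_3
    · exact adm_z_3_4
    · exact adm_z_3_5
    · exact adm_z_3_6
    · exact adm_z_3_7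
    · exact adm_z_3_8
    · exact adm_z_3_9
    · exact adm_z_3_10
    · exact adm_z_3_11
    · exact adm_z_3_12
    · exact adm_z_3_13
    · exact adm_z_3_14
    · exact adm_z_3_15
    · exact adm_z_3_16
    · exact adm_z_3_17
    · exact adm_z_3_18
    · exact adm_z_3_19
    · exact adm_z_3_20
  · intro p h1 h2
    interval_cases p
    · exact adm_z_4_3
    · exact adm_z_4_4
    · exact adm_z_4_5
    · exact adm_z_4_6
    · exact adm_z_4_7
    · exact adm_z_4_8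
    · exact adm_z_4_9
    · exact adm_z_4_10
    · exact adm_z_4_11
    · exact adm_z_4_12
    · exact adm_z_4_13
    · exact adm_z_4_14
    · exact adm_z_4_15
    · exact adm_z_4_16
    · exact adm_z_4_17
    · exact adm_z_4_18
    · exact adm_z_4_19
    · exact adm_z_4_20
    · exact adm_z_4_21
    · exact adm_z_4_22
    · exact adm_z_4_23
    · exact adm_z_4_24
    · exact adm_z_4_25
    · exact adm_z_4_26
    · exact adm_z_4_27
    · exact adm_z_4_28
    · exact adm_z_4_29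
    · exact adm_z_4_30
    · exact adm_z_4_31
    · exact adm_z_4_32
    · exact adm_z_4_33
    · exact adm_z_4_34
    · exact adm_z_4_35
    · exact adm_z_4_36
    · exact adm_z_4_37
    · exact adm_z_4_38
    · exact adm_z_4_39
    · exact adm_z_4_40
    · exact adm_z_4_41
    · exact adm_z_4_42
    · exact adm_z_4_43
    · exact adm_z_4_44
    · exact adm_z_4_45
    · exact adm_z_4_46
    · exact adm_z_4_47
    · exact adm_z_4_48
    · exact adm_z_4_49
    · exact adm_z_4_50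
    · exact adm_z_4_51
    · exact adm_z_4_52
    · exact adm_z_4_53
    · exact adm_z_4_54
    · exact adm_z_4_55
  · intro p h1 h2
    interval_cases p
    · exact adm_z_5_3
    · exact adm_z_5_4
    · exact adm_z_5_5
    · exact adm_z_5_6
    · exact adm_z_5_7
    · exact adm_z_5_8
    · exact adm_z_5_9
    · exact adm_z_5_10
    · exact adm_z_5_11
    · exact adm_z_5_12
    · exact adm_z_5_13
    · exact adm_z_5_14
    · exact adm_z_5_15
    · exact adm_z_5_16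
  · intro p h1 h2
    interval_cases p
    · exact adm_z_6_3
    · exact adm_z_6_4
    · exact adm_z_6_5
    · exact adm_z_6_6
    · exact adm_z_6_7
    · exact adm_z_6_8
    · exact adm_z_6_9
    · exact adm_z_6_10
  · intro p h1 h2
    interval_cases p
    · exact adm_z_7_3
    · exact adm_z_7_4
    · exact adm_z_7_5
    · exact adm_z_7_6
    · exact adm_z_7_7
  · intro p h1 h2
    interval_cases p
    · exact adm_z_8_3
    · exact adm_z_8_4
    · exact adm_z_8_5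
    · exact adm_z_8_6
  · intro p h1 h2
    interval_cases p
    · exact adm_z_9_3
    · exact adm_z_9_4
    · exact adm_z_9_5

/-- The table of admissible exponents for the area form of the Calabi metric. -/
theorem table_calabi :
    (∀ p, 3 ≤ p → p ≤ 52 → AdmN 4 p (1/2)) ∧ (∀ p, 3 ≤ p → p ≤ 14 → AdmN 5 p (1/2)) ∧
      (∀ p, 4 ≤ p → p ≤ 7 → AdmN 6 p (1/2)) := by
  refine ⟨?_, ?_, ?_⟩
  · intro p h1 h2
    interval_cases p
    · exact adm_h_4_3
    · exact adm_h_4_4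
    · exact adm_h_4_5
    · exact adm_h_4_6
    · exact adm_h_4_7
    · exact adm_h_4_8
    · exact adm_h_4_9
    · exact adm_h_4_10
    · exact adm_h_4_11
    · exact adm_h_4_12
    · exact adm_h_4_13
    · exact adm_h_4_14
    · exact adm_h_4_15
    · exact adm_h_4_16
    · exact adm_h_4_17
    · exact adm_h_4_18
    · exact adm_h_4_19
    · exact adm_h_4_20
    · exact adm_h_4_21
    · exact adm_h_4_22
    · exact adm_h_4_23
    · exact adm_h_4_24
    · exact adm_h_4_25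
    · exact adm_h_4_26
    · exact adm_h_4_27
    · exact adm_h_4_28
    · exact adm_h_4_29
    · exact adm_h_4_30
    · exact adm_h_4_31
    · exact adm_h_4_32
    · exact adm_h_4_33
    · exact adm_h_4_34
    · exact adm_h_4_35
    · exact adm_h_4_36
    · exact adm_h_4_37
    · exact adm_h_4_38
    · exact adm_h_4_39
    · exact adm_h_4_40
    · exact adm_h_4_41
    · exact adm_h_4_42
    · exact adm_h_4_43
    · exact adm_h_4_44
    · exact adm_h_4_45
    · exact adm_h_4_46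
    · exact adm_h_4_47
    · exact adm_h_4_48
    · exact adm_h_4_49
    · exact adm_h_4_50
    · exact adm_h_4_51
    · exact adm_h_4_52
  · intro p h1 h2
    interval_cases p
    · exact adm_h_5_3
    · exact adm_h_5_4
    · exact adm_h_5_5
    · exact adm_h_5_6
    · exact adm_h_5_7
    · exact adm_h_5_8
    · exact adm_h_5_9
    · exact adm_h_5_10
    · exact adm_h_5_11
    · exact adm_h_5_12
    · exact adm_h_5_13
    · exact adm_h_5_14
  · intro p h1 h2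
    interval_cases p
    · exact adm_h_6_4
    · exact adm_h_6_5
    · exact adm_h_6_6
    · exact adm_h_6_7

/-- The table of admissible exponents for the Blaschke metric: the weight `D^{(p+1)/(n+2)}`. -/
theorem table_blaschke :
    (∀ p : ℕ, 3 ≤ p → p ≤ 16 → AdmN 4 p (((p : ℕ) + 1) / 6)) ∧
      (∀ p : ℕ, 3 ≤ p → p ≤ 6 → AdmN 5 p (((p : ℕ) + 1) / 7)) := by
  refine ⟨?_, ?_⟩
  · intro p h1 h2
    interval_cases p
    · exact adm_b_4_3
    · exact adm_b_4_4
    · exact adm_b_4_5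
    · exact adm_b_4_6
    · exact adm_b_4_7
    · exact adm_b_4_8
    · exact adm_b_4_9
    · exact adm_b_4_10
    · exact adm_b_4_11
    · exact adm_b_4_12
    · exact adm_b_4_13
    · exact adm_b_4_14
    · exact adm_b_4_15
    · exact adm_b_4_16
  · intro p h1 h2
    interval_cases p
    · exact adm_b_5_3
    · exact adm_b_5_4
    · exact adm_b_5_5
    · exact adm_b_5_6

/-- The table of admissible exponents for the weight `D`. -/
theorem table_det :
    (∀ p, 3 ≤ p → p ≤ 20 → AdmN 3 p 1) ∧ (∀ p, 4 ≤ p → p ≤ 49 → AdmN 4 p 1) ∧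
      (∀ p, 6 ≤ p → p ≤ 9 → AdmN 5 p 1) := by
  refine ⟨?_, ?_, ?_⟩
  · intro p h1 h2
    interval_cases p
    · exact adm_o_3_3
    · exact adm_o_3_4
    · exact adm_o_3_5
    · exact adm_o_3_6
    · exact adm_o_3_7
    · exact adm_o_3_8
    · exact adm_o_3_9
    · exact adm_o_3_10
    · exact adm_o_3_11
    · exact adm_o_3_12
    · exact adm_o_3_13
    · exact adm_o_3_14
    · exact adm_o_3_15
    · exact adm_o_3_16
    · exact adm_o_3_17
    · exact adm_o_3_18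
    · exact adm_o_3_19
    · exact adm_o_3_20
  · intro p h1 h2
    interval_cases p
    · exact adm_o_4_4
    · exact adm_o_4_5
    · exact adm_o_4_6
    · exact adm_o_4_7
    · exact adm_o_4_8
    · exact adm_o_4_9
    · exact adm_o_4_10
    · exact adm_o_4_11
    · exact adm_o_4_12
    · exact adm_o_4_13
    · exact adm_o_4_14
    · exact adm_o_4_15
    · exact adm_o_4_16
    · exact adm_o_4_17
    · exact adm_o_4_18
    · exact adm_o_4_19
    · exact adm_o_4_20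
    · exact adm_o_4_21
    · exact adm_o_4_22
    · exact adm_o_4_23
    · exact adm_o_4_24
    · exact adm_o_4_25
    · exact adm_o_4_26
    · exact adm_o_4_27
    · exact adm_o_4_28
    · exact adm_o_4_29
    · exact adm_o_4_30
    · exact adm_o_4_31
    · exact adm_o_4_32
    · exact adm_o_4_33
    · exact adm_o_4_34
    · exact adm_o_4_35
    · exact adm_o_4_36
    · exact adm_o_4_37
    · exact adm_o_4_38
    · exact adm_o_4_39
    · exact adm_o_4_40
    · exact adm_o_4_41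
    · exact adm_o_4_42
    · exact adm_o_4_43
    · exact adm_o_4_44
    · exact adm_o_4_45
    · exact adm_o_4_46
    · exact adm_o_4_47
    · exact adm_o_4_48
    · exact adm_o_4_49
  · intro p h1 h2
    interval_cases p
    · exact adm_o_5_6
    · exact adm_o_5_7
    · exact adm_o_5_8
    · exact adm_o_5_9

/-- The table of admissible low exponents in dimensions above nine. -/
theorem table_high :
    (∀ n, 10 ≤ n → n ≤ 24 → AdmN n 3 0) ∧ (∀ n, 10 ≤ n → n ≤ 12 → AdmN n 4 0) := by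
  refine ⟨?_, ?_⟩
  · intro n h1 h2
    interval_cases n
    · exact adm_z_10_3
    · exact adm_z_11_3
    · exact adm_z_12_3
    · exact adm_z_13_3
    · exact adm_z_14_3
    · exact adm_z_15_3
    · exact adm_z_16_3
    · exact adm_z_17_3
    · exact adm_z_18_3
    · exact adm_z_19_3
    · exact adm_z_20_3
    · exact adm_z_21_3
    · exact adm_z_22_3
    · exact adm_z_23_3
    · exact adm_z_24_3
  · intro n h1 h2
    interval_cases n
    · exact adm_z_10_4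
    · exact adm_z_11_4
    · exact adm_z_12_4

end CaccioN

end Vale.Agent.Lib.P252
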