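import Vale.Agent.Lib.P252.GenN.Main

/-!
Liouville theorems from the Caccioppoli inequality: for an exhaustion function with controlled energy.
-/

open scoped ContDiff Matrix Topology
open MeasureTheory Set Filter

namespace Vale.Agent.Lib.P252

namespace CaccioN

variable {n : ℕ} {Ω : Set (Fin n → ℝ)} {u : (Fin n → ℝ) → ℝ} {ρ : (Fin n → ℝ) → ℝ}

/-- A bound for the derivative of the step function. -/
lemma exists_stepψ_bound : ∃ K : ℝ, 0 < K ∧ ∀ t, |stepψ t| ≤ K := by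
  obtain ⟨C, hC⟩ := (isCompact_Icc (a := (0 : ℝ)) (b := 1)).exists_bound_of_continuousOn
    stepψ_contDiff.continuous.continuousOn
  refine ⟨max C 1, lt_of_lt_of_le one_pos (le_max_right _ _), fun t => ?_⟩
  by_cases h0 : t ≤ 0
  · rw [stepψ_zero_left h0, abs_zero]
    exact le_trans zero_le_one (le_max_right _ _)
  by_cases h1 : 1 ≤ t
  · rw [stepψ_zero_right h1, abs_zero]
    exact le_trans zero_le_one (le_max_right _ _)
  have := hC t ⟨(not_le.1 h0).le, (not_le.1 h1).le⟩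
  rw [Real.norm_eq_abs] at this
  exact this.trans (le_max_left _ _)

/-- The one variable cut-off at scale `S`. -/
noncomputable def gS (S s : ℝ) : ℝ := stepΨ (2 - 2 * s / S)

lemma gS_contDiff (S : ℝ) : ContDiff ℝ ∞ (gS S) := by
  unfold gS
  exact stepΨ_contDiff.comp (contDiff_const.sub ((contDiff_const.mul contDiff_id).div_const S))

lemma gS_hasDerivAt (S s : ℝ) : HasDerivAt (gS S) (stepψ (2 - 2 * s / S) * (-(2 / S))) s := by
  have h1 : HasDerivAt (fun s : ℝ => 2 - 2 * s / S) (-(2 / S)) s := by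
    have := (((hasDerivAt_id' s).const_mul (2 : ℝ)).div_const S).const_sub (2 : ℝ)
    simpa using this
  exact (stepΨ_hasDerivAt (2 - 2 * s / S)).comp s h1

lemma gS_zero {S s : ℝ} (hS : 0 < S) (hs : S ≤ s) : gS S s = 0 := by
  unfold gS
  apply stepΨ_zero
  have : 1 ≤ s / S := by rw [le_div_iff₀ hS]; linarith
  have e : 2 * s / S = 2 * (s / S) := by ring
  rw [e]
  linarith

lemma gS_one {S s : ℝ} (hS : 0 < S) (hs : 2 * s ≤ S) : gS S s = 1 := by
  unfold gS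
  apply stepΨ_one
  have : 2 * s / S ≤ 1 := by rw [div_le_one hS]; linarith
  linarith

lemma gS_deriv_zero {S s : ℝ} (hS : 0 < S) (hs : S ≤ s) : stepψ (2 - 2 * s / S) = 0 := by
  apply stepψ_zero_left
  have : 1 ≤ s / S := by rw [le_div_iff₀ hS]; linarith
  have e : 2 * s / S = 2 * (s / S) := by ring
  rw [e]
  linarith

/-- The scaling of the pairing. -/
lemma pa_scale {a b : Fin n → (Fin n → ℝ) → ℝ} {x : Fin n → ℝ} {c : ℝ}
    (h : ∀ j, a j x = c * b j x) : pa u a a x = c ^ 2 * pa u b b x := by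
  unfold pa ra
  rw [Finset.mul_sum]
  refine Finset.sum_congr rfl fun i _ => ?_
  rw [h i]
  have : ∀ j, Ui u x i j * a j x = c * (Ui u x i j * b j x) := fun j => by rw [h j]; ring
  simp only [this, ← Finset.mul_sum]
  ring

section Energy

variable (hs : IsAffineMaximal Ω u) (hΩ : IsOpen Ω)
include hs hΩ

/-- The energy of the cut-off at scale `S`. -/
lemma energy_le (hρ : ContDiffOn ℝ ∞ ρ Ω) (hcpt : ∀ s, IsCompact (subLevelC Ω ρ s)) {K : ℝ}
    (hK0 : 0 < K) (hK : ∀ t, |stepψ t| ≤ K) {S : ℝ} (hS : 0 < S) (β : ℝ) (k : ℕ) :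
    IsC1Test Ω (testOf Ω ρ (gS S)) ∧
    ∫ x in Ω, (hess u x).det ^ β * pa u (dF (testOf Ω ρ (gS S))) (dF (testOf Ω ρ (gS S))) x ^ (k + 3) ≤
      (2 * K / S) ^ (2 * k + 6) *
        ∫ x in subLevel Ω ρ S, (hess u x).det ^ β * pa u (dF ρ) (dF ρ) x ^ (k + 3) := by
  have hT : IsTest Ω (testOf Ω ρ (gS S)) :=
    isTest_testOf hΩ hρ (hcpt S) (gS_contDiff S) (fun s hs' => gS_zero hS hs')
  have hψ : IsC1Test Ω (testOf Ω ρ (gS S)) := ⟨hT.smooth.of_le (by simp), hT.cpt, hT.sub⟩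
  refine ⟨hψ, ?_⟩
  set ψ := testOf Ω ρ (gS S) with hψd
  have hopen := IsAffineMaximal.isOpen_subLevel hΩ hρ S
  have hρ0 : ∀ x ∈ Ω, 0 < (hess u x).det ^ β := fun x hx =>
    Real.rpow_pos_of_pos (hs.det_pos hx) _
  -- the gradient of the test function
  have hgr : ∀ x ∈ Ω, ∀ j, dF ψ j x =
      (stepψ (2 - 2 * ρ x / S) * (-(2 / S))) * dF ρ j x := by
    intro x hx j
    have h := gr_testOf hΩ hρ hx (gS_hasDerivAt S (ρ x))
    have := congrFun h j
    simpa [gr, dF, smul_eq_mul] using this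
  have hE : ∀ x ∈ Ω, pa u (dF ψ) (dF ψ) x =
      (stepψ (2 - 2 * ρ x / S) * (-(2 / S))) ^ 2 * pa u (dF ρ) (dF ρ) x := fun x hx =>
    pa_scale (hgr x hx)
  have hΓ0 : ∀ x ∈ Ω, 0 ≤ pa u (dF ρ) (dF ρ) x := fun x hx => hs.pa_self_nonneg _ hx
  -- vanishing outside the sublevel
  have hzero : ∀ x ∈ Ω \ subLevel Ω ρ S,
      (hess u x).det ^ β * pa u (dF ψ) (dF ψ) x ^ (k + 3) = 0 := by
    intro x hx
    have hlt : S ≤ ρ x := by
      by_contra h
      exact hx.2 ⟨hx.1, not_le.1 h⟩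
    rw [hE x hx.1, gS_deriv_zero hS hlt]
    simp
  have hsub : subLevel Ω ρ S ⊆ Ω := fun x hx => hx.1
  rw [setIntegral_eq_of_subset_of_forall_sdiff_eq_zero hΩ.measurableSet hsub hzero]
  -- integrability
  have hint1 : IntegrableOn (fun x => (hess u x).det ^ β * pa u (dF ψ) (dF ψ) x ^ (k + 3))
      (subLevel Ω ρ S) := by
    have hcont : ContinuousOn (fun z => (hess u z).det ^ β * pa u (dF ψ) (dF ψ) z ^ (k + 3)) Ω :=
      (hs.contDiffOn_detpow hΩ β).continuousOn.mul ((continuousOn_paE hs hΩ hψ).pow (k + 3))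
    exact IsAffineMaximal.integrableOn_subLevel hcont (hcpt S)
  have hdρ : ∀ j, ContDiffOn ℝ ∞ (dF ρ j) Ω := fun j => contDiffOn_pd hΩ hρ j
  have hint2 : IntegrableOn (fun x => (hess u x).det ^ β * pa u (dF ρ) (dF ρ) x ^ (k + 3))
      (subLevel Ω ρ S) := by
    have hcont : ContinuousOn (fun z => (hess u z).det ^ β * pa u (dF ρ) (dF ρ) z ^ (k + 3)) Ω :=
      (hs.contDiffOn_detpow hΩ β).continuousOn.mul
        ((hs.contDiffOn_pa hΩ hdρ hdρ).continuousOn.pow (k + 3))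
    exact IsAffineMaximal.integrableOn_subLevel hcont (hcpt S)
  rw [← integral_const_mul]
  refine setIntegral_mono_on hint1 (hint2.const_mul _) hopen.measurableSet fun x hx => ?_
  have hxΩ := hx.1
  rw [hE x hxΩ]
  have hc : (stepψ (2 - 2 * ρ x / S) * (-(2 / S))) ^ 2 ≤ (2 * K / S) ^ 2 := by
    have h1 : |stepψ (2 - 2 * ρ x / S) * (-(2 / S))| ≤ 2 * K / S := by
      rw [abs_mul, abs_neg, abs_of_pos (by positivity : 0 < 2 / S)]
      have := hK (2 - 2 * ρ x / S)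
      calc |stepψ (2 - 2 * ρ x / S)| * (2 / S) ≤ K * (2 / S) :=
            mul_le_mul_of_nonneg_right this (by positivity)
        _ = 2 * K / S := by ring
    exact sq_le_sq' (by linarith [(abs_le.1 h1).1]) (abs_le.1 h1).2
  have hp : ((stepψ (2 - 2 * ρ x / S) * (-(2 / S))) ^ 2 * pa u (dF ρ) (dF ρ) x) ^ (k + 3) ≤
      ((2 * K / S) ^ 2 * pa u (dF ρ) (dF ρ) x) ^ (k + 3) :=
    pow_le_pow_left₀ (mul_nonneg (sq_nonneg _) (hΓ0 x hxΩ))
      (mul_le_mul_of_nonneg_right hc (hΓ0 x hxΩ)) _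
  have e : ((2 * K / S) ^ 2 * pa u (dF ρ) (dF ρ) x) ^ (k + 3) =
      (2 * K / S) ^ (2 * k + 6) * pa u (dF ρ) (dF ρ) x ^ (k + 3) := by
    rw [mul_pow, ← pow_mul]
    congr 2
  rw [e] at hp
  calc (hess u x).det ^ β * _ ≤ (hess u x).det ^ β * ((2 * K / S) ^ (2 * k + 6) *
        pa u (dF ρ) (dF ρ) x ^ (k + 3)) := mul_le_mul_of_nonneg_left hp (hρ0 x hxΩ).le
    _ = _ := by ring

/-- The Liouville theorem for an exhaustion function with controlled energy. -/
theorem det_const_of_energy_growth {k : ℕ} {β y X ζ1 ζ2 ξ1 ξ3 : ℝ} (hc : Cert n k β y X ζ1 ζ2 ξ1 ξ3)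
    (hconn : IsPreconnected Ω) (hρ : ContDiffOn ℝ ∞ ρ Ω) (hcpt : ∀ s, IsCompact (subLevelC Ω ρ s))
    (hG : ∀ ε : ℝ, 0 < ε → ∀ S₁ : ℝ, ∃ S : ℝ, S₁ ≤ S ∧
      ∫ x in subLevel Ω ρ S, (hess u x).det ^ β * pa u (dF ρ) (dF ρ) x ^ (k + 3) ≤
        ε * S ^ (2 * k + 6))
    {x z : Fin n → ℝ} (hx : x ∈ Ω) (hz : z ∈ Ω) : (hess u x).det = (hess u z).det := by
  obtain ⟨K, hK0, hK⟩ := exists_stepψ_bound
  refine det_const_of_capacity hs hΩ hc hconn (fun A hA hAΩ ε hε => ?_) hx hz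
  obtain ⟨b, hb⟩ := hA.bddAbove_image (hρ.continuousOn.mono hAΩ)
  have hb' : ∀ w ∈ A, ρ w ≤ b := fun w hw => hb (mem_image_of_mem ρ hw)
  obtain ⟨S, hS1, hS2⟩ := hG (ε / (2 * K) ^ (2 * k + 6)) (by positivity) (max 1 (2 * b))
  have hS0 : 0 < S := lt_of_lt_of_le one_pos ((le_max_left _ _).trans hS1)
  have hSb : 2 * b ≤ S := (le_max_right _ _).trans hS1
  obtain ⟨h1, h2⟩ := energy_le hs hΩ hρ hcpt hK0 hK hS0 β k
  refine ⟨_, h1, fun w hw => ?_, h2.trans ?_⟩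
  · rw [testOf_eq_of_mem (hAΩ hw)]
    exact gS_one hS0 (by linarith [hb' w hw])
  · have h3 := mul_le_mul_of_nonneg_left hS2 (by positivity : 0 ≤ (2 * K / S) ^ (2 * k + 6))
    refine h3.trans (le_of_eq ?_)
    rw [div_pow]
    field_simp

/-- The Liouville theorem for an exhaustion function which is `1`-Lipschitz for the conformal metric
`D^{-τ} D²u`. -/
theorem det_const_of_metric_growth {k : ℕ} {β y X ζ1 ζ2 ξ1 ξ3 τ : ℝ} (hc : Cert n k β y X ζ1 ζ2 ξ1 ξ3)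
    (hconn : IsPreconnected Ω) (hρ : ContDiffOn ℝ ∞ ρ Ω) (hcpt : ∀ s, IsCompact (subLevelC Ω ρ s))
    (hgrad : ∀ x ∈ Ω, (hess u x).det ^ τ * pa u (dF ρ) (dF ρ) x ≤ 1)
    (hG : ∀ ε : ℝ, 0 < ε → ∀ S₁ : ℝ, ∃ S : ℝ, S₁ ≤ S ∧
      ∫ x in subLevel Ω ρ S, (hess u x).det ^ (β - ((k : ℝ) + 3) * τ) ≤ ε * S ^ (2 * k + 6))
    {x z : Fin n → ℝ} (hx : x ∈ Ω) (hz : z ∈ Ω) : (hess u x).det = (hess u z).det := by
  refine det_const_of_energy_growth hs hΩ hc hconn hρ hcpt (fun ε hε S₁ => ?_) hx hz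
  obtain ⟨S, h1, h2⟩ := hG ε hε S₁
  refine ⟨S, h1, le_trans ?_ h2⟩
  have hopen := IsAffineMaximal.isOpen_subLevel hΩ hρ S
  have hdρ : ∀ j, ContDiffOn ℝ ∞ (dF ρ j) Ω := fun j => contDiffOn_pd hΩ hρ j
  refine setIntegral_mono_on ?_ ?_ hopen.measurableSet fun w hw => ?_
  · have hcont : ContinuousOn (fun z => (hess u z).det ^ β * pa u (dF ρ) (dF ρ) z ^ (k + 3)) Ω :=
      (hs.contDiffOn_detpow hΩ β).continuousOn.mul
        ((hs.contDiffOn_pa hΩ hdρ hdρ).continuousOn.pow (k + 3))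
    exact IsAffineMaximal.integrableOn_subLevel hcont (hcpt S)
  · exact IsAffineMaximal.integrableOn_subLevel (hs.contDiffOn_detpow hΩ _).continuousOn (hcpt S)
  · have hwΩ := hw.1
    have hD := hs.det_pos hwΩ
    have hΓ0 : 0 ≤ pa u (dF ρ) (dF ρ) w := hs.pa_self_nonneg _ hwΩ
    have hτ : 0 < (hess u w).det ^ τ := Real.rpow_pos_of_pos hD _
    have h3 : pa u (dF ρ) (dF ρ) w ≤ (hess u w).det ^ (-τ) := by
      rw [Real.rpow_neg hD.le, ← one_div, le_div_iff₀ hτ, mul_comm]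
      exact hgrad w hwΩ
    have h4 := pow_le_pow_left₀ hΓ0 h3 (k + 3)
    have e : (hess u w).det ^ (β - ((k : ℝ) + 3) * τ) =
        (hess u w).det ^ β * ((hess u w).det ^ (-τ)) ^ (k + 3) := by
      rw [← Real.rpow_natCast, ← Real.rpow_mul hD.le, ← Real.rpow_add hD]
      congr 1
      push_cast
      ring
    rw [e]
    exact mul_le_mul_of_nonneg_left h4 (Real.rpow_pos_of_pos hD _).le

end Energy

/-- The numerics of the growth condition. -/
lemma key_num {K₁ ε a : ℝ} (hK₁ : 0 < K₁) (hε : 0 < ε) (ha : 0 ≤ a) (p n : ℕ)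
    (hp : (n : ℝ) < (p : ℝ) * (2 - a)) (S₁ : ℝ) :
    ∃ R : ℝ, 1 ≤ R ∧ S₁ ≤ R ^ 2 ∧
      (K₁ * (2 * R) ^ a * R ^ 2) ^ p * (2 * R) ^ n ≤ ε * (R ^ 2) ^ (2 * p) := by
  set δ : ℝ := (p : ℝ) * (2 - a) - n with hδ
  have hδ0 : 0 < δ := by rw [hδ]; linarith
  set K₀ : ℝ := (K₁ * 2 ^ a) ^ p * 2 ^ n with hK₀
  have hK₀0 : 0 ≤ K₀ := by positivity
  have t : Filter.Tendsto (fun R : ℝ => R ^ δ) Filter.atTop Filter.atTop := tendsto_rpow_atTop hδ0
  obtain ⟨R, h1, h2, h3⟩ := ((t.eventually_ge_atTop (K₀ / ε)).and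
    ((Filter.eventually_ge_atTop S₁).and (Filter.eventually_ge_atTop (1 : ℝ)))).exists
  have hR0 : 0 < R := by linarith
  refine ⟨R, h3, by nlinarith, ?_⟩
  rw [div_le_iff₀ hε] at h1
  have e1 : (2 * R) ^ a = 2 ^ a * R ^ a := Real.mul_rpow (by norm_num) hR0.le
  have e2 : (R ^ a) ^ p * R ^ n * R ^ δ = (R ^ 2) ^ p := by
    rw [← Real.rpow_natCast (R ^ a) p, ← Real.rpow_mul hR0.le, ← Real.rpow_natCast R n,
      ← Real.rpow_add hR0, ← Real.rpow_add hR0, ← Real.rpow_natCast R 2,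
      ← Real.rpow_natCast (R ^ ((2 : ℕ) : ℝ)) p, ← Real.rpow_mul hR0.le]
    congr 1
    rw [hδ]
    push_cast
    ring
  rw [e1]
  calc (K₁ * (2 ^ a * R ^ a) * R ^ 2) ^ p * (2 * R) ^ n
      = K₀ * ((R ^ a) ^ p * R ^ n * (R ^ 2) ^ p) := by
        rw [hK₀]
        simp only [mul_pow]
        ring
    _ ≤ (R ^ δ * ε) * ((R ^ a) ^ p * R ^ n * (R ^ 2) ^ p) :=
        mul_le_mul_of_nonneg_right h1 (by positivity)
    _ = ε * (((R ^ a) ^ p * R ^ n * R ^ δ) * (R ^ 2) ^ p) := by ring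
    _ = ε * (R ^ 2) ^ (2 * p) := by
        rw [e2, two_mul, pow_add]

lemma Qv_single (U : Matrix (Fin n) (Fin n) ℝ) (a b : Fin n) :
    Qv U (Pi.single a 1) (Pi.single b 1) = U a b := by
  simp [Qv, Pi.single_apply]

lemma offdiag_le {U : Matrix (Fin n) (Fin n) ℝ} (hU : U.PosDef) (i j : Fin n) :
    2 * |U i j| ≤ U i i + U j j := by
  have hsym : U j i = U i j := by
    have := hU.isHermitian.apply i j
    simpa using this
  have h1 := Qv_nonneg hU (Pi.single i 1 + Pi.single j 1)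
  have h2 := Qv_nonneg hU (Pi.single i 1 + (-1 : ℝ) • Pi.single j 1)
  simp only [Qv_add_left, Qv_add_right, Qv_smul_left, Qv_smul_right, Qv_single, hsym] at h1 h2
  have h3 : |U i j| ≤ (U i i + U j j) / 2 := by
    rw [abs_le]
    constructor <;> linarith
  linarith

lemma trace_nonneg_of_posDef {U : Matrix (Fin n) (Fin n) ℝ} (hU : U.PosDef) : 0 ≤ U.trace := by
  refine Finset.sum_nonneg fun i _ => ?_
  have := Qv_nonneg hU (Pi.single i 1)
  rwa [Qv_single] at this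

/-- A positive definite form is bounded by its trace. -/
lemma quad_le_trace {U : Matrix (Fin n) (Fin n) ℝ} (hU : U.PosDef) (w : Fin n → ℝ) :
    Qv U w w ≤ ((n : ℝ) + 1) * U.trace * ‖w‖ ^ 2 := by
  have hw : ∀ i, |w i| ≤ ‖w‖ := fun i => by
    have := norm_le_pi_norm w i
    rwa [Real.norm_eq_abs] at this
  have hterm : ∀ i j, U i j * w i * w j ≤ ((U i i + U j j) / 2) * ‖w‖ ^ 2 := by
    intro i j
    have h1 : U i j * w i * w j ≤ |U i j| * |w i| * |w j| := by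
      rw [← abs_mul, ← abs_mul]
      exact le_abs_self _
    have h2 : |w i| * |w j| ≤ ‖w‖ ^ 2 := by
      rw [sq]
      exact mul_le_mul (hw i) (hw j) (abs_nonneg _) (norm_nonneg _)
    have h3 : |U i j| ≤ (U i i + U j j) / 2 := by
      have := offdiag_le hU i j
      linarith
    calc U i j * w i * w j ≤ |U i j| * |w i| * |w j| := h1
      _ = |U i j| * (|w i| * |w j|) := by ring
      _ ≤ |U i j| * ‖w‖ ^ 2 := mul_le_mul_of_nonneg_left h2 (abs_nonneg _)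
      _ ≤ _ := mul_le_mul_of_nonneg_right h3 (by positivity)
  have hsum : Qv U w w ≤ ∑ i, ∑ j, ((U i i + U j j) / 2) * ‖w‖ ^ 2 :=
    Finset.sum_le_sum fun i _ => Finset.sum_le_sum fun j _ => hterm i j
  have htr := trace_nonneg_of_posDef hU
  have hW : 0 ≤ U.trace * ‖w‖ ^ 2 := by positivity
  have e1 : ∀ i, ∑ j, ((U i i + U j j) / 2) * ‖w‖ ^ 2 =
      (n : ℝ) / 2 * ‖w‖ ^ 2 * U i i + U.trace / 2 * ‖w‖ ^ 2 := by
    intro i
    have e : ∀ j, ((U i i + U j j) / 2) * ‖w‖ ^ 2 = (U i i / 2 * ‖w‖ ^ 2) + (‖w‖ ^ 2 / 2) * U j j := by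
      intro j
      ring
    simp only [e, Finset.sum_add_distrib, Finset.sum_const, Finset.card_univ, Fintype.card_fin,
      nsmul_eq_mul, ← Finset.mul_sum]
    have : ∑ j, U j j = U.trace := rfl
    rw [this]
    ring
  have e2 : ∑ i, ∑ j, ((U i i + U j j) / 2) * ‖w‖ ^ 2 = (n : ℝ) * (U.trace * ‖w‖ ^ 2) := by
    simp only [e1, Finset.sum_add_distrib, Finset.sum_const, Finset.card_univ, Fintype.card_fin,
      nsmul_eq_mul, ← Finset.mul_sum]
    have : ∑ j, U j j = U.trace := rfl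
    rw [this]
    ring
  rw [e2] at hsum
  nlinarith

/-- The squared distance to `x₀`. -/
noncomputable def rhoE (x₀ : Fin n → ℝ) (x : Fin n → ℝ) : ℝ := ∑ j, (x j - x₀ j) ^ 2

lemma rhoE_contDiff (x₀ : Fin n → ℝ) : ContDiff ℝ ∞ (rhoE x₀) := by
  unfold rhoE
  exact ContDiff.sum fun j _ => ((contDiff_apply ℝ ℝ j).sub contDiff_const).pow 2

lemma pd_coord (x₀ x : Fin n → ℝ) (i j : Fin n) :
    pd i (fun z : Fin n → ℝ => z j - x₀ j) x = if i = j then 1 else 0 := by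
  unfold pd
  have h : HasFDerivAt (fun z : Fin n → ℝ => z j - x₀ j)
      (ContinuousLinearMap.proj (R := ℝ) (φ := fun _ : Fin n => ℝ) j) x :=
    (ContinuousLinearMap.proj (R := ℝ) (φ := fun _ : Fin n => ℝ) j).hasFDerivAt.sub_const (x₀ j)
  rw [h.fderiv]
  by_cases hij : i = j
  · subst hij; simp
  · have hji : j ≠ i := fun h => hij h.symm
    simp [Pi.single_apply, hij, hji]

lemma pd_rhoE (x₀ x : Fin n → ℝ) (i : Fin n) : pd i (rhoE x₀) x = 2 * (x i - x₀ i) := by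
  have hd : ∀ j, DifferentiableAt ℝ (fun z : Fin n → ℝ => z j - x₀ j) x := fun j =>
    (differentiableAt_apply j x).sub_const _
  have h1 : ∀ j, pd i (fun z : Fin n → ℝ => (z j - x₀ j) ^ 2) x =
      2 * (x j - x₀ j) * (if i = j then 1 else 0) := by
    intro j
    have hder : HasDerivAt (fun t : ℝ => t ^ 2) (((2 : ℕ) : ℝ) * (x j - x₀ j) ^ (2 - 1))
        (x j - x₀ j) := hasDerivAt_pow 2 _
    have h := pd_comp (g := fun t : ℝ => t ^ 2) hder (hd j) i
    rw [pd_coord] at h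
    simpa using h
  have h2 : pd i (rhoE x₀) x = ∑ j, pd i (fun z : Fin n → ℝ => (z j - x₀ j) ^ 2) x := by
    unfold rhoE
    exact pd_sum Finset.univ (fun j _ => (hd j).pow 2) i
  rw [h2]
  simp only [h1]
  simp

lemma norm_le_of_rhoE {x₀ x : Fin n → ℝ} {R : ℝ} (hR : 0 ≤ R) (h : rhoE x₀ x ≤ R ^ 2) :
    ‖x - x₀‖ ≤ R := by
  rw [pi_norm_le_iff_of_nonneg hR]
  intro j
  have h1 : (x j - x₀ j) ^ 2 ≤ rhoE x₀ x :=
    Finset.single_le_sum (f := fun j => (x j - x₀ j) ^ 2) (fun j _ => sq_nonneg _) (Finset.mem_univ j)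
  rw [Real.norm_eq_abs]
  exact abs_le_of_sq_le_sq (h1.trans h) hR

lemma isCompact_rhoE (x₀ : Fin n → ℝ) (s : ℝ) : IsCompact (subLevelC Set.univ (rhoE x₀) s) := by
  have hcont : Continuous (rhoE x₀) := (rhoE_contDiff x₀).continuous
  have hcl : IsClosed (subLevelC Set.univ (rhoE x₀) s) := by
    have : subLevelC Set.univ (rhoE x₀) s = {x | rhoE x₀ x ≤ s} := by
      ext x
      simp [subLevelC]
    rw [this]
    exact isClosed_le hcont continuous_const
  refine Metric.isCompact_of_isClosed_isBounded hcl ?_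
  refine (Metric.isBounded_closedBall (x := x₀) (r := Real.sqrt (max s 0))).subset fun x hx => ?_
  rw [Metric.mem_closedBall, dist_eq_norm]
  refine norm_le_of_rhoE (Real.sqrt_nonneg _) ?_
  rw [Real.sq_sqrt (le_max_right _ _)]
  exact hx.2.trans (le_max_left _ _)

/-- The Liouville theorem for entire solutions under a bound for the trace of the inverse Hessian. -/
theorem det_const_of_hess_lower {x₀ : Fin n → ℝ} {k : ℕ} {y X ζ1 ζ2 ξ1 ξ3 : ℝ}
    (hc : Cert n k 0 y X ζ1 ζ2 ξ1 ξ3) (hs : IsAffineMaximal Set.univ u) {C a : ℝ} (ha'0 : 0 ≤ a)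
    (hpk : (n : ℝ) < ((k + 3 : ℕ) : ℝ) * (2 - a))
    (hT : ∀ x, Matrix.trace (hess u x)⁻¹ ≤ C * (1 + ‖x - x₀‖) ^ a) (x z : Fin n → ℝ) :
    (hess u x).det = (hess u z).det := by
  set C' : ℝ := 4 * ((n : ℝ) + 1) * max C 1 with hC'
  have hC1 : 0 < max C 1 := lt_of_lt_of_le one_pos (le_max_right _ _)
  have hC'0 : 0 < C' := by positivity
  refine det_const_of_energy_growth hs isOpen_univ hc isPreconnected_univ
    (rhoE_contDiff x₀).contDiffOn (isCompact_rhoE x₀) (fun ε hε S₁ => ?_) (Set.mem_univ x)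
    (Set.mem_univ z)
  obtain ⟨R, hR1, hR2, hR3⟩ := key_num hC'0 hε ha'0 (k + 3) n hpk S₁
  have hR0 : 0 < R := by linarith
  refine ⟨R ^ 2, hR2, le_trans ?_ (le_of_le_of_eq hR3 ?_)⟩
  · set L : ℝ := (C' * (2 * R) ^ a * R ^ 2) ^ (k + 3) with hL
    have hL0 : 0 ≤ L := by positivity
    have hf := (rhoE_contDiff x₀).contDiffOn (s := Set.univ)
    have hopen := IsAffineMaximal.isOpen_subLevel (isOpen_univ (X := Fin n → ℝ)) hf (R ^ 2)
    have hsub : subLevel Set.univ (rhoE x₀) (R ^ 2) ⊆ Metric.closedBall x₀ R := by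
      intro w hw
      rw [Metric.mem_closedBall, dist_eq_norm]
      exact norm_le_of_rhoE hR0.le hw.2.le
    have hfin : volume (subLevel Set.univ (rhoE x₀) (R ^ 2)) < ⊤ :=
      (measure_mono hsub).trans_lt (isCompact_closedBall x₀ R).measure_lt_top
    have hdX : ∀ j, ContDiffOn ℝ ∞ (dF (rhoE x₀) j) Set.univ := fun j =>
      contDiffOn_pd isOpen_univ hf j
    have hint : IntegrableOn (fun x => (hess u x).det ^ (0 : ℝ) *
        pa u (dF (rhoE x₀)) (dF (rhoE x₀)) x ^ (k + 3)) (subLevel Set.univ (rhoE x₀) (R ^ 2)) := by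
      have hcont : ContinuousOn (fun z => (hess u z).det ^ (0 : ℝ) *
          pa u (dF (rhoE x₀)) (dF (rhoE x₀)) z ^ (k + 3)) Set.univ :=
        (hs.contDiffOn_detpow isOpen_univ _).continuousOn.mul
          ((hs.contDiffOn_pa isOpen_univ hdX hdX).continuousOn.pow (k + 3))
      exact IsAffineMaximal.integrableOn_subLevel hcont (isCompact_rhoE x₀ _)
    have hle : ∫ x in subLevel Set.univ (rhoE x₀) (R ^ 2), (hess u x).det ^ (0 : ℝ) *
        pa u (dF (rhoE x₀)) (dF (rhoE x₀)) x ^ (k + 3) ≤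
        ∫ _ in subLevel Set.univ (rhoE x₀) (R ^ 2), L := by
      refine setIntegral_mono_on hint (integrableOn_const hfin.ne) hopen.measurableSet
        fun w hw => ?_
      rw [Real.rpow_zero, one_mul]
      have hw0 : ‖w - x₀‖ ≤ R := by
        have := hsub hw
        rwa [Metric.mem_closedBall, dist_eq_norm] at this
      have h0 : 0 ≤ pa u (dF (rhoE x₀)) (dF (rhoE x₀)) w := hs.pa_self_nonneg _ (Set.mem_univ w)
      refine pow_le_pow_left₀ h0 ?_ _
      -- the energy of the exhaustion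
      have e1 : pa u (dF (rhoE x₀)) (dF (rhoE x₀)) w =
          2 ^ 2 * pa u (fun j _ => w j - x₀ j) (fun j _ => w j - x₀ j) w :=
        pa_scale (fun j => pd_rhoE x₀ w j)
      have e2 : pa u (fun j _ => w j - x₀ j) (fun j _ => w j - x₀ j) w =
          Qv (hess u w)⁻¹ (w - x₀) (w - x₀) := by
        unfold pa ra Qv Ui
        refine Finset.sum_congr rfl fun i _ => ?_
        rw [Finset.mul_sum]
        refine Finset.sum_congr rfl fun j _ => ?_
        simp only [Pi.sub_apply]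
        ring
      have h1 := quad_le_trace (hs.posDef w (Set.mem_univ w)).inv (w - x₀)
      have h2 : Matrix.trace (hess u w)⁻¹ ≤ max C 1 * (2 * R) ^ a := by
        have h4 : (1 + ‖w - x₀‖) ^ a ≤ (2 * R) ^ a :=
          Real.rpow_le_rpow (by positivity) (by linarith) ha'0
        have h5 : 0 ≤ (1 + ‖w - x₀‖) ^ a := by positivity
        calc Matrix.trace (hess u w)⁻¹ ≤ C * (1 + ‖w - x₀‖) ^ a := hT w
          _ ≤ max C 1 * (1 + ‖w - x₀‖) ^ a := mul_le_mul_of_nonneg_right (le_max_left _ _) h5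
          _ ≤ _ := mul_le_mul_of_nonneg_left h4 hC1.le
      have h6 : 0 ≤ Matrix.trace (hess u w)⁻¹ :=
        trace_nonneg_of_posDef (hs.posDef w (Set.mem_univ w)).inv
      have h9 : ‖w - x₀‖ ^ 2 ≤ R ^ 2 := pow_le_pow_left₀ (norm_nonneg _) hw0 2
      rw [e1, e2]
      calc 2 ^ 2 * Qv (hess u w)⁻¹ (w - x₀) (w - x₀)
          ≤ 2 ^ 2 * (((n : ℝ) + 1) * Matrix.trace (hess u w)⁻¹ * ‖w - x₀‖ ^ 2) :=
            mul_le_mul_of_nonneg_left h1 (by norm_num)
        _ ≤ 2 ^ 2 * (((n : ℝ) + 1) * (max C 1 * (2 * R) ^ a) * R ^ 2) := by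
            refine mul_le_mul_of_nonneg_left ?_ (by norm_num)
            exact mul_le_mul (mul_le_mul_of_nonneg_left h2 (by positivity)) h9 (by positivity)
              (by positivity)
        _ = C' * (2 * R) ^ a * R ^ 2 := by
            rw [hC']
            ring
    refine hle.trans ?_
    rw [setIntegral_const, smul_eq_mul, mul_comm]
    refine mul_le_mul_of_nonneg_left ?_ hL0
    have h1 : volume (subLevel Set.univ (rhoE x₀) (R ^ 2)) ≤ ENNReal.ofReal ((2 * R) ^ n) := by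
      refine (measure_mono hsub).trans (le_of_eq ?_)
      have := Real.volume_pi_closedBall (ι := Fin n) x₀ hR0.le
      simpa using this
    exact ENNReal.toReal_le_of_le_ofReal (by positivity) h1
  · congr 2

end CaccioN

end Vale.Agent.Lib.P252
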