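import Vale.Agent.Lib.P252.GenN.Growth
import Vale.Agent.Lib.P252.SubLevel

/-!
The Liouville theorem in general dimension on a convex domain with compact sublevels of `ū`.
-/

open scoped ContDiff Matrix Topology
open MeasureTheory Set Filter

namespace Vale.Agent.Lib.P252

namespace CaccioN

variable {n : ℕ} {Ω : Set (Fin n → ℝ)} {u : (Fin n → ℝ) → ℝ} {x₀ : Fin n → ℝ}

/-- The sublevels grow at most like `S³`. -/
lemma volume_subLevel_le (hs : IsAffineMaximal Ω u) (hΩ : IsOpen Ω) (hc : Convex ℝ Ω)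
    (hx₀ : x₀ ∈ Ω) {S : ℝ} (hS : 1 ≤ S) :
    volume (subLevel Ω (uBar u x₀) S) ≤
      ENNReal.ofReal (S ^ n) * volume (subLevel Ω (uBar u x₀) 1) := by
  have hS0 : 0 < S := by linarith
  have hsub : subLevel Ω (uBar u x₀) S ⊆
      (AffineMap.homothety x₀ S) '' subLevel Ω (uBar u x₀) 1 := by
    intro x hx
    set z := x₀ + (1 / S) • (x - x₀) with hz
    have hzΩ : z ∈ Ω := by
      have h01 : 1 / S ≤ 1 := by
        rw [div_le_one hS0]
        exact hS
      have h00 : 0 ≤ 1 / S := by positivity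
      have := hc.add_smul_sub_mem hx₀ hx.1 ⟨h00, h01⟩
      simpa [hz] using this
    have hzx : x₀ + S • (z - x₀) = x := by
      rw [hz, add_sub_cancel_left, smul_smul]
      have : S * (1 / S) = 1 := by field_simp
      rw [this, one_smul]
      abel
    refine ⟨z, ⟨hzΩ, ?_⟩, ?_⟩
    · have h2 := uBar_ray (x₀ := x₀) hΩ hc hs.smooth hs.posDef hx₀ hzΩ hS (by rw [hzx]; exact hx.1)
      rw [hzx] at h2
      have h3 := hx.2
      by_contra hcon
      have h4 : 1 ≤ uBar u x₀ z := not_lt.1 hcon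
      nlinarith
    · rw [AffineMap.homothety_apply]
      simp only [vsub_eq_sub, vadd_eq_add]
      rw [add_comm]
      exact hzx
  refine (measure_mono hsub).trans (le_of_eq ?_)
  rw [Measure.addHaar_image_homothety]
  congr 2
  simp only [Module.finrank_fin_fun]
  exact abs_of_pos (by positivity)

/-- The numerics of the growth conditions, second form. -/
lemma key_num2 {K₁ V ε a : ℝ} (hK₁ : 0 < K₁) (hV : 0 ≤ V) (hε : 0 < ε) (ha : 0 ≤ a) (p n : ℕ)
    (hp : (n : ℝ) < (p : ℝ) * (2 - a)) (S₁ : ℝ) :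
    ∃ S : ℝ, 1 ≤ S ∧ S₁ ≤ S ∧
      (K₁ * (2 * S) ^ a) ^ p * (S ^ n * V) ≤ ε * S ^ (2 * p) := by
  set δ : ℝ := (p : ℝ) * (2 - a) - n with hδ
  have hδ0 : 0 < δ := by rw [hδ]; linarith
  set K₀ : ℝ := (K₁ * 2 ^ a) ^ p * V with hK₀
  have hK₀0 : 0 ≤ K₀ := by positivity
  have t : Tendsto (fun R : ℝ => R ^ δ) atTop atTop := tendsto_rpow_atTop hδ0
  obtain ⟨S, h1, h2, h3⟩ := ((t.eventually_ge_atTop (K₀ / ε)).and
    ((eventually_ge_atTop S₁).and (eventually_ge_atTop (1 : ℝ)))).exists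
  have hS0 : 0 < S := by linarith
  refine ⟨S, h3, h2, ?_⟩
  rw [div_le_iff₀ hε] at h1
  have e1 : (2 * S) ^ a = 2 ^ a * S ^ a := Real.mul_rpow (by norm_num) hS0.le
  have e2 : (S ^ a) ^ p * S ^ n * S ^ δ = S ^ (2 * p) := by
    rw [← Real.rpow_natCast (S ^ a) p, ← Real.rpow_mul hS0.le, ← Real.rpow_natCast S n,
      ← Real.rpow_add hS0, ← Real.rpow_add hS0, ← Real.rpow_natCast S (2 * p)]
    congr 1
    rw [hδ]
    push_cast
    ring
  rw [e1]
  calc (K₁ * (2 ^ a * S ^ a)) ^ p * (S ^ n * V) = K₀ * ((S ^ a) ^ p * S ^ n) := by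
        rw [hK₀]
        simp only [mul_pow]
        ring
    _ ≤ (S ^ δ * ε) * ((S ^ a) ^ p * S ^ n) := mul_le_mul_of_nonneg_right h1 (by positivity)
    _ = ε * ((S ^ a) ^ p * S ^ n * S ^ δ) := by ring
    _ = ε * S ^ (2 * p) := by rw [e2]

/-- The Liouville theorem under a pointwise bound for the `g`-norm of the gradient of `ū`. -/
theorem det_const_of_G_bound {k : ℕ} {y X ζ1 ζ2 ξ1 ξ3 : ℝ} (hce : Cert n k 0 y X ζ1 ζ2 ξ1 ξ3)
    (hs : IsAffineMaximal Ω u) (hΩ : IsOpen Ω) (hc : Convex ℝ Ω)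
    (hx₀ : x₀ ∈ Ω) (hcpt : ∀ s, IsCompact (subLevelC Ω (uBar u x₀) s)) {C a : ℝ} (ha'0 : 0 ≤ a) (hpk : (n : ℝ) < ((k + 3 : ℕ) : ℝ) * (2 - a))
    (hG : ∀ x ∈ Ω, pa u (dF (uBar u x₀)) (dF (uBar u x₀)) x ≤ C * (1 + uBar u x₀ x) ^ a)
    {x z : Fin n → ℝ} (hx : x ∈ Ω) (hz : z ∈ Ω) : (hess u x).det = (hess u z).det := by
  set C' : ℝ := max C 1 with hC'
  have hC'0 : 0 < C' := lt_of_lt_of_le one_pos (le_max_right _ _)
  have hf : ContDiffOn ℝ ∞ (uBar u x₀) Ω := contDiffOn_uBar hs.smooth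
  have hu0 : ∀ x ∈ Ω, 0 ≤ uBar u x₀ x := fun x hx =>
    uBar_nonneg hΩ hc hs.smooth hs.posDef hx₀ hx
  refine det_const_of_energy_growth hs hΩ hce hc.isPreconnected hf hcpt (fun ε hε S₁ => ?_) hx hz
  set V : ℝ := volume.real (subLevel Ω (uBar u x₀) 1) with hV
  have hV0 : 0 ≤ V := measureReal_nonneg
  obtain ⟨S, hS1, hS2, hS3⟩ := key_num2 hC'0 hV0 hε ha'0 (k + 3) n hpk S₁
  refine ⟨S, hS2, le_trans ?_ (le_of_le_of_eq hS3 ?_)⟩
  · have hS0 : 0 < S := by linarith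
    have hopen := IsAffineMaximal.isOpen_subLevel hΩ hf S
    have hfin : ∀ s, volume (subLevel Ω (uBar u x₀) s) < ⊤ := fun s => by
      have hsub : subLevel Ω (uBar u x₀) s ⊆ subLevelC Ω (uBar u x₀) s :=
        fun _ hz => ⟨hz.1, hz.2.le⟩
      exact (measure_mono hsub).trans_lt (hcpt s).measure_lt_top
    set L : ℝ := (C' * (2 * S) ^ a) ^ (k + 3) with hL
    have hL0 : 0 ≤ L := by positivity
    have hdX : ∀ j, ContDiffOn ℝ ∞ (dF (uBar u x₀) j) Ω := fun j => contDiffOn_pd hΩ hf j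
    have hint : IntegrableOn (fun x => (hess u x).det ^ (0 : ℝ) *
        pa u (dF (uBar u x₀)) (dF (uBar u x₀)) x ^ (k + 3)) (subLevel Ω (uBar u x₀) S) := by
      have hcont : ContinuousOn (fun z => (hess u z).det ^ (0 : ℝ) *
          pa u (dF (uBar u x₀)) (dF (uBar u x₀)) z ^ (k + 3)) Ω :=
        (hs.contDiffOn_detpow hΩ _).continuousOn.mul
          ((hs.contDiffOn_pa hΩ hdX hdX).continuousOn.pow (k + 3))
      exact IsAffineMaximal.integrableOn_subLevel hcont (hcpt S)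
    have hle : ∫ x in subLevel Ω (uBar u x₀) S, (hess u x).det ^ (0 : ℝ) *
        pa u (dF (uBar u x₀)) (dF (uBar u x₀)) x ^ (k + 3) ≤
        ∫ _ in subLevel Ω (uBar u x₀) S, L := by
      refine setIntegral_mono_on hint (integrableOn_const (hfin S).ne) hopen.measurableSet
        fun w hw => ?_
      rw [Real.rpow_zero, one_mul]
      have hwΩ := hw.1
      have h0 : 0 ≤ pa u (dF (uBar u x₀)) (dF (uBar u x₀)) w := hs.pa_self_nonneg _ hwΩ
      refine pow_le_pow_left₀ h0 ((hG w hwΩ).trans ?_) _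
      have h2 : (1 + uBar u x₀ w) ^ a ≤ (2 * S) ^ a :=
        Real.rpow_le_rpow (by linarith [hu0 w hwΩ]) (by linarith [hw.2]) ha'0
      have h3 : 0 ≤ (1 + uBar u x₀ w) ^ a := Real.rpow_nonneg (by linarith [hu0 w hwΩ]) _
      calc C * (1 + uBar u x₀ w) ^ a ≤ C' * (1 + uBar u x₀ w) ^ a :=
            mul_le_mul_of_nonneg_right (le_max_left _ _) h3
        _ ≤ C' * (2 * S) ^ a := mul_le_mul_of_nonneg_left h2 hC'0.le
    refine hle.trans ?_
    rw [setIntegral_const, smul_eq_mul, mul_comm]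
    refine mul_le_mul_of_nonneg_left ?_ hL0
    have h1 := volume_subLevel_le hs hΩ hc hx₀ hS1
    have h2 := ENNReal.toReal_mono (ENNReal.mul_ne_top ENNReal.ofReal_ne_top (hfin 1).ne) h1
    rw [ENNReal.toReal_mul, ENNReal.toReal_ofReal (by positivity)] at h2
    exact h2
  · congr 2

end CaccioN

end Vale.Agent.Lib.P252
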