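import Vale.Agent.Lib.P252.GenN.Alg

/-!
The divergence identity with a general `C¹` test function with compact support and the resulting
Caccioppoli inequality in dimension three.
-/

open scoped ContDiff Matrix Topology
open MeasureTheory

namespace Vale.Agent.Lib.P252

namespace CaccioN

variable {n : ℕ} {Ω : Set (Fin n → ℝ)} {u : (Fin n → ℝ) → ℝ} {ψ : (Fin n → ℝ) → ℝ}

/-- The gradient covector of a function. -/
noncomputable def dF (ψ : (Fin n → ℝ) → ℝ) : Fin n → (Fin n → ℝ) → ℝ := fun j => pd j ψ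

/-- The class of test functions: `C¹` with compact support in `Ω`. -/
structure IsC1Test (Ω : Set (Fin n → ℝ)) (ψ : (Fin n → ℝ) → ℝ) : Prop where
  smooth : ContDiff ℝ 1 ψ
  cpt : HasCompactSupport ψ
  sub : tsupport ψ ⊆ Ω

lemma IsC1Test.continuous_pd (hψ : IsC1Test Ω ψ) (i : Fin n) : Continuous (pd i ψ) := by
  have h : Continuous (fderiv ℝ ψ) := hψ.smooth.continuous_fderiv (by simp)
  exact h.clm_apply continuous_const

lemma IsC1Test.pd_zero (_hψ : IsC1Test Ω ψ) {x : Fin n → ℝ} (h : x ∉ tsupport ψ) (i : Fin n) :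
    pd i ψ x = 0 := by
  have : fderiv ℝ ψ x = 0 := fderiv_of_notMem_tsupport ℝ h
  simp [pd, this]

/-- The cut-off field. -/
noncomputable def cutG (Ω : Set (Fin n → ℝ)) (ψ : (Fin n → ℝ) → ℝ) (N : ℕ)
    (W : (Fin n → ℝ) → ℝ) : (Fin n → ℝ) → ℝ :=
  Set.indicator Ω (fun y => ψ y ^ N * W y)

lemma cutG_zero {N : ℕ} (hN : N ≠ 0) {W : (Fin n → ℝ) → ℝ} {x : Fin n → ℝ} (hx : x ∉ tsupport ψ) :
    cutG Ω ψ N W x = 0 := by
  have h0 : ψ x = 0 := image_eq_zero_of_notMem_tsupport hx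
  by_cases hxΩ : x ∈ Ω
  · simp [cutG, hxΩ, h0, hN]
  · simp [cutG, hxΩ]

lemma cutG_contDiff (hΩ : IsOpen Ω) (hψ : IsC1Test Ω ψ) {N : ℕ} (hN : N ≠ 0)
    {W : (Fin n → ℝ) → ℝ} (hW : ContDiffOn ℝ ∞ W Ω) : ContDiff ℝ 1 (cutG Ω ψ N W) := by
  rw [contDiff_iff_contDiffAt]
  intro x
  by_cases hx : x ∈ Ω
  · have hev : cutG Ω ψ N W =ᶠ[𝓝 x] fun y => ψ y ^ N * W y := by
      filter_upwards [hΩ.mem_nhds hx] with y hy
      simp [cutG, hy]
    refine ContDiffAt.congr_of_eventuallyEq ?_ hev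
    exact (hψ.smooth.contDiffAt.pow N).mul ((contDiffAt_of hΩ hW hx).of_le (by simp))
  · have hx' : x ∉ tsupport ψ := fun h => hx (hψ.sub h)
    have hopen : (tsupport ψ)ᶜ ∈ 𝓝 x := (isClosed_tsupport ψ).isOpen_compl.mem_nhds hx'
    have hev : cutG Ω ψ N W =ᶠ[𝓝 x] fun _ => 0 := by
      filter_upwards [hopen] with y hy using cutG_zero hN hy
    exact contDiffAt_const.congr_of_eventuallyEq hev

lemma cutG_compact (hψ : IsC1Test Ω ψ) {N : ℕ} (hN : N ≠ 0) {W : (Fin n → ℝ) → ℝ} :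
    HasCompactSupport (cutG Ω ψ N W) :=
  HasCompactSupport.intro hψ.cpt fun _ hx => cutG_zero hN hx

lemma pd_cutG (hΩ : IsOpen Ω) (hψ : IsC1Test Ω ψ) {N : ℕ} {W : (Fin n → ℝ) → ℝ}
    (hW : ContDiffOn ℝ ∞ W Ω) {x : Fin n → ℝ} (hx : x ∈ Ω) (i : Fin n) :
    pd i (cutG Ω ψ N W) x =
      ((N : ℝ) * ψ x ^ (N - 1) * pd i ψ x) * W x + ψ x ^ N * pd i W x := by
  have hev : cutG Ω ψ N W =ᶠ[𝓝 x] fun y => ψ y ^ N * W y := by
    filter_upwards [hΩ.mem_nhds hx] with y hy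
    simp [cutG, hy]
  rw [pd_congr hev]
  have hdψ : DifferentiableAt ℝ ψ x := hψ.smooth.differentiable (by simp) x
  have hder : HasDerivAt (fun t : ℝ => t ^ N) ((N : ℝ) * ψ x ^ (N - 1)) (ψ x) :=
    hasDerivAt_pow N (ψ x)
  have h2 : pd i (fun y => ψ y ^ N) x = (N : ℝ) * ψ x ^ (N - 1) * pd i ψ x :=
    pd_comp (g := fun t : ℝ => t ^ N) hder hdψ i
  have h3 : DifferentiableAt ℝ (fun y => ψ y ^ N) x := hdψ.pow N
  rw [pd_mul h3 (diffAt hΩ hW hx), h2]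

lemma pd_cutG_of_notMem (hψ : IsC1Test Ω ψ) {N : ℕ} (hN : N ≠ 0) {W : (Fin n → ℝ) → ℝ}
    {x : Fin n → ℝ} (hx : x ∉ Ω) (i : Fin n) : pd i (cutG Ω ψ N W) x = 0 := by
  have hx' : x ∉ tsupport ψ := fun h => hx (hψ.sub h)
  have hopen : (tsupport ψ)ᶜ ∈ 𝓝 x := (isClosed_tsupport ψ).isOpen_compl.mem_nhds hx'
  have hev : cutG Ω ψ N W =ᶠ[𝓝 x] fun _ => 0 := by
    filter_upwards [hopen] with y hy using cutG_zero hN hy
  rw [pd_congr hev, pd_const]

/-- The integrand of the divergence identity for the covector field `V` and the test function. -/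
noncomputable def fieldJ (Ω : Set (Fin n → ℝ)) (u : (Fin n → ℝ) → ℝ) (β : ℝ)
    (ψ : (Fin n → ℝ) → ℝ) (N : ℕ) (V : Fin n → (Fin n → ℝ) → ℝ) : (Fin n → ℝ) → ℝ :=
  Set.indicator Ω fun y => (hess u y).det ^ β *
    (ψ y ^ N * (dv u V y + (β - 1) * pa u (qF u) V y) +
      ((N : ℝ) * ψ y ^ (N - 1)) * pa u (dF ψ) V y)

variable (hs : IsAffineMaximal Ω u) (hΩ : IsOpen Ω)
include hs hΩ

lemma fieldJ_eq (hψ : IsC1Test Ω ψ) {V : Fin n → (Fin n → ℝ) → ℝ}
    (hV : ∀ j, ContDiffOn ℝ ∞ (V j) Ω) (β : ℝ) {N : ℕ} (hN : N ≠ 0) (x : Fin n → ℝ) :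
    fieldJ Ω u β ψ N V x =
      ∑ i, pd i (cutG Ω ψ N (fun y => (hess u y).det ^ β * ra u V i y)) x := by
  classical
  by_cases hx : x ∈ Ω
  · have hWi : ∀ i, ContDiffOn ℝ ∞ (fun y => (hess u y).det ^ β * ra u V i y) Ω := fun i =>
      (hs.contDiffOn_detpow hΩ β).mul (hs.contDiffOn_ra hΩ hV i)
    simp only [pd_cutG hΩ hψ (hWi _) hx]
    have h1 : ∀ i, pd i (fun y => (hess u y).det ^ β * ra u V i y) x =
        β * (hess u x).det ^ β * pd i (logD u) x * ra u V i x +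
          (hess u x).det ^ β * pd i (ra u V i) x := by
      intro i
      rw [pd_mul (diffAt hΩ (hs.contDiffOn_detpow hΩ β) hx) (hs.diffAt_ra hΩ hV i hx),
        hs.pd_detpow hΩ β hx]
    simp only [h1]
    have h2 : ∑ i, pd i (logD u) x * ra u V i x = pa u (qF u) V x := rfl
    have h3 : ∑ i, pd i ψ x * ra u V i x = pa u (dF ψ) V x := rfl
    have h4 := hs.div_ra hΩ hV hx
    simp only [fieldJ, Set.indicator_of_mem hx]
    rw [Finset.sum_add_distrib]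
    have e1 : ∑ i, ((N : ℝ) * ψ x ^ (N - 1) * pd i ψ x) * ((hess u x).det ^ β * ra u V i x) =
        (N : ℝ) * ψ x ^ (N - 1) * (hess u x).det ^ β * ∑ i, pd i ψ x * ra u V i x := by
      rw [Finset.mul_sum]
      exact Finset.sum_congr rfl fun i _ => by ring
    have e2 : ∑ i, ψ x ^ N * (β * (hess u x).det ^ β * pd i (logD u) x *
        ra u V i x + (hess u x).det ^ β * pd i (ra u V i) x) =
        ψ x ^ N * (hess u x).det ^ β * (β * ∑ i, pd i (logD u) x * ra u V i x +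
          ∑ i, pd i (ra u V i) x) := by
      calc ∑ i, ψ x ^ N * (β * (hess u x).det ^ β * pd i (logD u) x *
            ra u V i x + (hess u x).det ^ β * pd i (ra u V i) x)
          = ∑ i, (ψ x ^ N * (hess u x).det ^ β * β *
              (pd i (logD u) x * ra u V i x) + ψ x ^ N * (hess u x).det ^ β *
              pd i (ra u V i) x) := Finset.sum_congr rfl fun i _ => by ring
        _ = ψ x ^ N * (hess u x).det ^ β * β *
              ∑ i, pd i (logD u) x * ra u V i x + ψ x ^ N * (hess u x).det ^ β *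
              ∑ i, pd i (ra u V i) x := by
            rw [Finset.sum_add_distrib, Finset.mul_sum, Finset.mul_sum]
        _ = _ := by ring
    rw [e1, e2, h2, h3, h4]
    ring
  · simp only [fieldJ, Set.indicator_of_notMem hx, pd_cutG_of_notMem hψ hN hx]
    simp

lemma fieldJ_integral (hψ : IsC1Test Ω ψ) {V : Fin n → (Fin n → ℝ) → ℝ}
    (hV : ∀ j, ContDiffOn ℝ ∞ (V j) Ω) (β : ℝ) {N : ℕ} (hN : N ≠ 0) :
    Integrable (fieldJ Ω u β ψ N V) ∧ ∫ x, fieldJ Ω u β ψ N V x = 0 := by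
  classical
  have hWi : ∀ i, ContDiffOn ℝ ∞ (fun y => (hess u y).det ^ β * ra u V i y) Ω := fun i =>
    (hs.contDiffOn_detpow hΩ β).mul (hs.contDiffOn_ra hΩ hV i)
  have hpd : ∀ i, Integrable (pd i (cutG Ω ψ N (fun y => (hess u y).det ^ β * ra u V i y))) ∧
      ∫ x, pd i (cutG Ω ψ N (fun y => (hess u y).det ^ β * ra u V i y)) x = 0 :=
    fun i => integral_pd_C1 (cutG_contDiff hΩ hψ hN (hWi i)) (cutG_compact hψ hN) i
  have e : fieldJ Ω u β ψ N V = fun x => ∑ i, pd i (cutG Ω ψ N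
      (fun y => (hess u y).det ^ β * ra u V i y)) x := by
    funext x
    exact fieldJ_eq hs hΩ hψ hV β hN x
  rw [e]
  refine ⟨integrable_finsetSum _ fun i _ => (hpd i).1, ?_⟩
  rw [integral_finsetSum _ fun i _ => (hpd i).1]
  exact Finset.sum_eq_zero fun i _ => (hpd i).2

lemma dv_powT {V : Fin n → (Fin n → ℝ) → ℝ} (hV : ∀ j, ContDiffOn ℝ ∞ (V j) Ω) (k : ℕ)
    {x : Fin n → ℝ} (hx : x ∈ Ω) :
    dv u (fun j y => aT u y ^ (k + 1) * V j y) x =
      ((k : ℝ) + 1) * aT u x ^ k *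
        (2 * pa u (ph u (qF u)) V x - pa u (Ah u (qF u) (qF u)) V x) +
      aT u x ^ (k + 1) * dv u V x := by
  have hT := hs.contDiffOn_aT hΩ
  have hTd := diffAt hΩ hT hx
  have hpow : DifferentiableAt ℝ (fun y => aT u y ^ (k + 1)) x := hTd.pow (k + 1)
  rw [IsAffineMaximal.dv_smul_aux (hs := hs) hpow (fun j => diffAt hΩ (hV j) hx)]
  have hder : HasDerivAt (fun t : ℝ => t ^ (k + 1)) (((k + 1 : ℕ) : ℝ) * aT u x ^ (k + 1 - 1))
      (aT u x) := hasDerivAt_pow (k + 1) (aT u x)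
  have h1 : ∀ m, pd m (fun y => aT u y ^ (k + 1)) x =
      ((k + 1 : ℕ) : ℝ) * aT u x ^ (k + 1 - 1) * pd m (aT u) x := fun m =>
    pd_comp (g := fun t : ℝ => t ^ (k + 1)) hder hTd m
  simp only [h1]
  have h2 := hs.grad_T' hΩ V hx
  have e : ∑ m, ((k + 1 : ℕ) : ℝ) * aT u x ^ (k + 1 - 1) * pd m (aT u) x * ra u V m x =
      ((k + 1 : ℕ) : ℝ) * aT u x ^ (k + 1 - 1) * ∑ m, pd m (aT u) x * ra u V m x := by
    rw [Finset.mul_sum]
    exact Finset.sum_congr rfl fun m _ => by ring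
  rw [e, h2]
  simp only [Nat.add_sub_cancel]
  push_cast
  ring

/-- The form of the integrand for a field multiplied by a power of `T`. -/
lemma fieldJ_pow {V : Fin n → (Fin n → ℝ) → ℝ} (hV : ∀ j, ContDiffOn ℝ ∞ (V j) Ω) (k N : ℕ)
    (β : ℝ) {x : Fin n → ℝ} (hx : x ∈ Ω) {d a c1 c2 : ℝ} (h1 : dv u V x = d)
    (h2 : pa u (qF u) V x = a) (h3 : pa u (ph u (qF u)) V x = c1)
    (h4 : pa u (Ah u (qF u) (qF u)) V x = c2) :
    fieldJ Ω u β ψ N (fun j y => aT u y ^ (k + 1) * V j y) x = (hess u x).det ^ β *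
      (ψ x ^ N * (aT u x ^ k * (aT u x * (d + (β - 1) * a) + ((k : ℝ) + 1) * (2 * c1 - c2))) +
        ((N : ℝ) * ψ x ^ (N - 1)) * (aT u x ^ (k + 1) * pa u (dF ψ) V x)) := by
  simp only [fieldJ, Set.indicator_of_mem hx]
  rw [dv_powT hs hΩ hV k hx, IsAffineMaximal.pa_f_mul hs hΩ, IsAffineMaximal.pa_f_mul hs hΩ, h1, h2, h3, h4]
  ring

end CaccioN

end Vale.Agent.Lib.P252
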