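import Vale.Agent.Lib.P252.GenN.Crit
import Vale.Agent.Lib.P252.GenN.Growth2

/-!
The logarithmic cut-off for a general exhaustion function: the critical mass growth is allowed.
-/

open scoped ContDiff Matrix Topology
open MeasureTheory Set Filter

namespace Vale.Agent.Lib.P252

namespace CaccioN

variable {n : ℕ} {Ω : Set (Fin n → ℝ)} {u : (Fin n → ℝ) → ℝ} {x₀ : Fin n → ℝ}

/-- The power identity for the shells. -/
lemma shell_power {B σ : ℝ} (hB : 0 < B) (p : ℕ) :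
    (B ^ (-σ)) ^ p * (B * 2) ^ (σ * p) = 2 ^ (σ * p) := by
  rw [← Real.rpow_natCast (B ^ (-σ)) p, ← Real.rpow_mul hB.le,
    Real.mul_rpow hB.le (by norm_num), ← mul_assoc, ← Real.rpow_add hB]
  have e : -σ * (p : ℝ) + σ * (p : ℝ) = 0 := by ring
  rw [e, Real.rpow_zero, one_mul]

/-- The Liouville theorem with the logarithm of an exhaustion function. -/
theorem log_crit {p : ℕ} {β σ C A : ℝ} (hA : AdmN n p β) (hΩ : IsOpen Ω)
    (hconn : IsPreconnected Ω) (hs : IsAffineMaximal Ω u) {f : (Fin n → ℝ) → ℝ}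
    (hf : ContDiffOn ℝ ∞ f Ω) (hf1 : ∀ x ∈ Ω, 1 ≤ f x)
    (hcpt : ∀ s : ℝ, IsCompact {x | x ∈ Ω ∧ f x ≤ s}) (hσ : 0 ≤ σ)
    (hG : ∀ x ∈ Ω, gradSq u f x ≤ C * f x ^ (2 - σ))
    (hM : ∀ m : ℕ, ∫ x in {x | x ∈ Ω ∧ f x < (2 : ℝ) ^ m}, (hess u x).det ^ β ≤
      A * ((2 : ℝ) ^ m) ^ (σ * (p : ℝ))) :
    ∀ x ∈ Ω, ∀ z ∈ Ω, (hess u x).det = (hess u z).det := by
  have hp3 : 3 ≤ p := hA.1
  have hf0 : ∀ x ∈ Ω, 0 < f x := fun x hx => by linarith [hf1 x hx]
  set L : (Fin n → ℝ) → ℝ := fun x => Real.log (f x) with hLd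
  have hL : ContDiffOn ℝ ∞ L Ω := hf.log fun x hx => (hf0 x hx).ne'
  have hcptL : ∀ s : ℝ, IsCompact {x | x ∈ Ω ∧ L x ≤ s} := by
    intro s
    have e : {x | x ∈ Ω ∧ L x ≤ s} = {x | x ∈ Ω ∧ f x ≤ Real.exp s} := by
      ext x
      constructor
      · rintro ⟨hx, h⟩
        exact ⟨hx, (Real.log_le_iff_le_exp (hf0 x hx)).1 h⟩
      · rintro ⟨hx, h⟩
        exact ⟨hx, (Real.log_le_iff_le_exp (hf0 x hx)).2 h⟩
    rw [e]
    exact hcpt _
  set C' : ℝ := max C 1 with hC'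
  have hC'0 : 0 ≤ C' := le_trans zero_le_one (le_max_right _ _)
  set A' : ℝ := max A 1 with hA'
  have hA'0 : 0 ≤ A' := le_trans zero_le_one (le_max_right _ _)
  set g : (Fin n → ℝ) → ℝ := fun x => f x ^ (-σ) with hg
  have hgc : ContinuousOn g Ω :=
    hf.continuousOn.rpow_const fun x hx => Or.inl (hf0 x hx).ne'
  have hg0 : ∀ x ∈ Ω, 0 ≤ g x := fun x hx => (Real.rpow_pos_of_pos (hf0 x hx) _).le
  -- the energy density
  have hGL : ∀ x ∈ Ω, gradSq u L x ≤ C' * g x := by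
    intro x hx
    have hfx := hf0 x hx
    have hd : DifferentiableAt ℝ f x := diffAt hΩ hf hx
    have hder : HasDerivAt Real.log (f x)⁻¹ (f x) := Real.hasDerivAt_log hfx.ne'
    have hpd : ∀ j, dF L j x = (f x)⁻¹ * dF f j x := fun j => pd_comp hder hd j
    have e : pa u (dF L) (dF L) x = ((f x)⁻¹) ^ 2 * pa u (dF f) (dF f) x := pa_scale hpd
    rw [← pa_dF_eq, e, pa_dF_eq]
    have h1 : gradSq u f x ≤ C' * f x ^ (2 - σ) :=
      (hG x hx).trans (mul_le_mul_of_nonneg_right (le_max_left _ _)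
        (Real.rpow_pos_of_pos hfx _).le)
    have e2 : f x ^ (2 - σ) = f x ^ 2 * f x ^ (-σ) := by
      rw [sub_eq_add_neg, Real.rpow_add hfx]
      norm_num
    calc ((f x)⁻¹) ^ 2 * gradSq u f x ≤ ((f x)⁻¹) ^ 2 * (C' * f x ^ (2 - σ)) :=
          mul_le_mul_of_nonneg_left h1 (sq_nonneg _)
      _ = C' * g x := by
          rw [e2, hg]
          field_simp
  -- the measure
  have hρ0 : ∀ x ∈ Ω, 0 < (hess u x).det ^ β := fun x hx =>
    Real.rpow_pos_of_pos (hs.det_pos hx) _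
  have hμc : ContinuousOn (fun x => (hess u x).det ^ β) Ω :=
    (hs.contDiffOn_detpow hΩ β).continuousOn
  set T : ℕ → Set (Fin n → ℝ) := fun m => {x | x ∈ Ω ∧ f x < (2 : ℝ) ^ m} with hT
  have hTo : ∀ m, IsOpen (T m) := fun m => IsAffineMaximal.isOpen_subLevel hΩ hf ((2 : ℝ) ^ m)
  have hTc : ∀ m, T m ⊆ {x | x ∈ Ω ∧ f x ≤ (2 : ℝ) ^ m} := fun m x hx => ⟨hx.1, hx.2.le⟩
  have hcontμg : ContinuousOn (fun x => (hess u x).det ^ β * g x ^ p) Ω := hμc.mul (hgc.pow p)
  have hI1 : ∀ m, IntegrableOn (fun x => (hess u x).det ^ β * g x ^ p) (T m) := fun m =>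
    ((hcontμg.mono fun x hx => hx.1).integrableOn_compact (hcpt _)).mono_set (hTc m)
  have hI2 : ∀ m, IntegrableOn (fun x => (hess u x).det ^ β) (T m) := fun m =>
    ((hμc.mono fun x hx => hx.1).integrableOn_compact (hcpt _)).mono_set (hTc m)
  set W : ℝ := A' * 2 ^ (σ * (p : ℝ)) with hW
  have hW0 : 0 ≤ W := by positivity
  -- the shells
  have hsum : ∀ m : ℕ, ∫ x in T m, (hess u x).det ^ β * g x ^ p ≤ W * m := by
    intro m
    induction m with
    | zero =>
      have e : T 0 = ∅ := by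
        ext x
        simp only [Set.mem_empty_iff_false, iff_false]
        rintro ⟨hx, h⟩
        have := hf1 x hx
        rw [pow_zero] at h
        linarith
      rw [e]
      simp
    | succ m ih =>
      have h2m : (0 : ℝ) < (2 : ℝ) ^ m := by positivity
      have hsub : T m ⊆ T (m + 1) := by
        intro x hx
        refine ⟨hx.1, lt_of_lt_of_le hx.2 ?_⟩
        exact pow_le_pow_right₀ (by norm_num) (Nat.le_succ m)
      have hU : T (m + 1) = T m ∪ (T (m + 1) \ T m) := (Set.union_sdiff_cancel hsub).symm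
      have hdis : Disjoint (T m) (T (m + 1) \ T m) := Set.disjoint_sdiff_right
      have hZm : MeasurableSet (T (m + 1) \ T m) :=
        (hTo (m + 1)).measurableSet.diff (hTo m).measurableSet
      have e := setIntegral_union (f := fun x => (hess u x).det ^ β * g x ^ p) hdis hZm
        (hI1 m) ((hI1 (m + 1)).mono_set Set.sdiff_subset)
      rw [← hU] at e
      rw [e]
      set c : ℝ := (((2 : ℝ) ^ m) ^ (-σ)) ^ p with hc
      have hc0 : 0 ≤ c := by positivity
      have h1 : ∫ x in T (m + 1) \ T m, (hess u x).det ^ β * g x ^ p ≤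
          ∫ x in T (m + 1) \ T m, (hess u x).det ^ β * c := by
        refine setIntegral_mono_on ((hI1 (m + 1)).mono_set Set.sdiff_subset)
          (((hI2 (m + 1)).mono_set Set.sdiff_subset).mul_const c) hZm fun x hx => ?_
        have hxΩ : x ∈ Ω := hx.1.1
        have hx2 : (2 : ℝ) ^ m ≤ f x := by
          by_contra hcon
          exact hx.2 ⟨hxΩ, not_le.1 hcon⟩
        refine mul_le_mul_of_nonneg_left ?_ (hρ0 x hxΩ).le
        refine pow_le_pow_left₀ (hg0 x hxΩ) ?_ _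
        exact Real.rpow_le_rpow_of_nonpos h2m hx2 (by linarith)
      rw [integral_mul_const] at h1
      have h2 : ∫ x in T (m + 1) \ T m, (hess u x).det ^ β ≤
          ∫ x in T (m + 1), (hess u x).det ^ β := by
        refine setIntegral_mono_set (hI2 (m + 1)) ?_
          (Filter.Eventually.of_forall Set.sdiff_subset)
        filter_upwards [ae_restrict_mem (hTo (m + 1)).measurableSet] with w hw
        exact (hρ0 w hw.1).le
      have h3 : ∫ x in T (m + 1), (hess u x).det ^ β ≤ A' * ((2 : ℝ) ^ (m + 1)) ^ (σ * (p : ℝ)) := by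
        refine (hM (m + 1)).trans (mul_le_mul_of_nonneg_right (le_max_left _ _) (by positivity))
      have h4 : (∫ x in T (m + 1) \ T m, (hess u x).det ^ β) * c ≤ W := by
        have h5 := mul_le_mul_of_nonneg_right (h2.trans h3) hc0
        refine h5.trans (le_of_eq ?_)
        rw [hc, pow_succ, hW]
        have := shell_power (σ := σ) h2m p
        rw [mul_assoc, mul_comm _ ((((2 : ℝ) ^ m) ^ (-σ)) ^ p), this]
      push_cast
      nlinarith
  have hlog : 0 < Real.log 2 := Real.log_pos (by norm_num)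
  set Y : ℝ := C' ^ p * W with hY
  have hY0 : 0 ≤ Y := by positivity
  refine energy_final hA hΩ hconn hs (ρ := L) hL hcptL fun ε hε S₁ => ?_
  obtain ⟨m, hm⟩ := exists_nat_ge (max (max (Y / (ε * Real.log 2 ^ (2 * p))) (S₁ / Real.log 2)) 1)
  have hm1 : 1 ≤ (m : ℝ) := (le_max_right _ _).trans hm
  have hm2 : S₁ / Real.log 2 ≤ (m : ℝ) := ((le_max_right _ _).trans (le_max_left _ _)).trans hm
  have hm3 : Y / (ε * Real.log 2 ^ (2 * p)) ≤ (m : ℝ) :=
    ((le_max_left _ _).trans (le_max_left _ _)).trans hm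
  refine ⟨(m : ℝ) * Real.log 2, by rwa [div_le_iff₀ hlog] at hm2, ?_⟩
  have hset : {x | x ∈ Ω ∧ L x < (m : ℝ) * Real.log 2} = T m := by
    ext w
    constructor
    · rintro ⟨hw, h⟩
      refine ⟨hw, ?_⟩
      have h' : Real.log (f w) < Real.log ((2 : ℝ) ^ m) := by
        rw [Real.log_pow]
        exact h
      exact (Real.log_lt_log_iff (hf0 w hw) (by positivity)).1 h'
    · rintro ⟨hw, h⟩
      refine ⟨hw, ?_⟩
      have h' := (Real.log_lt_log_iff (hf0 w hw) (by positivity)).2 h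
      rw [Real.log_pow] at h'
      exact h'
  rw [hset]
  have hdX : ∀ j, ContDiffOn ℝ ∞ (dF L j) Ω := fun j => contDiffOn_pd hΩ hL j
  have hcontG : ContinuousOn (fun w => (hess u w).det ^ β * gradSq u L w ^ p) Ω := by
    have e : (fun w => (hess u w).det ^ β * gradSq u L w ^ p) =
        fun w => (hess u w).det ^ β * pa u (dF L) (dF L) w ^ p := by
      funext w
      rw [pa_dF_eq]
    rw [e]
    exact hμc.mul ((hs.contDiffOn_pa hΩ hdX hdX).continuousOn.pow p)
  have hintG : IntegrableOn (fun w => (hess u w).det ^ β * gradSq u L w ^ p) (T m) :=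
    ((hcontG.mono fun x hx => hx.1).integrableOn_compact (hcpt _)).mono_set (hTc m)
  have h1 : ∫ w in T m, (hess u w).det ^ β * gradSq u L w ^ p ≤
      ∫ w in T m, C' ^ p * ((hess u w).det ^ β * g w ^ p) := by
    refine setIntegral_mono_on hintG ((hI1 m).const_mul _) (hTo m).measurableSet fun w hw => ?_
    have hwΩ : w ∈ Ω := hw.1
    have h0 : 0 ≤ gradSq u L w := by
      rw [← pa_dF_eq]
      exact hs.pa_self_nonneg _ hwΩ
    have h2 := pow_le_pow_left₀ h0 (hGL w hwΩ) p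
    have h3 := mul_le_mul_of_nonneg_left h2 (hρ0 w hwΩ).le
    refine h3.trans (le_of_eq ?_)
    rw [mul_pow]
    ring
  rw [integral_const_mul] at h1
  have h2 := mul_le_mul_of_nonneg_left (hsum m) (by positivity : 0 ≤ C' ^ p)
  refine h1.trans (h2.trans ?_)
  have hm0 : (0 : ℝ) < m := by linarith
  have hlp : 0 < Real.log 2 ^ (2 * p) := by positivity
  rw [div_le_iff₀ (by positivity)] at hm3
  have hpow : (m : ℝ) ^ 2 ≤ (m : ℝ) ^ (2 * p) := pow_le_pow_right₀ hm1 (by omega)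
  have e : C' ^ p * (W * (m : ℝ)) = Y * m := by
    rw [hY]
    ring
  rw [e, mul_pow]
  have h5 : Y * m ≤ ε * Real.log 2 ^ (2 * p) * (m : ℝ) ^ 2 := by
    have : Y * m ≤ ((m : ℝ) * (ε * Real.log 2 ^ (2 * p))) * m :=
      mul_le_mul_of_nonneg_right hm3 hm0.le
    refine this.trans (le_of_eq ?_)
    ring
  refine h5.trans ?_
  have h6 : ε * Real.log 2 ^ (2 * p) * (m : ℝ) ^ 2 ≤ ε * Real.log 2 ^ (2 * p) * (m : ℝ) ^ (2 * p) :=
    mul_le_mul_of_nonneg_left hpow (by positivity)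
  refine h6.trans (le_of_eq ?_)
  ring

lemma gradSq_one_add (g : (Fin n → ℝ) → ℝ) :
    gradSq u (fun x => 1 + g x) = gradSq u g := by
  funext x
  simp only [gradSq, pd, fderiv_const_add]

/-- The Liouville theorem with the logarithm of `1 + ū`: critical mass growth. -/
theorem uBar_mass {p : ℕ} {β a C A : ℝ} (hA : AdmN n p β) (hΩ : IsOpen Ω) (hc : Convex ℝ Ω)
    (hx₀ : x₀ ∈ Ω) (hs : IsAffineMaximal Ω u)
    (hcpt : ∀ s : ℝ, IsCompact {x | x ∈ Ω ∧ uBar u x₀ x ≤ s}) (ha : a ≤ 2)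
    (hG : ∀ x ∈ Ω, gradSq u (uBar u x₀) x ≤ C * (1 + uBar u x₀ x) ^ a)
    (hM : ∀ S : ℝ, 1 ≤ S → ∫ x in {x | x ∈ Ω ∧ uBar u x₀ x < S}, (hess u x).det ^ β ≤
      A * S ^ ((2 - a) * (p : ℝ))) :
    ∀ x ∈ Ω, ∀ z ∈ Ω, (hess u x).det = (hess u z).det := by
  have hf : ContDiffOn ℝ ∞ (uBar u x₀) Ω := contDiffOn_uBar hs.smooth
  have hu0 : ∀ x ∈ Ω, 0 ≤ uBar u x₀ x := fun x hx =>
    uBar_nonneg hΩ hc hs.smooth hs.posDef hx₀ hx
  have hρ0 : ∀ x ∈ Ω, 0 < (hess u x).det ^ β := fun x hx =>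
    Real.rpow_pos_of_pos (hs.det_pos hx) _
  refine log_crit (f := fun x => 1 + uBar u x₀ x) (σ := 2 - a) (C := C) (A := A) hA hΩ
    hc.isPreconnected hs (contDiffOn_const.add hf) (fun x hx => by linarith [hu0 x hx]) ?_
    (by linarith) ?_ ?_
  · intro s
    have e : {x | x ∈ Ω ∧ 1 + uBar u x₀ x ≤ s} = {x | x ∈ Ω ∧ uBar u x₀ x ≤ s - 1} := by
      ext x
      constructor
      · rintro ⟨hx, h⟩
        exact ⟨hx, by linarith⟩
      · rintro ⟨hx, h⟩
        exact ⟨hx, by linarith⟩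
    rw [e]
    exact hcpt _
  · intro x hx
    rw [gradSq_one_add]
    have e : (2 : ℝ) - (2 - a) = a := by ring
    rw [e]
    exact hG x hx
  · intro m
    have hS : (1 : ℝ) ≤ (2 : ℝ) ^ m := one_le_pow₀ (by norm_num)
    refine le_trans ?_ (hM _ hS)
    have hcont : ContinuousOn (fun x => (hess u x).det ^ β) Ω :=
      (hs.contDiffOn_detpow hΩ β).continuousOn
    have hi : IntegrableOn (fun x => (hess u x).det ^ β) {x | x ∈ Ω ∧ uBar u x₀ x < (2 : ℝ) ^ m} :=
      ((hcont.mono fun x hx => hx.1).integrableOn_compact (hcpt ((2 : ℝ) ^ m))).mono_set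
        fun x hx => ⟨hx.1, hx.2.le⟩
    refine setIntegral_mono_set hi ?_ (Filter.Eventually.of_forall fun x hx => ?_)
    · filter_upwards [ae_restrict_mem (IsAffineMaximal.isOpen_subLevel hΩ hf _).measurableSet]
        with w hw
      exact (hρ0 w hw.1).le
    · exact ⟨hx.1, by linarith [hx.2]⟩

/-- The Liouville theorem with the logarithm of `1 + ū`: a bounded weight and `n ≤ (2 - a) p`. -/
theorem uBar_bdd {p : ℕ} {β a C Λ : ℝ} (hA : AdmN n p β) (hΩ : IsOpen Ω) (hc : Convex ℝ Ω)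
    (hx₀ : x₀ ∈ Ω) (hs : IsAffineMaximal Ω u)
    (hcpt : ∀ s : ℝ, IsCompact {x | x ∈ Ω ∧ uBar u x₀ x ≤ s}) (hn : (n : ℝ) ≤ (2 - a) * (p : ℝ))
    (hΛ : ∀ x ∈ Ω, (hess u x).det ^ β ≤ Λ)
    (hG : ∀ x ∈ Ω, gradSq u (uBar u x₀) x ≤ C * (1 + uBar u x₀ x) ^ a) :
    ∀ x ∈ Ω, ∀ z ∈ Ω, (hess u x).det = (hess u z).det := by
  have hp3 : 3 ≤ p := hA.1
  have hp0 : (0 : ℝ) < p := by
    have : (3 : ℝ) ≤ p := by exact_mod_cast hp3
    linarith
  have ha : a ≤ 2 := by
    by_contra hcon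
    have h1 : 2 - a < 0 := by linarith [not_le.1 hcon]
    have h2 : (2 - a) * (p : ℝ) < 0 := mul_neg_of_neg_of_pos h1 hp0
    have h3 : (0 : ℝ) ≤ n := Nat.cast_nonneg n
    linarith
  have hf : ContDiffOn ℝ ∞ (uBar u x₀) Ω := contDiffOn_uBar hs.smooth
  set Λ' : ℝ := max Λ 1 with hΛ'
  have hΛ'0 : 0 ≤ Λ' := le_trans zero_le_one (le_max_right _ _)
  set V : ℝ := volume.real (subLevel Ω (uBar u x₀) 1) with hV
  have hV0 : 0 ≤ V := measureReal_nonneg
  refine uBar_mass (A := Λ' * V) hA hΩ hc hx₀ hs hcpt ha hG fun S hS => ?_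
  have hS0 : 0 < S := by linarith
  have hopen := IsAffineMaximal.isOpen_subLevel hΩ hf S
  have hsubC : subLevel Ω (uBar u x₀) S ⊆ subLevelC Ω (uBar u x₀) S :=
    fun _ hz => ⟨hz.1, hz.2.le⟩
  have hfin : ∀ s, volume (subLevel Ω (uBar u x₀) s) < ⊤ := fun s =>
    (measure_mono (fun _ hz => ⟨hz.1, hz.2.le⟩ : subLevel Ω (uBar u x₀) s ⊆
      subLevelC Ω (uBar u x₀) s)).trans_lt (hcpt s).measure_lt_top
  have hint : IntegrableOn (fun x => (hess u x).det ^ β) (subLevel Ω (uBar u x₀) S) :=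
    IsAffineMaximal.integrableOn_subLevel (hs.contDiffOn_detpow hΩ _).continuousOn (hcpt S)
  have h1 : ∫ x in subLevel Ω (uBar u x₀) S, (hess u x).det ^ β ≤
      ∫ _ in subLevel Ω (uBar u x₀) S, Λ' :=
    setIntegral_mono_on hint (integrableOn_const (hfin S).ne) hopen.measurableSet fun w hw =>
      (hΛ w hw.1).trans (le_max_left _ _)
  refine h1.trans ?_
  rw [setIntegral_const, smul_eq_mul, mul_comm]
  have h2 := volume_subLevel_le hs hΩ hc hx₀ hS
  have h3 := ENNReal.toReal_mono (ENNReal.mul_ne_top ENNReal.ofReal_ne_top (hfin 1).ne) h2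
  rw [ENNReal.toReal_mul, ENNReal.toReal_ofReal (by positivity)] at h3
  have h4 : S ^ n ≤ S ^ ((2 - a) * (p : ℝ)) := by
    rw [← Real.rpow_natCast]
    exact Real.rpow_le_rpow_of_exponent_le hS hn
  have h5 : volume.real (subLevel Ω (uBar u x₀) S) ≤ S ^ ((2 - a) * (p : ℝ)) * V :=
    h3.trans (mul_le_mul_of_nonneg_right h4 hV0)
  calc Λ' * volume.real (subLevel Ω (uBar u x₀) S)
      ≤ Λ' * (S ^ ((2 - a) * (p : ℝ)) * V) := mul_le_mul_of_nonneg_left h5 hΛ'0
    _ = _ := by ring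

/-- The Liouville theorem for entire solutions: a bounded weight and `n ≤ (2 - a) p`. -/
theorem entire_log {p : ℕ} {β a C Λ : ℝ} (hA : AdmN n p β) (hs : IsAffineMaximal Set.univ u)
    (ha : 0 ≤ a) (hn : (n : ℝ) ≤ (2 - a) * (p : ℝ))
    (hT : ∀ x, Matrix.trace (hess u x)⁻¹ ≤ C * (1 + ‖x - x₀‖) ^ a)
    (hΛ : ∀ x, (hess u x).det ^ β ≤ Λ) (x z : Fin n → ℝ) :
    (hess u x).det = (hess u z).det := by
  have hp3 : 3 ≤ p := hA.1
  have hp0 : (0 : ℝ) < p := by
    have : (3 : ℝ) ≤ p := by exact_mod_cast hp3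
    linarith
  have ha2 : a ≤ 2 := by
    by_contra hcon
    have h1 : 2 - a < 0 := by linarith [not_le.1 hcon]
    have h2 : (2 - a) * (p : ℝ) < 0 := mul_neg_of_neg_of_pos h1 hp0
    have h3 : (0 : ℝ) ≤ n := Nat.cast_nonneg n
    linarith
  set C' : ℝ := max C 1 with hC'
  have hC'0 : 0 ≤ C' := le_trans zero_le_one (le_max_right _ _)
  set Λ' : ℝ := max Λ 1 with hΛ'
  have hΛ'0 : 0 ≤ Λ' := le_trans zero_le_one (le_max_right _ _)
  have hρ0 : ∀ x, 0 < (hess u x).det ^ β := fun x =>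
    Real.rpow_pos_of_pos (hs.det_pos (Set.mem_univ x)) _
  refine log_crit (Ω := Set.univ) (f := fun x => 1 + rhoE x₀ x) (σ := 1 - a / 2)
    (C := 2 ^ 2 * ((n : ℝ) + 1) * C' * 2 ^ (a / 2)) (A := Λ' * 2 ^ n) hA isOpen_univ
    isPreconnected_univ hs (contDiff_const.add (rhoE_contDiff x₀)).contDiffOn
    (fun w _ => by linarith [rhoE_nonneg x₀ w]) ?_ (by linarith) ?_ ?_ x (Set.mem_univ x) z
    (Set.mem_univ z)
  · intro s
    have h := isCompact_rhoE x₀ (s - 1)
    have e : {x | x ∈ Set.univ ∧ 1 + rhoE x₀ x ≤ s} = subLevelC Set.univ (rhoE x₀) (s - 1) := by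
      ext w
      constructor
      · rintro ⟨hw, h⟩
        exact ⟨hw, by linarith⟩
      · rintro ⟨hw, h⟩
        exact ⟨hw, by linarith⟩
    rw [e]
    exact h
  · intro w _
    rw [gradSq_one_add, ← pa_dF_eq]
    set F : ℝ := 1 + rhoE x₀ w with hF
    have hF0 : 0 < F := one_add_rhoE_pos x₀ w
    have e1 : pa u (dF (rhoE x₀)) (dF (rhoE x₀)) w =
        2 ^ 2 * pa u (fun j _ => w j - x₀ j) (fun j _ => w j - x₀ j) w :=
      pa_scale (fun j => pd_rhoE x₀ w j)
    have e2 : pa u (fun j _ => w j - x₀ j) (fun j _ => w j - x₀ j) w =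
        Qv (hess u w)⁻¹ (w - x₀) (w - x₀) := by
      unfold pa ra Qv Ui
      refine Finset.sum_congr rfl fun i _ => ?_
      rw [Finset.mul_sum]
      refine Finset.sum_congr rfl fun j _ => ?_
      simp only [Pi.sub_apply]
      ring
    have h1 := quad_le_trace (hs.posDef w (Set.mem_univ w)).inv (w - x₀)
    have h9 := norm_sq_le_rhoE x₀ w
    have hs0 := norm_nonneg (w - x₀)
    have hq : (1 + ‖w - x₀‖) ^ 2 ≤ 2 * F := by
      rw [hF]
      nlinarith [sq_nonneg (‖w - x₀‖ - 1)]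
    have hrp : (1 + ‖w - x₀‖) ^ a ≤ (2 * F) ^ (a / 2) := by
      have h2 : (1 + ‖w - x₀‖) ^ a = ((1 + ‖w - x₀‖) ^ (2 : ℕ)) ^ (a / 2) := by
        rw [← Real.rpow_natCast, ← Real.rpow_mul (by positivity)]
        congr 1
        push_cast
        ring
      rw [h2]
      exact Real.rpow_le_rpow (by positivity) hq (by positivity)
    have htr : Matrix.trace (hess u w)⁻¹ ≤ C' * ((2 : ℝ) ^ (a / 2) * F ^ (a / 2)) := by
      refine (hT w).trans ?_
      have h5 : 0 ≤ (1 + ‖w - x₀‖) ^ a := by positivity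
      calc C * (1 + ‖w - x₀‖) ^ a ≤ C' * (1 + ‖w - x₀‖) ^ a :=
            mul_le_mul_of_nonneg_right (le_max_left _ _) h5
        _ ≤ C' * (2 * F) ^ (a / 2) := mul_le_mul_of_nonneg_left hrp hC'0
        _ = _ := by
            rw [Real.mul_rpow (by norm_num) hF0.le]
    have hρF : ‖w - x₀‖ ^ 2 ≤ F := by
      rw [hF]
      linarith
    have e3 : F ^ ((2 : ℝ) - (1 - a / 2)) = F * F ^ (a / 2) := by
      have : (2 : ℝ) - (1 - a / 2) = 1 + a / 2 := by ring
      rw [this, Real.rpow_add hF0, Real.rpow_one]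
    rw [e1, e2, e3]
    have hn1 : (0 : ℝ) ≤ (n : ℝ) + 1 := by positivity
    calc 2 ^ 2 * Qv (hess u w)⁻¹ (w - x₀) (w - x₀)
        ≤ 2 ^ 2 * (((n : ℝ) + 1) * Matrix.trace (hess u w)⁻¹ * ‖w - x₀‖ ^ 2) :=
          mul_le_mul_of_nonneg_left h1 (by norm_num)
      _ ≤ 2 ^ 2 * (((n : ℝ) + 1) * (C' * ((2 : ℝ) ^ (a / 2) * F ^ (a / 2))) * F) := by
          refine mul_le_mul_of_nonneg_left ?_ (by norm_num)
          exact mul_le_mul (mul_le_mul_of_nonneg_left htr hn1) hρF (sq_nonneg _) (by positivity)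
      _ = _ := by ring
  · intro m
    set r : ℝ := Real.sqrt ((2 : ℝ) ^ m) with hr
    have hr1 : 1 ≤ r := Real.one_le_sqrt.2 (one_le_pow₀ (by norm_num))
    have hr0 : 0 ≤ r := by linarith
    have hr2 : r ^ 2 = (2 : ℝ) ^ m := Real.sq_sqrt (by positivity)
    set Z : Set (Fin n → ℝ) := {x | x ∈ Set.univ ∧ 1 + rhoE x₀ x < (2 : ℝ) ^ m} with hZ
    have hZs : Z ⊆ Metric.closedBall x₀ r := by
      intro w hw
      have h : w ∈ shellT x₀ m := hw.2
      exact shellT_sub x₀ m h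
    have hZm : IsOpen Z := by
      have : Z = shellT x₀ m := by
        ext w
        simp [hZ, shellT]
      rw [this]
      exact shellT_open x₀ m
    have hfin : volume Z < ⊤ :=
      (measure_mono hZs).trans_lt (isCompact_closedBall _ _).measure_lt_top
    have hint : IntegrableOn (fun x => (hess u x).det ^ β) Z :=
      (((hs.contDiffOn_detpow isOpen_univ β).continuousOn.mono (Set.subset_univ _)).integrableOn_compact
        (isCompact_closedBall x₀ r)).mono_set hZs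
    have h1 : ∫ x in Z, (hess u x).det ^ β ≤ ∫ _ in Z, Λ' :=
      setIntegral_mono_on hint (integrableOn_const hfin.ne) hZm.measurableSet fun w _ =>
        (hΛ w).trans (le_max_left _ _)
    refine h1.trans ?_
    rw [setIntegral_const, smul_eq_mul, mul_comm, mul_assoc]
    refine mul_le_mul_of_nonneg_left ?_ hΛ'0
    have hvol : volume.real Z ≤ (2 * r) ^ n := by
      have h2 : volume Z ≤ ENNReal.ofReal ((2 * r) ^ n) := by
        refine (measure_mono hZs).trans (le_of_eq ?_)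
        have := Real.volume_pi_closedBall (ι := Fin n) x₀ hr0
        simpa using this
      exact ENNReal.toReal_le_of_le_ofReal (by positivity) h2
    refine hvol.trans ?_
    rw [mul_pow]
    refine mul_le_mul_of_nonneg_left ?_ (by positivity)
    -- `r ^ n ≤ (r ^ 2) ^ (σ p)`
    rw [← hr2, ← Real.rpow_natCast r n, ← Real.rpow_natCast r 2, ← Real.rpow_mul hr0]
    refine Real.rpow_le_rpow_of_exponent_le hr1 ?_
    push_cast
    nlinarith

end CaccioN

end Vale.Agent.Lib.P252
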