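import Vale.Agent.Lib.P252.GenN.LogCrit

/-!
The logarithmic cut-off for a general exhaustion function with energy `O(S^{2p})`.
-/

open scoped ContDiff Matrix Topology
open MeasureTheory Set Filter

namespace Vale.Agent.Lib.P252

namespace CaccioN

variable {n : ℕ} {Ω : Set (Fin n → ℝ)} {u : (Fin n → ℝ) → ℝ} {x₀ : Fin n → ℝ}

/-- The Liouville theorem for an exhaustion function whose energy is `O(S^{2p})`. -/
theorem log_energy {p : ℕ} {β A : ℝ} (hA : AdmN n p β) (hΩ : IsOpen Ω)
    (hconn : IsPreconnected Ω) (hs : IsAffineMaximal Ω u) {f : (Fin n → ℝ) → ℝ}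
    (hf : ContDiffOn ℝ ∞ f Ω) (hf1 : ∀ x ∈ Ω, 1 ≤ f x)
    (hcpt : ∀ s : ℝ, IsCompact {x | x ∈ Ω ∧ f x ≤ s})
    (hE : ∀ S : ℝ, 1 ≤ S → ∫ x in {x | x ∈ Ω ∧ f x < S}, (hess u x).det ^ β * gradSq u f x ^ p ≤
      A * S ^ (2 * p)) :
    ∀ x ∈ Ω, ∀ z ∈ Ω, (hess u x).det = (hess u z).det := by
  have hp3 : 3 ≤ p := hA.1
  have hf0 : ∀ x ∈ Ω, 0 < f x := fun x hx => by linarith [hf1 x hx]
  set L : (Fin n → ℝ) → ℝ := fun x => Real.log (f x) with hLd
  have hL : ContDiffOn ℝ ∞ L Ω := hf.log fun x hx => (hf0 x hx).ne'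
  have hcptL : ∀ s : ℝ, IsCompact {x | x ∈ Ω ∧ L x ≤ s} := by
    intro s
    have e : {x | x ∈ Ω ∧ L x ≤ s} = {x | x ∈ Ω ∧ f x ≤ Real.exp s} := by
      ext x
      constructor
      · rintro ⟨hx, h⟩
        exact ⟨hx, (Real.log_le_iff_le_exp (hf0 x hx)).1 h⟩
      · rintro ⟨hx, h⟩
        exact ⟨hx, (Real.log_le_iff_le_exp (hf0 x hx)).2 h⟩
    rw [e]
    exact hcpt _
  set A' : ℝ := max A 1 with hA'
  have hA'0 : 0 ≤ A' := le_trans zero_le_one (le_max_right _ _)
  -- the energy density of the logarithm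
  have hGL : ∀ x ∈ Ω, gradSq u L x = ((f x)⁻¹) ^ 2 * gradSq u f x := by
    intro x hx
    have hfx := hf0 x hx
    have hd : DifferentiableAt ℝ f x := diffAt hΩ hf hx
    have hder : HasDerivAt Real.log (f x)⁻¹ (f x) := Real.hasDerivAt_log hfx.ne'
    have hpd : ∀ j, dF L j x = (f x)⁻¹ * dF f j x := fun j => pd_comp hder hd j
    have e : pa u (dF L) (dF L) x = ((f x)⁻¹) ^ 2 * pa u (dF f) (dF f) x := pa_scale hpd
    rw [← pa_dF_eq, e, pa_dF_eq]
  have hρ0 : ∀ x ∈ Ω, 0 < (hess u x).det ^ β := fun x hx =>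
    Real.rpow_pos_of_pos (hs.det_pos hx) _
  have hμc : ContinuousOn (fun x => (hess u x).det ^ β) Ω :=
    (hs.contDiffOn_detpow hΩ β).continuousOn
  have hG0 : ∀ (g : (Fin n → ℝ) → ℝ) (x), x ∈ Ω → 0 ≤ gradSq u g x := by
    intro g x hx
    rw [← pa_dF_eq]
    exact hs.pa_self_nonneg _ hx
  have hcontG : ∀ g : (Fin n → ℝ) → ℝ, ContDiffOn ℝ ∞ g Ω →
      ContinuousOn (fun w => (hess u w).det ^ β * gradSq u g w ^ p) Ω := by
    intro g hg
    have hdX : ∀ j, ContDiffOn ℝ ∞ (dF g j) Ω := fun j => contDiffOn_pd hΩ hg j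
    have e : (fun w => (hess u w).det ^ β * gradSq u g w ^ p) =
        fun w => (hess u w).det ^ β * pa u (dF g) (dF g) w ^ p := by
      funext w
      rw [pa_dF_eq]
    rw [e]
    exact hμc.mul ((hs.contDiffOn_pa hΩ hdX hdX).continuousOn.pow p)
  set T : ℕ → Set (Fin n → ℝ) := fun m => {x | x ∈ Ω ∧ f x < (2 : ℝ) ^ m} with hT
  have hTo : ∀ m, IsOpen (T m) := fun m => IsAffineMaximal.isOpen_subLevel hΩ hf ((2 : ℝ) ^ m)
  have hTc : ∀ m, T m ⊆ {x | x ∈ Ω ∧ f x ≤ (2 : ℝ) ^ m} := fun m x hx => ⟨hx.1, hx.2.le⟩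
  have hI1 : ∀ m, IntegrableOn (fun x => (hess u x).det ^ β * gradSq u L x ^ p) (T m) := fun m =>
    (((hcontG L hL).mono fun x hx => hx.1).integrableOn_compact (hcpt _)).mono_set (hTc m)
  have hI2 : ∀ m, IntegrableOn (fun x => (hess u x).det ^ β * gradSq u f x ^ p) (T m) := fun m =>
    (((hcontG f hf).mono fun x hx => hx.1).integrableOn_compact (hcpt _)).mono_set (hTc m)
  set W : ℝ := A' * 4 ^ p with hW
  have hW0 : 0 ≤ W := by positivity
  -- the shells
  have hsum : ∀ m : ℕ, ∫ x in T m, (hess u x).det ^ β * gradSq u L x ^ p ≤ W * m := by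
    intro m
    induction m with
    | zero =>
      have e : T 0 = ∅ := by
        ext x
        simp only [Set.mem_empty_iff_false, iff_false]
        rintro ⟨hx, h⟩
        have := hf1 x hx
        rw [pow_zero] at h
        linarith
      rw [e]
      simp
    | succ m ih =>
      have h2m : (0 : ℝ) < (2 : ℝ) ^ m := by positivity
      have hsub : T m ⊆ T (m + 1) := by
        intro x hx
        refine ⟨hx.1, lt_of_lt_of_le hx.2 ?_⟩
        exact pow_le_pow_right₀ (by norm_num) (Nat.le_succ m)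
      have hU : T (m + 1) = T m ∪ (T (m + 1) \ T m) := (Set.union_sdiff_cancel hsub).symm
      have hdis : Disjoint (T m) (T (m + 1) \ T m) := Set.disjoint_sdiff_right
      have hZm : MeasurableSet (T (m + 1) \ T m) :=
        (hTo (m + 1)).measurableSet.diff (hTo m).measurableSet
      have e := setIntegral_union (f := fun x => (hess u x).det ^ β * gradSq u L x ^ p) hdis hZm
        (hI1 m) ((hI1 (m + 1)).mono_set Set.sdiff_subset)
      rw [← hU] at e
      rw [e]
      set c : ℝ := (((2 : ℝ) ^ m)⁻¹ ^ 2) ^ p with hc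
      have hc0 : 0 ≤ c := by positivity
      have h1 : ∫ x in T (m + 1) \ T m, (hess u x).det ^ β * gradSq u L x ^ p ≤
          ∫ x in T (m + 1) \ T m, c * ((hess u x).det ^ β * gradSq u f x ^ p) := by
        refine setIntegral_mono_on ((hI1 (m + 1)).mono_set Set.sdiff_subset)
          (((hI2 (m + 1)).mono_set Set.sdiff_subset).const_mul c) hZm fun x hx => ?_
        have hxΩ : x ∈ Ω := hx.1.1
        have hx2 : (2 : ℝ) ^ m ≤ f x := by
          by_contra hcon
          exact hx.2 ⟨hxΩ, not_le.1 hcon⟩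
        have hinv : (f x)⁻¹ ≤ ((2 : ℝ) ^ m)⁻¹ := inv_anti₀ h2m hx2
        have hinv0 : 0 ≤ (f x)⁻¹ := (inv_pos.2 (hf0 x hxΩ)).le
        have hsq : ((f x)⁻¹) ^ 2 ≤ ((2 : ℝ) ^ m)⁻¹ ^ 2 := pow_le_pow_left₀ hinv0 hinv 2
        rw [hGL x hxΩ, mul_pow]
        have h3 : (((f x)⁻¹) ^ 2) ^ p ≤ c := pow_le_pow_left₀ (sq_nonneg _) hsq p
        have h4 : 0 ≤ gradSq u f x ^ p := pow_nonneg (hG0 f x hxΩ) p
        calc (hess u x).det ^ β * ((((f x)⁻¹) ^ 2) ^ p * gradSq u f x ^ p)
            ≤ (hess u x).det ^ β * (c * gradSq u f x ^ p) :=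
              mul_le_mul_of_nonneg_left (mul_le_mul_of_nonneg_right h3 h4) (hρ0 x hxΩ).le
          _ = _ := by ring
      rw [integral_const_mul] at h1
      have h2 : ∫ x in T (m + 1) \ T m, (hess u x).det ^ β * gradSq u f x ^ p ≤
          ∫ x in T (m + 1), (hess u x).det ^ β * gradSq u f x ^ p := by
        refine setIntegral_mono_set (hI2 (m + 1)) ?_
          (Filter.Eventually.of_forall Set.sdiff_subset)
        filter_upwards [ae_restrict_mem (hTo (m + 1)).measurableSet] with w hw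
        exact mul_nonneg (hρ0 w hw.1).le (pow_nonneg (hG0 f w hw.1) p)
      have h3 : ∫ x in T (m + 1), (hess u x).det ^ β * gradSq u f x ^ p ≤
          A' * ((2 : ℝ) ^ (m + 1)) ^ (2 * p) := by
        refine (hE _ (one_le_pow₀ (by norm_num))).trans ?_
        exact mul_le_mul_of_nonneg_right (le_max_left _ _) (by positivity)
      have h4 : c * (∫ x in T (m + 1) \ T m, (hess u x).det ^ β * gradSq u f x ^ p) ≤ W := by
        have h5 := mul_le_mul_of_nonneg_left (h2.trans h3) hc0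
        refine h5.trans (le_of_eq ?_)
        have e0 : ((2 : ℝ) ^ (m + 1)) ^ (2 * p) = (((2 : ℝ) ^ m) ^ 2) ^ p * 4 ^ p := by
          rw [pow_mul, ← mul_pow]
          congr 1
          rw [pow_succ]
          ring
        have e2 : (((2 : ℝ) ^ m)⁻¹ ^ 2) ^ p * (((2 : ℝ) ^ m) ^ 2) ^ p = 1 := by
          rw [← mul_pow, ← mul_pow, inv_mul_cancel₀ h2m.ne']
          simp
        rw [hc, hW, e0]
        calc _ = ((((2 : ℝ) ^ m)⁻¹ ^ 2) ^ p * (((2 : ℝ) ^ m) ^ 2) ^ p) * (A' * 4 ^ p) := by ring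
          _ = _ := by rw [e2, one_mul]
      have h6 := h1.trans h4
      push_cast
      nlinarith
  have hlog : 0 < Real.log 2 := Real.log_pos (by norm_num)
  refine energy_final hA hΩ hconn hs (ρ := L) hL hcptL fun ε hε S₁ => ?_
  obtain ⟨m, hm⟩ := exists_nat_ge (max (max (W / (ε * Real.log 2 ^ (2 * p))) (S₁ / Real.log 2)) 1)
  have hm1 : 1 ≤ (m : ℝ) := (le_max_right _ _).trans hm
  have hm2 : S₁ / Real.log 2 ≤ (m : ℝ) := ((le_max_right _ _).trans (le_max_left _ _)).trans hm
  have hm3 : W / (ε * Real.log 2 ^ (2 * p)) ≤ (m : ℝ) :=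
    ((le_max_left _ _).trans (le_max_left _ _)).trans hm
  refine ⟨(m : ℝ) * Real.log 2, by rwa [div_le_iff₀ hlog] at hm2, ?_⟩
  have hset : {x | x ∈ Ω ∧ L x < (m : ℝ) * Real.log 2} = T m := by
    ext w
    constructor
    · rintro ⟨hw, h⟩
      refine ⟨hw, ?_⟩
      have h' : Real.log (f w) < Real.log ((2 : ℝ) ^ m) := by
        rw [Real.log_pow]
        exact h
      exact (Real.log_lt_log_iff (hf0 w hw) (by positivity)).1 h'
    · rintro ⟨hw, h⟩
      refine ⟨hw, ?_⟩
      have h' := (Real.log_lt_log_iff (hf0 w hw) (by positivity)).2 h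
      rw [Real.log_pow] at h'
      exact h'
  rw [hset]
  refine (hsum m).trans ?_
  have hm0 : (0 : ℝ) < m := by linarith
  have hlp : 0 < Real.log 2 ^ (2 * p) := by positivity
  rw [div_le_iff₀ (by positivity)] at hm3
  have hpow : (m : ℝ) ^ 2 ≤ (m : ℝ) ^ (2 * p) := pow_le_pow_right₀ hm1 (by omega)
  rw [mul_pow]
  have h5 : W * m ≤ ε * Real.log 2 ^ (2 * p) * (m : ℝ) ^ 2 := by
    have : W * m ≤ ((m : ℝ) * (ε * Real.log 2 ^ (2 * p))) * m :=
      mul_le_mul_of_nonneg_right hm3 hm0.le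
    refine this.trans (le_of_eq ?_)
    ring
  refine h5.trans ?_
  have h6 : ε * Real.log 2 ^ (2 * p) * (m : ℝ) ^ 2 ≤ ε * Real.log 2 ^ (2 * p) * (m : ℝ) ^ (2 * p) :=
    mul_le_mul_of_nonneg_left hpow (by positivity)
  refine h6.trans (le_of_eq ?_)
  ring

/-- The integral criterion `O(R^{2p})` for the inverse Hessian on entire solutions. -/
theorem entire_integral_O {p : ℕ} {β A : ℝ} (hA : AdmN n p β) (hs : IsAffineMaximal Set.univ u)
    (hI : ∀ R : ℝ, 1 ≤ R →
      ∫ x in Metric.closedBall x₀ R, (hess u x).det ^ β * Matrix.trace (hess u x)⁻¹ ^ p ≤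
        A * R ^ (2 * p)) (x z : Fin n → ℝ) :
    (hess u x).det = (hess u z).det := by
  have hτc : ContinuousOn (fun x => Matrix.trace (hess u x)⁻¹) Set.univ := by
    unfold Matrix.trace Matrix.diag
    exact continuousOn_finsetSum _ fun i _ => (hs.contDiffOn_Ui isOpen_univ i i).continuousOn
  have hρ0 : ∀ x, 0 < (hess u x).det ^ β := fun x =>
    Real.rpow_pos_of_pos (hs.det_pos (Set.mem_univ x)) _
  set K : ℝ := 2 ^ 2 * ((n : ℝ) + 1) with hK
  have hK0 : 0 ≤ K := by positivity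
  set A' : ℝ := max A 1 with hA'
  have hA'0 : 0 ≤ A' := le_trans zero_le_one (le_max_right _ _)
  refine log_energy (Ω := Set.univ) (f := fun x => 1 + rhoE x₀ x) (A := K ^ p * A') hA isOpen_univ
    isPreconnected_univ hs (contDiff_const.add (rhoE_contDiff x₀)).contDiffOn
    (fun w _ => by linarith [rhoE_nonneg x₀ w]) ?_ ?_ x (Set.mem_univ x) z (Set.mem_univ z)
  · intro s
    have h := isCompact_rhoE x₀ (s - 1)
    have e : {x | x ∈ Set.univ ∧ 1 + rhoE x₀ x ≤ s} = subLevelC Set.univ (rhoE x₀) (s - 1) := by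
      ext w
      constructor
      · rintro ⟨hw, h⟩
        exact ⟨hw, by linarith⟩
      · rintro ⟨hw, h⟩
        exact ⟨hw, by linarith⟩
    rw [e]
    exact h
  · intro S hS
    rw [gradSq_one_add]
    set R : ℝ := Real.sqrt S with hR
    have hR1 : 1 ≤ R := Real.one_le_sqrt.2 hS
    have hR2 : R ^ 2 = S := Real.sq_sqrt (by linarith)
    set Z : Set (Fin n → ℝ) := {x | x ∈ Set.univ ∧ 1 + rhoE x₀ x < S} with hZ
    have hZo : IsOpen Z := by
      have : Z = {x | 1 + rhoE x₀ x < S} := by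
        ext w
        simp [hZ]
      rw [this]
      exact isOpen_lt (continuous_const.add (rhoE_continuous x₀)) continuous_const
    have hZs : Z ⊆ Metric.closedBall x₀ R := by
      intro w hw
      rw [Metric.mem_closedBall, dist_eq_norm]
      refine norm_le_of_rhoE (by linarith) ?_
      rw [hR2]
      linarith [hw.2]
    have hcontB : ContinuousOn (fun x => (hess u x).det ^ β * Matrix.trace (hess u x)⁻¹ ^ p)
        Set.univ := (hs.contDiffOn_detpow isOpen_univ β).continuousOn.mul (hτc.pow p)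
    have hintB : IntegrableOn (fun x => (hess u x).det ^ β * Matrix.trace (hess u x)⁻¹ ^ p)
        (Metric.closedBall x₀ R) :=
      (hcontB.mono (Set.subset_univ _)).integrableOn_compact (isCompact_closedBall _ _)
    have hdX : ∀ j, ContDiffOn ℝ ∞ (dF (rhoE x₀) j) Set.univ := fun j =>
      contDiffOn_pd isOpen_univ (rhoE_contDiff x₀).contDiffOn j
    have hcontG : ContinuousOn (fun w => (hess u w).det ^ β * gradSq u (rhoE x₀) w ^ p) Set.univ := by
      have e : (fun w => (hess u w).det ^ β * gradSq u (rhoE x₀) w ^ p) =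
          fun w => (hess u w).det ^ β * pa u (dF (rhoE x₀)) (dF (rhoE x₀)) w ^ p := by
        funext w
        rw [pa_dF_eq]
      rw [e]
      exact (hs.contDiffOn_detpow isOpen_univ β).continuousOn.mul
        ((hs.contDiffOn_pa isOpen_univ hdX hdX).continuousOn.pow p)
    have hintG : IntegrableOn (fun w => (hess u w).det ^ β * gradSq u (rhoE x₀) w ^ p) Z :=
      ((hcontG.mono (Set.subset_univ _)).integrableOn_compact (isCompact_closedBall x₀ R)).mono_set
        hZs
    have h1 : ∫ w in Z, (hess u w).det ^ β * gradSq u (rhoE x₀) w ^ p ≤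
        ∫ w in Z, (K * S) ^ p * ((hess u w).det ^ β * Matrix.trace (hess u w)⁻¹ ^ p) := by
      refine setIntegral_mono_on hintG ((hintB.mono_set hZs).const_mul _) hZo.measurableSet
        fun w hw => ?_
      have h0 : 0 ≤ gradSq u (rhoE x₀) w := by
        rw [← pa_dF_eq]
        exact hs.pa_self_nonneg _ (Set.mem_univ w)
      have hpt : gradSq u (rhoE x₀) w ≤ (K * S) * Matrix.trace (hess u w)⁻¹ := by
        rw [← pa_dF_eq]
        have e1 : pa u (dF (rhoE x₀)) (dF (rhoE x₀)) w =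
            2 ^ 2 * pa u (fun j _ => w j - x₀ j) (fun j _ => w j - x₀ j) w :=
          pa_scale (fun j => pd_rhoE x₀ w j)
        have e2 : pa u (fun j _ => w j - x₀ j) (fun j _ => w j - x₀ j) w =
            Qv (hess u w)⁻¹ (w - x₀) (w - x₀) := by
          unfold pa ra Qv Ui
          refine Finset.sum_congr rfl fun i _ => ?_
          rw [Finset.mul_sum]
          refine Finset.sum_congr rfl fun j _ => ?_
          simp only [Pi.sub_apply]
          ring
        have h5 := quad_le_trace (hs.posDef w (Set.mem_univ w)).inv (w - x₀)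
        have h6 : 0 ≤ Matrix.trace (hess u w)⁻¹ :=
          trace_nonneg_of_posDef (hs.posDef w (Set.mem_univ w)).inv
        have h9 : ‖w - x₀‖ ^ 2 ≤ S := by
          have := norm_sq_le_rhoE x₀ w
          linarith [hw.2]
        rw [e1, e2]
        calc 2 ^ 2 * Qv (hess u w)⁻¹ (w - x₀) (w - x₀)
            ≤ 2 ^ 2 * (((n : ℝ) + 1) * Matrix.trace (hess u w)⁻¹ * ‖w - x₀‖ ^ 2) :=
              mul_le_mul_of_nonneg_left h5 (by norm_num)
          _ ≤ 2 ^ 2 * (((n : ℝ) + 1) * Matrix.trace (hess u w)⁻¹ * S) :=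
              mul_le_mul_of_nonneg_left (mul_le_mul_of_nonneg_left h9 (by positivity)) (by norm_num)
          _ = _ := by
              rw [hK]
              ring
      have h2 := pow_le_pow_left₀ h0 hpt p
      have h3 := mul_le_mul_of_nonneg_left h2 (hρ0 w).le
      refine h3.trans (le_of_eq ?_)
      rw [mul_pow (K * S)]
      ring
    rw [integral_const_mul] at h1
    have h2 : ∫ w in Z, (hess u w).det ^ β * Matrix.trace (hess u w)⁻¹ ^ p ≤
        ∫ w in Metric.closedBall x₀ R, (hess u w).det ^ β * Matrix.trace (hess u w)⁻¹ ^ p := by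
      refine setIntegral_mono_set hintB ?_ (Filter.Eventually.of_forall hZs)
      refine Filter.Eventually.of_forall fun w => ?_
      exact mul_nonneg (hρ0 w).le (pow_nonneg
        (trace_nonneg_of_posDef (hs.posDef w (Set.mem_univ w)).inv) _)
    have h3 := hI R hR1
    have h4 : A * R ^ (2 * p) ≤ A' * S ^ p := by
      rw [pow_mul, hR2]
      exact mul_le_mul_of_nonneg_right (le_max_left _ _) (by positivity)
    have hbig : (0 : ℝ) ≤ (K * S) ^ p := by positivity
    calc ∫ w in Z, (hess u w).det ^ β * gradSq u (rhoE x₀) w ^ p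
        ≤ (K * S) ^ p * ∫ w in Z, (hess u w).det ^ β * Matrix.trace (hess u w)⁻¹ ^ p := h1
      _ ≤ (K * S) ^ p * (A' * S ^ p) :=
          mul_le_mul_of_nonneg_left ((h2.trans h3).trans h4) hbig
      _ = _ := by
          rw [mul_pow, two_mul, pow_add]
          ring

/-- The integral criterion `O(R^{2p})` for the Hessian when the gradient map is proper. -/
theorem dual_integral_O {p : ℕ} {β A : ℝ} (hA : AdmN n p β) (hΩ : IsOpen Ω) (hc : Convex ℝ Ω)
    (hs : IsAffineMaximal Ω u)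
    (hcpt : ∀ R : ℝ, IsCompact {x | x ∈ Ω ∧ ‖gradMap u x₀ x‖ ≤ R})
    (hI : ∀ R : ℝ, 1 ≤ R →
      ∫ x in {x | x ∈ Ω ∧ ‖gradMap u x₀ x‖ ≤ R}, (hess u x).det ^ β * Matrix.trace (hess u x) ^ p ≤
        A * R ^ (2 * p)) :
    ∀ x ∈ Ω, ∀ z ∈ Ω, (hess u x).det = (hess u z).det := by
  have hτc : ContinuousOn (fun x => Matrix.trace (hess u x)) Ω := by
    unfold Matrix.trace Matrix.diag
    exact continuousOn_finsetSum _ fun i _ => (contDiffOn_pd2 hΩ hs.smooth i i).continuousOn
  have hρ0 : ∀ x ∈ Ω, 0 < (hess u x).det ^ β := fun x hx =>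
    Real.rpow_pos_of_pos (hs.det_pos hx) _
  have hG : ContDiffOn ℝ ∞ (rhoG u x₀) Ω := rhoG_contDiffOn hΩ hs.smooth
  have hG0 : ∀ w, 0 ≤ rhoG u x₀ w := fun w => Finset.sum_nonneg fun _ _ => sq_nonneg _
  set K : ℝ := 2 ^ 2 * ((n : ℝ) + 1) with hK
  have hK0 : 0 ≤ K := by positivity
  set A' : ℝ := max A 1 with hA'
  have hA'0 : 0 ≤ A' := le_trans zero_le_one (le_max_right _ _)
  have hcptG := isCompact_rhoG hΩ hs.smooth hcpt
  refine log_energy (f := fun x => 1 + rhoG u x₀ x) (A := K ^ p * A') hA hΩ hc.isPreconnected hs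
    (contDiffOn_const.add hG) (fun w _ => by linarith [hG0 w]) ?_ ?_
  · intro s
    have e : {x | x ∈ Ω ∧ 1 + rhoG u x₀ x ≤ s} = subLevelC Ω (rhoG u x₀) (s - 1) := by
      ext w
      constructor
      · rintro ⟨hw, h⟩
        exact ⟨hw, by linarith⟩
      · rintro ⟨hw, h⟩
        exact ⟨hw, by linarith⟩
    rw [e]
    exact hcptG _
  · intro S hS
    rw [gradSq_one_add]
    set R : ℝ := Real.sqrt S with hR
    have hR1 : 1 ≤ R := Real.one_le_sqrt.2 hS
    have hR2 : R ^ 2 = S := Real.sq_sqrt (by linarith)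
    set Z : Set (Fin n → ℝ) := {x | x ∈ Ω ∧ 1 + rhoG u x₀ x < S} with hZ
    have hZo : IsOpen Z := IsAffineMaximal.isOpen_subLevel hΩ (contDiffOn_const.add hG) S
    set B : Set (Fin n → ℝ) := {x | x ∈ Ω ∧ ‖gradMap u x₀ x‖ ≤ R} with hB
    have hnorm : ∀ w ∈ Z, ‖gradMap u x₀ w‖ ^ 2 ≤ S := by
      intro w hw
      have h1 := norm_sq_le_rhoE (0 : Fin n → ℝ) (gradMap u x₀ w)
      have h2 : rhoE (0 : Fin n → ℝ) (gradMap u x₀ w) = rhoG u x₀ w := by
        simp [rhoE, rhoG, gradMap]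
      rw [h2, sub_zero] at h1
      linarith [hw.2]
    have hZs : Z ⊆ B := by
      intro w hw
      refine ⟨hw.1, ?_⟩
      by_contra hcon
      have h3 := not_le.1 hcon
      have h4 := hnorm w hw
      nlinarith
    have hBΩ : B ⊆ Ω := fun x hx => hx.1
    have hcontB : ContinuousOn (fun x => (hess u x).det ^ β * Matrix.trace (hess u x) ^ p) Ω :=
      (hs.contDiffOn_detpow hΩ β).continuousOn.mul (hτc.pow p)
    have hintB : IntegrableOn (fun x => (hess u x).det ^ β * Matrix.trace (hess u x) ^ p) B :=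
      (hcontB.mono hBΩ).integrableOn_compact (hcpt R)
    have hdX : ∀ j, ContDiffOn ℝ ∞ (dF (rhoG u x₀) j) Ω := fun j => contDiffOn_pd hΩ hG j
    have hcontG : ContinuousOn (fun w => (hess u w).det ^ β * gradSq u (rhoG u x₀) w ^ p) Ω := by
      have e : (fun w => (hess u w).det ^ β * gradSq u (rhoG u x₀) w ^ p) =
          fun w => (hess u w).det ^ β * pa u (dF (rhoG u x₀)) (dF (rhoG u x₀)) w ^ p := by
        funext w
        rw [pa_dF_eq]
      rw [e]
      exact (hs.contDiffOn_detpow hΩ β).continuousOn.mul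
        ((hs.contDiffOn_pa hΩ hdX hdX).continuousOn.pow p)
    have hintG : IntegrableOn (fun w => (hess u w).det ^ β * gradSq u (rhoG u x₀) w ^ p) Z :=
      ((hcontG.mono hBΩ).integrableOn_compact (hcpt R)).mono_set hZs
    have h1 : ∫ w in Z, (hess u w).det ^ β * gradSq u (rhoG u x₀) w ^ p ≤
        ∫ w in Z, (K * S) ^ p * ((hess u w).det ^ β * Matrix.trace (hess u w) ^ p) := by
      refine setIntegral_mono_on hintG ((hintB.mono_set hZs).const_mul _) hZo.measurableSet
        fun w hw => ?_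
      have hwΩ : w ∈ Ω := hw.1
      have h0 : 0 ≤ gradSq u (rhoG u x₀) w := by
        rw [← pa_dF_eq]
        exact hs.pa_self_nonneg _ hwΩ
      have hpt : gradSq u (rhoG u x₀) w ≤ (K * S) * Matrix.trace (hess u w) := by
        rw [← pa_dF_eq, pa_rhoG hs hΩ hwΩ]
        have h5 := quad_le_trace (hs.posDef w hwΩ) (gradMap u x₀ w)
        have h6 : 0 ≤ Matrix.trace (hess u w) := trace_nonneg_of_posDef (hs.posDef w hwΩ)
        have h9 := hnorm w hw
        calc 2 ^ 2 * Qv (hess u w) (gradMap u x₀ w) (gradMap u x₀ w)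
            ≤ 2 ^ 2 * (((n : ℝ) + 1) * Matrix.trace (hess u w) * ‖gradMap u x₀ w‖ ^ 2) :=
              mul_le_mul_of_nonneg_left h5 (by norm_num)
          _ ≤ 2 ^ 2 * (((n : ℝ) + 1) * Matrix.trace (hess u w) * S) :=
              mul_le_mul_of_nonneg_left (mul_le_mul_of_nonneg_left h9 (by positivity)) (by norm_num)
          _ = _ := by
              rw [hK]
              ring
      have h2 := pow_le_pow_left₀ h0 hpt p
      have h3 := mul_le_mul_of_nonneg_left h2 (hρ0 w hwΩ).le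
      refine h3.trans (le_of_eq ?_)
      rw [mul_pow (K * S)]
      ring
    rw [integral_const_mul] at h1
    have h2 : ∫ w in Z, (hess u w).det ^ β * Matrix.trace (hess u w) ^ p ≤
        ∫ w in B, (hess u w).det ^ β * Matrix.trace (hess u w) ^ p := by
      refine setIntegral_mono_set hintB ?_ (Filter.Eventually.of_forall hZs)
      filter_upwards [ae_restrict_mem (hcpt R).measurableSet] with w hw
      exact mul_nonneg (hρ0 w hw.1).le (pow_nonneg (trace_nonneg_of_posDef (hs.posDef w hw.1)) _)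
    have h3 := hI R hR1
    have h4 : A * R ^ (2 * p) ≤ A' * S ^ p := by
      rw [pow_mul, hR2]
      exact mul_le_mul_of_nonneg_right (le_max_left _ _) (by positivity)
    have hbig : (0 : ℝ) ≤ (K * S) ^ p := by positivity
    calc ∫ w in Z, (hess u w).det ^ β * gradSq u (rhoG u x₀) w ^ p
        ≤ (K * S) ^ p * ∫ w in Z, (hess u w).det ^ β * Matrix.trace (hess u w) ^ p := h1
      _ ≤ (K * S) ^ p * (A' * S ^ p) :=
          mul_le_mul_of_nonneg_left ((h2.trans h3).trans h4) hbig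
      _ = _ := by
          rw [mul_pow, two_mul, pow_add]
          ring

end CaccioN

end Vale.Agent.Lib.P252
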