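import Vale.Agent.Lib.P252.GenN.Int

/-!
The Caccioppoli inequality in general dimension for general test functions.
-/

open scoped ContDiff Matrix Topology
open MeasureTheory

namespace Vale.Agent.Lib.P252

namespace CaccioN

variable {n : ℕ} {Ω : Set (Fin n → ℝ)} {u : (Fin n → ℝ) → ℝ} {ψ : (Fin n → ℝ) → ℝ}

/-- The value of the certificate. -/
noncomputable def Vv (n k : ℕ) (β y X ζ1 ζ2 ξ1 ξ3 : ℝ) : ℝ :=
  val (cN n) (n : ℝ) ((k : ℝ) + 2) β y X ζ1 ζ2 ξ1 ξ3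

/-- The first coefficient of the absorption. -/
noncomputable def Ll (k : ℕ) (y : ℝ) : ℝ := 1 - 4 * y ^ 2 * ((k : ℝ) + 2)

/-- The first constant. -/
noncomputable def Cc1 (n k : ℕ) (β y X ζ1 ζ2 ξ1 ξ3 : ℝ) : ℝ :=
  (2 * (k : ℝ) + 6) ^ 2 * Ll k y ^ 2 / (4 * dRes ((k : ℝ) + 2) y) + (2 * (k : ℝ) + 6) ^ 2 * y ^ 2 +
    (2 * (k : ℝ) + 6) ^ 2 * (X - Ll k y * ξ1 - y * ξ3) ^ 2 / (2 * Vv n k β y X ζ1 ζ2 ξ1 ξ3) + 1

/-- The second constant. -/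
noncomputable def Cc2 (n k : ℕ) (β y X ζ1 ζ2 ξ1 ξ3 : ℝ) : ℝ :=
  Cc1 n k β y X ζ1 ζ2 ξ1 ξ3 *
    (1 / (Vv n k β y X ζ1 ζ2 ξ1 ξ3 / (4 * Cc1 n k β y X ζ1 ζ2 ξ1 ξ3))) ^ (k + 2)

/-- The final constant. -/
noncomputable def CFin (n k : ℕ) (β y X ζ1 ζ2 ξ1 ξ3 : ℝ) : ℝ :=
  Cc2 n k β y X ζ1 ζ2 ξ1 ξ3 / (Vv n k β y X ζ1 ζ2 ξ1 ξ3 / 4)

lemma Cc1_pos {k : ℕ} {β y X ζ1 ζ2 ξ1 ξ3 : ℝ} (hc : Cert n k β y X ζ1 ζ2 ξ1 ξ3) :
    0 < Cc1 n k β y X ζ1 ζ2 ξ1 ξ3 := by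
  have hd := hc.hd
  have hv : 0 < Vv n k β y X ζ1 ζ2 ξ1 ξ3 := hc.hv
  unfold Cc1
  have h1 : 0 ≤ (2 * (k : ℝ) + 6) ^ 2 * Ll k y ^ 2 / (4 * dRes ((k : ℝ) + 2) y) := by positivity
  have h2 : 0 ≤ (2 * (k : ℝ) + 6) ^ 2 * y ^ 2 := by positivity
  have h3 : 0 ≤ (2 * (k : ℝ) + 6) ^ 2 * (X - Ll k y * ξ1 - y * ξ3) ^ 2 /
      (2 * Vv n k β y X ζ1 ζ2 ξ1 ξ3) := by positivity
  linarith

lemma Cc2_pos {k : ℕ} {β y X ζ1 ζ2 ξ1 ξ3 : ℝ} (hc : Cert n k β y X ζ1 ζ2 ξ1 ξ3) :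
    0 < Cc2 n k β y X ζ1 ζ2 ξ1 ξ3 := by
  have := Cc1_pos hc
  have hv : 0 < Vv n k β y X ζ1 ζ2 ξ1 ξ3 := hc.hv
  unfold Cc2
  positivity

lemma CFin_pos {k : ℕ} {β y X ζ1 ζ2 ξ1 ξ3 : ℝ} (hc : Cert n k β y X ζ1 ζ2 ξ1 ξ3) :
    0 < CFin n k β y X ζ1 ζ2 ξ1 ξ3 := by
  have := Cc2_pos hc
  have hv : 0 < Vv n k β y X ζ1 ζ2 ξ1 ξ3 := hc.hv
  unfold CFin
  positivity

/-- The combination of the three integrands. -/
noncomputable def combJ (Ω : Set (Fin n → ℝ)) (u : (Fin n → ℝ) → ℝ) (β : ℝ)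
    (ψ : (Fin n → ℝ) → ℝ) (k : ℕ) (X y : ℝ) : (Fin n → ℝ) → ℝ := fun x =>
  X * fieldJ Ω u β ψ (2 * k + 6) (fun j z => aT u z ^ (k + 1) * (aT u z * qF u j z)) x +
  (y - 1/2) * fieldJ Ω u β ψ (2 * k + 6) (fun j z => aT u z ^ (k + 1) * Ah u (qF u) (qF u) j z) x +
  fieldJ Ω u β ψ (2 * k + 6) (fun j z => aT u z ^ (k + 1) * ph u (qF u) j z) x

/-- The first mass function. -/
noncomputable def massU (Ω : Set (Fin n → ℝ)) (u : (Fin n → ℝ) → ℝ) (β : ℝ)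
    (ψ : (Fin n → ℝ) → ℝ) (k : ℕ) : (Fin n → ℝ) → ℝ :=
  Set.indicator Ω fun z => (hess u z).det ^ β * (ψ z ^ 2 * aT u z) ^ (k + 3)

/-- The second mass function. -/
noncomputable def massE (Ω : Set (Fin n → ℝ)) (u : (Fin n → ℝ) → ℝ) (β : ℝ)
    (ψ : (Fin n → ℝ) → ℝ) (k : ℕ) : (Fin n → ℝ) → ℝ :=
  Set.indicator Ω fun z => (hess u z).det ^ β * pa u (dF ψ) (dF ψ) z ^ (k + 3)

lemma pa_r3 (a P Q R : Fin n → (Fin n → ℝ) → ℝ) (r s t : ℝ) (x : Fin n → ℝ) :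
    pa u a (fun j z => r * P j z + s * Q j z + t * R j z) x =
      r * pa u a P x + s * pa u a Q x + t * pa u a R x := by
  unfold pa ra
  simp only [Finset.mul_sum]
  rw [← Finset.sum_add_distrib, ← Finset.sum_add_distrib]
  refine Finset.sum_congr rfl fun i _ => ?_
  rw [← Finset.sum_add_distrib, ← Finset.sum_add_distrib]
  refine Finset.sum_congr rfl fun j _ => ?_
  ring

lemma pa_l3 (a P Q R : Fin n → (Fin n → ℝ) → ℝ) (r s t : ℝ) (x : Fin n → ℝ) :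
    pa u (fun j z => r * P j z + s * Q j z + t * R j z) a x =
      r * pa u P a x + s * pa u Q a x + t * pa u R a x := by
  unfold pa
  rw [Finset.mul_sum, Finset.mul_sum, Finset.mul_sum, ← Finset.sum_add_distrib,
    ← Finset.sum_add_distrib]
  exact Finset.sum_congr rfl fun i _ => by ring

variable (hs : IsAffineMaximal Ω u) (hΩ : IsOpen Ω)
include hs hΩ

lemma combJ_integral (hψ : IsC1Test Ω ψ) (β : ℝ) (k : ℕ) (X y : ℝ) :
    Integrable (combJ Ω u β ψ k X y) ∧ ∫ x, combJ Ω u β ψ k X y x = 0 := by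
  have hT := hs.contDiffOn_aT hΩ
  have hq : ∀ j, ContDiffOn ℝ ∞ (qF u j) Ω := hs.contDiffOn_qF hΩ
  have hN : 2 * k + 6 ≠ 0 := by omega
  have i0 := fieldJ_integral hs hΩ hψ
    (V := fun j z => aT u z ^ (k + 1) * (aT u z * qF u j z))
    (fun j => (hT.pow (k + 1)).mul (hT.mul (hq j))) β hN
  have i1 := fieldJ_integral hs hΩ hψ
    (V := fun j z => aT u z ^ (k + 1) * Ah u (qF u) (qF u) j z)
    (fun j => (hT.pow (k + 1)).mul (hs.contDiffOn_Ah hΩ hq hq j)) β hN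
  have i2 := fieldJ_integral hs hΩ hψ
    (V := fun j z => aT u z ^ (k + 1) * ph u (qF u) j z)
    (fun j => (hT.pow (k + 1)).mul (hs.contDiffOn_ph hΩ hq j)) β hN
  unfold combJ
  exact zero_add_aux (zero_add_aux (zero_mul_aux _ i0) (zero_mul_aux _ i1)) i2

/-- The form of the combination. -/
lemma combJ_eq (β : ℝ) (k : ℕ) (X y : ℝ) {x : Fin n → ℝ} (hx : x ∈ Ω) :
    combJ Ω u β ψ k X y x = (hess u x).det ^ β *
      ((ψ x ^ 2) ^ (k + 2) * aT u x ^ k *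
        (ψ x ^ 2 * Pf (atomsAt u 0 x) ((k : ℝ) + 2) β y X +
          (2 * (k : ℝ) + 6) * ψ x * aT u x *
            (X * aT u x * pa u (dF ψ) (qF u) x + (y - 1/2) * pa u (dF ψ) (Ah u (qF u) (qF u)) x +
              pa u (dF ψ) (ph u (qF u)) x))) := by
  have hT := hs.contDiffOn_aT hΩ
  have hq : ∀ j, ContDiffOn ℝ ∞ (qF u j) Ω := hs.contDiffOn_qF hΩ
  have f0 := hs.fvV1 hΩ (x₀ := (0 : Fin n → ℝ)) hx
  have f1 := hs.fvV7 hΩ (x₀ := (0 : Fin n → ℝ)) hx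
  have f2 := hs.fvV10 hΩ (x₀ := (0 : Fin n → ℝ)) hx
  simp only at f0 f1 f2
  have e0 := fieldJ_pow hs hΩ (ψ := ψ) (V := fun j z => aT u z * qF u j z)
    (fun j => hT.mul (hq j)) k (2 * k + 6) β hx f0.dv_eq f0.pq_eq f0.pB_eq f0.pC1_eq
  have e1 := fieldJ_pow hs hΩ (ψ := ψ) (V := Ah u (qF u) (qF u))
    (fun j => hs.contDiffOn_Ah hΩ hq hq j) k (2 * k + 6) β hx f1.dv_eq f1.pq_eq f1.pB_eq f1.pC1_eq
  have e2 := fieldJ_pow hs hΩ (ψ := ψ) (V := ph u (qF u))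
    (fun j => hs.contDiffOn_ph hΩ hq j) k (2 * k + 6) β hx f2.dv_eq f2.pq_eq f2.pB_eq f2.pC1_eq
  unfold combJ
  rw [e0, e1, e2, IsAffineMaximal.pa_f_mul hs hΩ]
  have p1 : 2 * k + 6 - 1 = 2 * (k + 2) + 1 := by omega
  have p2 : 2 * k + 6 = 2 * (k + 2) + 2 := by omega
  rw [p1]
  simp only [p2]
  have q1 : ψ x ^ (2 * (k + 2) + 1) = (ψ x ^ 2) ^ (k + 2) * ψ x := by
    rw [pow_succ, pow_mul]
  have q2 : ψ x ^ (2 * (k + 2) + 2) = (ψ x ^ 2) ^ (k + 2) * ψ x ^ 2 := by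
    rw [pow_add, pow_mul]
  rw [q1, q2]
  have t : (atomsAt u 0 x).T = aT u x := rfl
  unfold Pf
  rw [t]
  push_cast
  ring

/-- The pointwise Cauchy-Schwarz facts for the three covectors. -/
lemma combJ_cs {α y ξ1 ξ3 : ℝ} {x : Fin n → ℝ} (hx : x ∈ Ω) :
    (1 * pa u (dF ψ) (ph u (qF u)) x + (-1/2) * pa u (dF ψ) (Ah u (qF u) (qF u)) x +
        (ξ1 * aT u x) * pa u (dF ψ) (qF u) x) ^ 2 ≤
      pa u (dF ψ) (dF ψ) x * Fv (atomsAt u 0 x) 1 (-1/2) ξ1 ∧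
    ((4 * y * α) * pa u (dF ψ) (ph u (qF u)) x +
        (1 - 2 * y * α) * pa u (dF ψ) (Ah u (qF u) (qF u)) x +
        (ξ3 * aT u x) * pa u (dF ψ) (qF u) x) ^ 2 ≤
      pa u (dF ψ) (dF ψ) x * Fv (atomsAt u 0 x) (4 * y * α) (1 - 2 * y * α) ξ3 ∧
    pa u (dF ψ) (qF u) x ^ 2 ≤ pa u (dF ψ) (dF ψ) x * aT u x := by
  obtain ⟨t1, -, -, -, t5, -, t7, -, -, -, r1, -, r3, r4, -, -, -, -, -, -, -, -, -, -, -, r16, -, r18,
    r19, -, -⟩ := hs.table hΩ (x₀ := (0 : Fin n → ℝ)) hx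
  have tT : (atomsAt u 0 x).T = aT u x := rfl
  have e3 : ∀ r s t : ℝ, pa u (fun j z => r * ph u (qF u) j z + s * Ah u (qF u) (qF u) j z +
      (t * aT u x) * qF u j z) (fun j z => r * ph u (qF u) j z + s * Ah u (qF u) (qF u) j z +
      (t * aT u x) * qF u j z) x = Fv (atomsAt u 0 x) r s t := by
    intro r s t
    rw [pa_l3, pa_r3, pa_r3, pa_r3, t5, r16, t7, r1, t1, r18, r3, r19, r4]
    unfold Fv
    rw [tT]
    ring
  have c1 := hs.pa_sq_le (dF ψ) (fun j z => 1 * ph u (qF u) j z +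
    (-1/2) * Ah u (qF u) (qF u) j z + (ξ1 * aT u x) * qF u j z) hx
  have c2 := hs.pa_sq_le (dF ψ) (fun j z => (4 * y * α) * ph u (qF u) j z +
    (1 - 2 * y * α) * Ah u (qF u) (qF u) j z + (ξ3 * aT u x) * qF u j z) hx
  have c3 := hs.pa_sq_le (dF ψ) (qF u) hx
  rw [pa_r3, e3] at c1
  rw [pa_r3, e3] at c2
  exact ⟨c1, c2, c3⟩

/-- The pointwise lower bound for the combination of the three integrands. -/
lemma combJ_lower {k : ℕ} {β y X ζ1 ζ2 ξ1 ξ3 : ℝ} (hc : Cert n k β y X ζ1 ζ2 ξ1 ξ3) {x : Fin n → ℝ}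
    (hx : x ∈ Ω) :
    (hess u x).det ^ β * ((Vv n k β y X ζ1 ζ2 ξ1 ξ3 / 4) * (ψ x ^ 2 * aT u x) ^ (k + 3) -
        Cc2 n k β y X ζ1 ζ2 ξ1 ξ3 * pa u (dF ψ) (dF ψ) x ^ (k + 3)) ≤ combJ Ω u β ψ k X y x := by
  rw [combJ_eq hs hΩ β k _ y hx]
  refine mul_le_mul_of_nonneg_left ?_ (Real.rpow_pos_of_pos (hs.det_pos hx) _).le
  have ht : ∀ a1 a2 a3 a4 a5 a6 a7 b1 b2 b3 b4 b5 b6 b7 c1 c2 c3 c4 c5 c6 c7 d1 d2 d3 d4 d5 d6 d7 : ℝ,
      0 ≤ (atomsAt u 0 x).fTens a1 a2 a3 a4 a5 a6 a7 b1 b2 b3 b4 b5 b6 b7 c1 c2 c3 c4 c5 c6 c7 d1 d2 d3 d4 d5 d6 d7 :=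
    fun _ _ _ _ _ _ _ _ _ _ _ _ _ _ _ _ _ _ _ _ _ _ _ _ _ _ _ _ =>
      hs.tens_gram hΩ _ _ _ _ _ _ _ _ _ _ _ _ _ _ _ _ _ _ _ _ _ _ _ _ _ _ _ _ hx
  have hg : ∀ z1 z2 z3 z4 z5 z6 z7 : ℝ,
      0 ≤ (atomsAt u 0 x).fPV z1 z2 z3 z4 z5 z6 z7 z1 z2 z3 z4 z5 z6 z7 :=
    fun _ _ _ _ _ _ _ => hs.vec_gram hΩ _ _ _ _ _ _ _ hx
  have hP := Pf_lower (atomsAt u 0 x) ht ((k : ℝ) + 2) β y X ζ1 ζ2 ξ1 ξ3 hc.C1 hc.C2 hc.he
  obtain ⟨c1, c2, c3⟩ := combJ_cs hs hΩ (ψ := ψ) (α := (k : ℝ) + 2) (y := y) (ξ1 := ξ1) (ξ3 := ξ3) hx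
  exact final_abs k (l := Ll k y) (α := (k : ℝ) + 2) (ξ1 := ξ1) (ξ3 := ξ3) (S3 := Fv (atomsAt u 0 x) 1 (-1/2) ξ1)
    (S2 := Fv (atomsAt u 0 x) (4 * y * ((k : ℝ) + 2)) (1 - 2 * y * ((k : ℝ) + 2)) ξ3)
    (d := dRes ((k : ℝ) + 2) y) (v := Vv n k β y X ζ1 ζ2 ξ1 ξ3) (C1 := Cc1 n k β y X ζ1 ζ2 ξ1 ξ3)
    rfl (hs.aT_nonneg hx) (hs.pa_self_nonneg _ hx) (Fv_nonneg _ hg _ _ _) (Fv_nonneg _ hg _ _ _)
    hc.hd hc.hv c1 c2 c3 hP rfl (Cc1_pos hc) rfl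

omit hs hΩ in
lemma massU_zero {β : ℝ} {k : ℕ} (_hψ : IsC1Test Ω ψ) {z : Fin n → ℝ} (hz : z ∉ tsupport ψ) :
    massU Ω u β ψ k z = 0 := by
  have h0 : ψ z = 0 := image_eq_zero_of_notMem_tsupport hz
  have hzΩ : z ∈ Ω ∨ z ∉ Ω := em _
  rcases hzΩ with h | h
  · simp [massU, Set.indicator_of_mem h, h0]
  · simp [massU, Set.indicator_of_notMem h]

omit hs hΩ in
lemma massE_zero {β : ℝ} {k : ℕ} (hψ : IsC1Test Ω ψ) {z : Fin n → ℝ} (hz : z ∉ tsupport ψ) :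
    massE Ω u β ψ k z = 0 := by
  have h0 : ∀ i, pd i ψ z = 0 := fun i => hψ.pd_zero hz i
  have e : pa u (dF ψ) (dF ψ) z = 0 := by
    unfold pa ra dF
    simp [h0]
  have hzΩ : z ∈ Ω ∨ z ∉ Ω := em _
  rcases hzΩ with h | h
  · simp [massE, Set.indicator_of_mem h, e]
  · simp [massE, Set.indicator_of_notMem h]

lemma continuousOn_paE (hψ : IsC1Test Ω ψ) : ContinuousOn (pa u (dF ψ) (dF ψ)) Ω := by
  unfold pa ra
  refine continuousOn_finsetSum _ fun i _ => (hψ.continuous_pd i).continuousOn.mul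
    (continuousOn_finsetSum _ fun j _ => (hs.contDiffOn_Ui hΩ i j).continuousOn.mul
      (hψ.continuous_pd j).continuousOn)

lemma integrable_massU (hψ : IsC1Test Ω ψ) (β : ℝ) (k : ℕ) : Integrable (massU Ω u β ψ k) := by
  refine integrable_of_support hψ.cpt hψ.sub ?_ fun z hz => massU_zero hψ hz
  have hcont : ContinuousOn (fun z => (hess u z).det ^ β * (ψ z ^ 2 * aT u z) ^ (k + 3)) Ω :=
    (hs.contDiffOn_detpow hΩ β).continuousOn.mul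
      (((hψ.smooth.continuous.continuousOn.pow 2).mul (hs.contDiffOn_aT hΩ).continuousOn).pow (k + 3))
  exact hcont.congr fun y hy => by simp [massU, Set.indicator_of_mem hy]

lemma integrable_massE (hψ : IsC1Test Ω ψ) (β : ℝ) (k : ℕ) : Integrable (massE Ω u β ψ k) := by
  refine integrable_of_support hψ.cpt hψ.sub ?_ fun z hz => massE_zero hψ hz
  have hcont : ContinuousOn (fun z => (hess u z).det ^ β * pa u (dF ψ) (dF ψ) z ^ (k + 3)) Ω :=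
    (hs.contDiffOn_detpow hΩ β).continuousOn.mul ((continuousOn_paE hs hΩ hψ).pow (k + 3))
  exact hcont.congr fun y hy => by simp [massE, Set.indicator_of_mem hy]

/-- The Caccioppoli inequality. -/
theorem caccioppoli {k : ℕ} {β y X ζ1 ζ2 ξ1 ξ3 : ℝ} (hc : Cert n k β y X ζ1 ζ2 ξ1 ξ3)
    (hψ : IsC1Test Ω ψ) :
    ∫ x in Ω, (hess u x).det ^ β * (ψ x ^ 2 * aT u x) ^ (k + 3) ≤
      CFin n k β y X ζ1 ζ2 ξ1 ξ3 * ∫ x in Ω, (hess u x).det ^ β * pa u (dF ψ) (dF ψ) x ^ (k + 3) := by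
  have hA := integrable_massU hs hΩ hψ β k
  have hB := integrable_massE hs hΩ hψ β k
  have hC := combJ_integral hs hΩ hψ β k X y
  have hlow : ∀ x, (Vv n k β y X ζ1 ζ2 ξ1 ξ3 / 4) * massU Ω u β ψ k x - Cc2 n k β y X ζ1 ζ2 ξ1 ξ3 * massE Ω u β ψ k x ≤
      combJ Ω u β ψ k X y x := by
    intro x
    by_cases hx : x ∈ Ω
    · have h := combJ_lower hs hΩ (ψ := ψ) hc hx
      simp only [massU, massE, Set.indicator_of_mem hx]
      refine le_trans (le_of_eq ?_) h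
      ring
    · simp [massU, massE, combJ, fieldJ, Set.indicator_of_notMem hx]
  have hle : ∫ x, ((Vv n k β y X ζ1 ζ2 ξ1 ξ3 / 4) * massU Ω u β ψ k x - Cc2 n k β y X ζ1 ζ2 ξ1 ξ3 * massE Ω u β ψ k x) ≤
      ∫ x, combJ Ω u β ψ k X y x :=
    integral_mono ((hA.const_mul _).sub (hB.const_mul _)) hC.1 hlow
  rw [hC.2, integral_sub (hA.const_mul _) (hB.const_mul _), integral_const_mul,
    integral_const_mul] at hle
  have e1 : ∫ x, massU Ω u β ψ k x =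
      ∫ x in Ω, (hess u x).det ^ β * (ψ x ^ 2 * aT u x) ^ (k + 3) :=
    integral_indicator hΩ.measurableSet
  have e2 : ∫ x, massE Ω u β ψ k x =
      ∫ x in Ω, (hess u x).det ^ β * pa u (dF ψ) (dF ψ) x ^ (k + 3) :=
    integral_indicator hΩ.measurableSet
  rw [e1, e2] at hle
  have hv0 : 0 < Vv n k β y X ζ1 ζ2 ξ1 ξ3 := hc.hv
  have hv4 : 0 < Vv n k β y X ζ1 ζ2 ξ1 ξ3 / 4 := by positivity
  unfold CFin
  rw [div_mul_eq_mul_div, le_div_iff₀ hv4]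
  linarith

/-- The Liouville theorem when test functions with arbitrarily small energy exist. -/
theorem det_const_of_capacity {k : ℕ} {β y X ζ1 ζ2 ξ1 ξ3 : ℝ} (hc : Cert n k β y X ζ1 ζ2 ξ1 ξ3)
    (hconn : IsPreconnected Ω)
    (hcap : ∀ K : Set (Fin n → ℝ), IsCompact K → K ⊆ Ω → ∀ ε : ℝ, 0 < ε → ∃ ψ,
      IsC1Test Ω ψ ∧ (∀ x ∈ K, ψ x = 1) ∧
        ∫ x in Ω, (hess u x).det ^ β * pa u (dF ψ) (dF ψ) x ^ (k + 3) ≤ ε)
    {x z : Fin n → ℝ} (hx : x ∈ Ω) (hz : z ∈ Ω) : (hess u x).det = (hess u z).det := by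
  have hρ0 : ∀ x ∈ Ω, 0 < (hess u x).det ^ β := fun x hx =>
    Real.rpow_pos_of_pos (hs.det_pos hx) _
  have hY : ContinuousOn (fun x => (hess u x).det ^ β * aT u x ^ (k + 3)) Ω :=
    (hs.contDiffOn_detpow hΩ _).continuousOn.mul ((hs.contDiffOn_aT hΩ).continuousOn.pow (k + 3))
  have hC := CFin_pos hc
  have hzero : ∀ K : Set (Fin n → ℝ), IsCompact K → K ⊆ Ω →
      ∫ x in K, (hess u x).det ^ β * aT u x ^ (k + 3) = 0 := by
    intro K hK hKΩ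
    set I₀ := ∫ x in K, (hess u x).det ^ β * aT u x ^ (k + 3) with hI₀
    have hI0 : 0 ≤ I₀ := by
      refine setIntegral_nonneg hK.measurableSet fun w hw => ?_
      exact mul_nonneg (hρ0 w (hKΩ hw)).le (pow_nonneg (hs.aT_nonneg (hKΩ hw)) _)
    by_contra hne
    have hIpos : 0 < I₀ := lt_of_le_of_ne hI0 (Ne.symm hne)
    obtain ⟨ψ, hψ, h1, h2⟩ := hcap K hK hKΩ (I₀ / (2 * CFin n k β y X ζ1 ζ2 ξ1 ξ3)) (by positivity)
    have hmain := caccioppoli hs hΩ hc hψ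
    have hle : I₀ ≤ ∫ x in Ω, (hess u x).det ^ β * (ψ x ^ 2 * aT u x) ^ (k + 3) := by
      have e : I₀ = ∫ x in K, (hess u x).det ^ β * (ψ x ^ 2 * aT u x) ^ (k + 3) := by
        refine setIntegral_congr_fun hK.measurableSet fun w hw => ?_
        simp only [h1 w hw]
        norm_num
      rw [e]
      have hint : Integrable (massU Ω u β ψ k) := integrable_massU hs hΩ hψ β k
      have hint2 : IntegrableOn (fun x => (hess u x).det ^ β * (ψ x ^ 2 * aT u x) ^ (k + 3)) Ω := by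
        rw [← integrable_indicator_iff hΩ.measurableSet]
        exact hint
      refine setIntegral_mono_set hint2 ?_ (Filter.Eventually.of_forall hKΩ)
      filter_upwards [ae_restrict_mem hΩ.measurableSet] with w hw
      exact mul_nonneg (hρ0 w hw).le (pow_nonneg (mul_nonneg (sq_nonneg _) (hs.aT_nonneg hw)) _)
    have h3 : CFin n k β y X ζ1 ζ2 ξ1 ξ3 * ∫ x in Ω, (hess u x).det ^ β * pa u (dF ψ) (dF ψ) x ^ (k + 3) ≤
        CFin n k β y X ζ1 ζ2 ξ1 ξ3 * (I₀ / (2 * CFin n k β y X ζ1 ζ2 ξ1 ξ3)) := mul_le_mul_of_nonneg_left h2 hC.le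
    have h4 : CFin n k β y X ζ1 ζ2 ξ1 ξ3 * (I₀ / (2 * CFin n k β y X ζ1 ζ2 ξ1 ξ3)) = I₀ / 2 := by
      field_simp
    linarith
  have hTzero : ∀ w ∈ Ω, aT u w = 0 := by
    intro w hw
    obtain ⟨r, hr, hball⟩ := Metric.nhds_basis_closedBall.mem_iff.1 (hΩ.mem_nhds hw)
    have hKc : IsCompact (Metric.closedBall w r) := isCompact_closedBall w r
    have hae := (setIntegral_eq_zero_iff_of_nonneg_ae (μ := volume)
      (f := fun x => (hess u x).det ^ β * aT u x ^ (k + 3)) (s := Metric.closedBall w r) ?_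
      ((hY.mono hball).integrableOn_compact hKc)).1 (hzero _ hKc hball)
    · have hO : IsOpen (Metric.ball w r) := Metric.isOpen_ball
      have hsub : Metric.ball w r ⊆ Metric.closedBall w r := Metric.ball_subset_closedBall
      have hae2 : (fun x => (hess u x).det ^ β * aT u x ^ (k + 3)) =ᵐ[volume.restrict
          (Metric.ball w r)] 0 := ae_restrict_of_ae_restrict_of_subset hsub hae
      have hon : Set.EqOn (fun x => (hess u x).det ^ β * aT u x ^ (k + 3)) 0 (Metric.ball w r) :=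
        Measure.eqOn_open_of_ae_eq hae2 hO (hY.mono (hsub.trans hball)) continuousOn_const
      have h := hon (Metric.mem_ball_self hr)
      simp only [Pi.zero_apply] at h
      have h' := (mul_eq_zero.1 h).resolve_left (hρ0 w hw).ne'
      exact (pow_eq_zero_iff (by omega)).1 h'
    · filter_upwards [ae_restrict_mem hKc.measurableSet] with v hv
      exact mul_nonneg (hρ0 v (hball hv)).le (pow_nonneg (hs.aT_nonneg (hball hv)) _)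
  have hlog : logD u x = logD u z :=
    hΩ.is_const_of_fderiv_eq_zero (𝕜 := ℝ) hconn
      ((hs.contDiffOn_logD hΩ).differentiableOn (by simp))
      (fun w hw => fderiv_eq_zero_of_gr (hs.gr_logD_eq_zero hw (hTzero w hw))) hx hz
  have h1 := Real.exp_log (hs.det_pos hx)
  have h2 := Real.exp_log (hs.det_pos hz)
  have h3 : Real.log (hess u x).det = Real.log (hess u z).det := hlog
  rw [← h1, ← h2, h3]

end CaccioN

end Vale.Agent.Lib.P252
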