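import Vale.Agent.Lib.P252.GenN.Defs
import Vale.Agent.Lib.P252.DefsC
import Vale.Agent.Lib.P252.Complete

/-!
Named pieces of the statement of the theorem in general dimension.
-/

open scoped ContDiff
open MeasureTheory

namespace Vale.Agent.Lib.P252

namespace CaccioN

/-- `D = det D²u` takes one value on `Ω`. -/
def DetConst {n : ℕ} (Ω : Set (Fin n → ℝ)) (u : (Fin n → ℝ) → ℝ) : Prop :=
  ∀ x ∈ Ω, ∀ z ∈ Ω, (hess u x).det = (hess u z).det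

/-- The listed admissible exponents for `D^0`, `D^1`, in low and high dimensions. -/
def TableA : Prop :=
  (∀ p, 3 ≤ p → p ≤ 20 → AdmN 3 p 0) ∧ (∀ p, 3 ≤ p → p ≤ 55 → AdmN 4 p 0) ∧
    (∀ p, 3 ≤ p → p ≤ 16 → AdmN 5 p 0) ∧ (∀ p, 3 ≤ p → p ≤ 10 → AdmN 6 p 0) ∧
    (∀ p, 3 ≤ p → p ≤ 7 → AdmN 7 p 0) ∧ (∀ p, 3 ≤ p → p ≤ 6 → AdmN 8 p 0) ∧
    (∀ p, 3 ≤ p → p ≤ 5 → AdmN 9 p 0) ∧ (∀ n, 10 ≤ n → n ≤ 24 → AdmN n 3 0) ∧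
    (∀ n, 10 ≤ n → n ≤ 12 → AdmN n 4 0) ∧ AdmN 10 5 (-1/7) ∧
    (∀ p, 3 ≤ p → p ≤ 20 → AdmN 3 p 1) ∧ (∀ p, 4 ≤ p → p ≤ 49 → AdmN 4 p 1) ∧
    (∀ p, 6 ≤ p → p ≤ 9 → AdmN 5 p 1)

/-- The listed admissible exponents for the area forms of the Calabi and Blaschke metrics. -/
def TableB : Prop :=
  (∀ p, 3 ≤ p → p ≤ 52 → AdmN 4 p (1/2)) ∧ (∀ p, 3 ≤ p → p ≤ 14 → AdmN 5 p (1/2)) ∧
    (∀ p, 4 ≤ p → p ≤ 7 → AdmN 6 p (1/2)) ∧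
    (∀ p : ℕ, 3 ≤ p → p ≤ 16 → AdmN 4 p (((p : ℕ) + 1) / 6)) ∧
    (∀ p : ℕ, 3 ≤ p → p ≤ 6 → AdmN 5 p (((p : ℕ) + 1) / 7))

/-- The Caccioppoli inequality with a universal constant. -/
def CaccioppoliAt (n p : ℕ) (β : ℝ) : Prop :=
  ∃ C : ℝ, 0 < C ∧ ∀ (Ω : Set (Fin n → ℝ)) (u ψ : (Fin n → ℝ) → ℝ),
    IsOpen Ω → IsAffineMaximal Ω u → ContDiff ℝ 1 ψ → HasCompactSupport ψ → tsupport ψ ⊆ Ω →
    ∫ x in Ω, (hess u x).det ^ β *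
        (ψ x ^ (2 * p) * gradSq u (fun y => Real.log (hess u y).det) x ^ p) ≤
      C * ∫ x in Ω, (hess u x).det ^ β * gradSq u ψ x ^ p

/-- Test functions of small energy exist. -/
def SmallEnergy {n : ℕ} (p : ℕ) (β : ℝ) (Ω : Set (Fin n → ℝ)) (u : (Fin n → ℝ) → ℝ) : Prop :=
  ∀ K : Set (Fin n → ℝ), IsCompact K → K ⊆ Ω → ∀ ε : ℝ, 0 < ε →
    ∃ ψ : (Fin n → ℝ) → ℝ, ContDiff ℝ 1 ψ ∧ HasCompactSupport ψ ∧ tsupport ψ ⊆ Ω ∧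
      (∀ x ∈ K, ψ x = 1) ∧ ∫ x in Ω, (hess u x).det ^ β * gradSq u ψ x ^ p ≤ ε

/-- `ρ` is a smooth function on `Ω` with compact sublevel sets. -/
def IsExhaustion {n : ℕ} (Ω : Set (Fin n → ℝ)) (ρ : (Fin n → ℝ) → ℝ) : Prop :=
  ContDiffOn ℝ ∞ ρ Ω ∧ ∀ s : ℝ, IsCompact {x | x ∈ Ω ∧ ρ x ≤ s}

/-- `F(S) ≤ ε S^{2p}` along a sequence `S → ∞`, for every `ε > 0`. -/
def LittleO (p : ℕ) (F : ℝ → ℝ) : Prop :=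
  ∀ ε : ℝ, 0 < ε → ∀ S₁ : ℝ, ∃ S : ℝ, S₁ ≤ S ∧ F S ≤ ε * S ^ (2 * p)

/-- `F(S) ≤ A S^{2p}` for all `S ≥ 1`. -/
def BigO (p : ℕ) (F : ℝ → ℝ) : Prop :=
  ∃ A : ℝ, ∀ S : ℝ, 1 ≤ S → F S ≤ A * S ^ (2 * p)

/-- The criteria on an open connected set. -/
def CriteriaDomain (n p : ℕ) (β : ℝ) : Prop :=
  ∀ (Ω : Set (Fin n → ℝ)) (u : (Fin n → ℝ) → ℝ), IsOpen Ω → IsPreconnected Ω →
    IsAffineMaximal Ω u →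
    (SmallEnergy p β Ω u → DetConst Ω u) ∧
    (∀ ρ, IsExhaustion Ω ρ →
      (LittleO p fun S => ∫ x in {x | x ∈ Ω ∧ ρ x < S}, (hess u x).det ^ β * gradSq u ρ x ^ p) →
      DetConst Ω u) ∧
    (∀ ρ, IsExhaustion Ω ρ → (∀ x ∈ Ω, 1 ≤ ρ x) →
      (BigO p fun S => ∫ x in {x | x ∈ Ω ∧ ρ x < S}, (hess u x).det ^ β * gradSq u ρ x ^ p) →
      DetConst Ω u) ∧
    (∀ (τ : ℝ) (ρ : (Fin n → ℝ) → ℝ), IsExhaustion Ω ρ →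
      (∀ x ∈ Ω, (hess u x).det ^ τ * gradSq u ρ x ≤ 1) →
      (LittleO p fun S => ∫ x in {x | x ∈ Ω ∧ ρ x < S}, (hess u x).det ^ (β - (p : ℝ) * τ)) →
      DetConst Ω u)

/-- The criteria for entire solutions. -/
def CriteriaEntire (n p : ℕ) (β : ℝ) : Prop :=
  ∀ (u : (Fin n → ℝ) → ℝ) (x₀ : Fin n → ℝ), IsAffineMaximal Set.univ u →
    ((LittleO p fun R => ∫ x in Metric.closedBall x₀ R,
        (hess u x).det ^ β * Matrix.trace (hess u x)⁻¹ ^ p) → DetConst Set.univ u) ∧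
    ((BigO p fun R => ∫ x in Metric.closedBall x₀ R,
        (hess u x).det ^ β * Matrix.trace (hess u x)⁻¹ ^ p) → DetConst Set.univ u) ∧
    (∀ a C Λ : ℝ, 0 ≤ a → (n : ℝ) ≤ (2 - a) * (p : ℝ) →
      (∀ x, Matrix.trace (hess u x)⁻¹ ≤ C * (1 + ‖x - x₀‖) ^ a) →
      (∀ x, (hess u x).det ^ β ≤ Λ) → DetConst Set.univ u)

/-- The norm of the gradient of `ū`. -/
noncomputable def dBar {n : ℕ} (u : (Fin n → ℝ) → ℝ) (x₀ x : Fin n → ℝ) : ℝ :=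
  ‖(fun i => pd i (uBar u x₀) x : Fin n → ℝ)‖

/-- The criteria for a Euclidean complete graph. -/
def CriteriaComplete (n p : ℕ) (β : ℝ) : Prop :=
  ∀ (Ω : Set (Fin n → ℝ)) (u : (Fin n → ℝ) → ℝ) (x₀ : Fin n → ℝ) (a C Λ : ℝ), IsOpen Ω →
    Convex ℝ Ω → x₀ ∈ Ω → IsAffineMaximal Ω u →
    (IsEuclideanComplete Ω u ∨ ∀ s : ℝ, IsCompact {x | x ∈ Ω ∧ uBar u x₀ x ≤ s}) →
    (∀ x ∈ Ω, gradSq u (uBar u x₀) x ≤ C * (1 + uBar u x₀ x) ^ a) →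
    (((n : ℝ) ≤ (2 - a) * (p : ℝ) ∧ ∀ x ∈ Ω, (hess u x).det ^ β ≤ Λ) ∨
      (a ≤ 2 ∧ ∀ S : ℝ, 1 ≤ S → ∫ x in {x | x ∈ Ω ∧ uBar u x₀ x < S}, (hess u x).det ^ β ≤
        Λ * S ^ ((2 - a) * (p : ℝ)))) →
    DetConst Ω u

/-- The criteria when the gradient map is proper. -/
def CriteriaDual (n p : ℕ) (β : ℝ) : Prop :=
  ∀ (Ω : Set (Fin n → ℝ)) (u : (Fin n → ℝ) → ℝ) (x₀ : Fin n → ℝ), IsOpen Ω → Convex ℝ Ω →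
    IsAffineMaximal Ω u → (∀ R : ℝ, IsCompact {x | x ∈ Ω ∧ dBar u x₀ x ≤ R}) →
    ((LittleO p fun R => ∫ x in {x | x ∈ Ω ∧ dBar u x₀ x ≤ R},
        (hess u x).det ^ β * Matrix.trace (hess u x) ^ p) → DetConst Ω u) ∧
    ((BigO p fun R => ∫ x in {x | x ∈ Ω ∧ dBar u x₀ x ≤ R},
        (hess u x).det ^ β * Matrix.trace (hess u x) ^ p) → DetConst Ω u) ∧
    (β = 1 → ∀ C b : ℝ, 0 ≤ b → (n : ℝ) < (2 - b) * (p : ℝ) →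
      (∀ x ∈ Ω, Matrix.trace (hess u x) ≤ C * (1 + dBar u x₀ x) ^ b) → DetConst Ω u)

end CaccioN

end Vale.Agent.Lib.P252
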